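import Vale.Agent.P233.Gig.Defs

/-! P233, block D0: the gradient of the distance functions. -/

set_option linter.all false

open MeasureTheory Filter Topology Set
open scoped ENNReal NNReal InnerProductSpace

universe u

namespace Vale.Agent.P233.H183

variable {M : Type u} [MetricSpace M] [MeasurableSpace M] {m : Measure M}

/-! ### classes of functions -/

theorem cl_ae {f : M → ℝ} (hf : AEStronglyMeasurable f m) : ⇑(cl m f) =ᵐ[m] f := by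
  unfold cl
  rw [dif_pos hf]
  exact AEEqFun.coeFn_mk f hf

variable [BorelSpace M]

theorem cl_cont {f : M → ℝ} (hf : Continuous f) : ⇑(cl m f) =ᵐ[m] f :=
  cl_ae hf.aestronglyMeasurable

/-- Lipschitz functions with bounded support are Sobolev functions -/
theorem W12_of_lip (hfin : ∀ (x : M) (r : ℝ), m (Metric.ball x r) < ∞) {u : M → ℝ} {L : ℝ≥0}
    (hu : LipschitzWith L u) {x₀ : M} {R : ℝ} (hR : ∀ x, R ≤ dist x₀ x → u x = 0) :
    Met.W12 m u := by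
  have h := Met.good_of_bounded_support hfin hu (x₀ := x₀) (R := R) (fun x hx => hR x (by
    rw [Metric.mem_ball, not_lt, dist_comm] at hx; exact hx))
  exact ⟨_, h.rSlope⟩

theorem cl_mem_W (hfin : ∀ (x : M) (r : ℝ), m (Metric.ball x r) < ∞) {u : M → ℝ} {L : ℝ≥0}
    (hu : LipschitzWith L u) {x₀ : M} {R : ℝ} (hR : ∀ x, R ≤ dist x₀ x → u x = 0) :
    cl m u ∈ (sob m).W :=
  mem_sob_iff.2 ((W12_of_lip hfin hu hR).congr (cl_cont hu.continuous).symm)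

theorem cl_mem_A (hfin : ∀ (x : M) (r : ℝ), m (Metric.ball x r) < ∞) {u : M → ℝ} {L : ℝ≥0}
    (hu : LipschitzWith L u) {x₀ : M} {R : ℝ} (hR : ∀ x, R ≤ dist x₀ x → u x = 0) :
    cl m u ∈ (sob m).A := by
  refine ⟨cl_mem_W hfin hu hR, ?_⟩
  obtain ⟨C, hC⟩ := Met.bdd_of_bounded_support hu (x₀ := x₀) (R := R) (fun x hx => hR x (by
    rw [Metric.mem_ball, not_lt, dist_comm] at hx; exact hx))
  rw [mem_top_iff]
  refine ⟨C, ?_⟩
  filter_upwards [cl_cont (m := m) hu.continuous] with x hx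
  rw [hx]; exact hC x

theorem Γ_cl_le [SecondCountableTopology M] (hfin : ∀ (x : M) (r : ℝ), m (Metric.ball x r) < ∞)
    {u : M → ℝ} {L : ℝ≥0}
    (hu : LipschitzWith L u) {x₀ : M} {R : ℝ} (hR : ∀ x, R ≤ dist x₀ x → u x = 0) :
    ∀ᵐ x ∂m, (sob m).Γ (cl m u) (cl m u) x ≤ (L : ℝ) ^ 2 := by
  have hW := cl_mem_W hfin hu hR
  have h4 := slope_le_of_lipschitz hfin hW (cl_cont hu.continuous) hu
  rw [le_iff_ae] at h4
  filter_upwards [h4, sob_Γ_self_ae hW, slope_ae hW,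
    smul_ae (1 : M →ₘ[m] ℝ) (L : ℝ), one_ae (M := M) (m := m),
    (mem_sob_iff.1 hW).mslope_nonneg] with x a1 a2 a3 a4 a5 a6
  rw [a3, a4, a5, mul_one] at a1
  rw [a2]
  gcongr

/-! ### locality -/

theorem Γ_loc0 (hC : IsDir (sob m)) {f g : M →ₘ[m] ℝ} (hf : f ∈ (sob m).W) (hg : g ∈ (sob m).W)
    (c : ℝ) : ∀ᵐ x ∂m, f x = c → (sob m).Γ f g x = 0 := by
  filter_upwards [hC.Γ_cs_ae hf hg, sob_Γ_self_ae hf,
    Met.mslope_eq_zero_of_eq_const (mem_sob_iff.1 hf) c] with x h1 h2 h3 hx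
  rw [h2, h3 hx] at h1
  have h4 : (sob m).Γ f g x ^ 2 ≤ 0 := by simpa using h1
  exact pow_eq_zero_iff (two_ne_zero) |>.1 (le_antisymm h4 (sq_nonneg _))

/-- locality: `Γ(f,g) = Γ(f',g)` a.e. on `{f - f' = c}` -/
theorem Γ_loc (hC : IsDir (sob m)) {f f' g : M →ₘ[m] ℝ} (hf : f ∈ (sob m).W)
    (hf' : f' ∈ (sob m).W) (hg : g ∈ (sob m).W) (c : ℝ) :
    ∀ᵐ x ∂m, f x - f' x = c → (sob m).Γ f g x = (sob m).Γ f' g x := by
  have e : (sob m).Γ f g = (sob m).Γ (f - f') g + (sob m).Γ f' g := by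
    rw [hC.Γ_sub_left hf hf' hg]; abel
  filter_upwards [Γ_loc0 hC (hC.sub_mem hf hf') hg c, sub_ae f f',
    add_ae ((sob m).Γ (f - f') g) ((sob m).Γ f' g)] with x h1 h2 h3 hx
  rw [e, h3, h1 (by rw [h2]; exact hx), zero_add]

theorem Γ_loc2 (hC : IsDir (sob m)) {f f' g g' : M →ₘ[m] ℝ} (hf : f ∈ (sob m).W)
    (hf' : f' ∈ (sob m).W) (hg : g ∈ (sob m).W) (hg' : g' ∈ (sob m).W) (c c' : ℝ) :
    ∀ᵐ x ∂m, f x - f' x = c → g x - g' x = c' → (sob m).Γ f g x = (sob m).Γ f' g' x := by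
  have h2 := Γ_loc hC hg hg' hf' c'
  rw [hC.symm g hg f' hf', hC.symm g' hg' f' hf'] at h2
  filter_upwards [Γ_loc hC hf hf' hg c, h2] with x h1 h2 h3 h4
  rw [h1 h3, h2 h4]

/-! ### the truncated distance functions -/

theorem dtr_lip (p : M) (R : ℝ) : LipschitzWith 1 (dtr p R) := by
  have h1 : LipschitzWith 1 (fun x : M => dist p x) := LipschitzWith.dist_right p
  have h2 : LipschitzWith 1 (fun x : M => min (dist p x) R) := by
    simpa using h1.min_const R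
  refine LipschitzWith.of_dist_le_mul fun x y => ?_
  have := h2.dist_le_mul x y
  unfold dtr
  rw [Real.dist_eq] at this ⊢
  simpa using this

theorem dtr_zero {p : M} {R : ℝ} {x : M} (h : R ≤ dist p x) : dtr p R x = 0 := by
  unfold dtr; rw [min_eq_right h, sub_self]

theorem dtr_eq {p : M} {R : ℝ} {x : M} (h : dist p x ≤ R) : dtr p R x = dist p x - R := by
  unfold dtr; rw [min_eq_left h]

theorem dtr_mem_A (hfin : ∀ (x : M) (r : ℝ), m (Metric.ball x r) < ∞) (p : M) (R : ℝ) :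
    cl m (dtr p R) ∈ (sob m).A :=
  cl_mem_A hfin (dtr_lip p R) (fun _ h => dtr_zero h)

theorem dtr_mem (hfin : ∀ (x : M) (r : ℝ), m (Metric.ball x r) < ∞) (p : M) (R : ℝ) :
    cl m (dtr p R) ∈ (sob m).W := (dtr_mem_A hfin p R).1

theorem dtr_ae (p : M) (R : ℝ) : ⇑(cl m (dtr p R)) =ᵐ[m] dtr p R :=
  cl_cont (dtr_lip p R).continuous

/-- the radius does not matter -/
theorem Γ_dtr_radius (hC : IsDir (sob m)) (hfin : ∀ (x : M) (r : ℝ), m (Metric.ball x r) < ∞)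
    (p : M) (R R' : ℝ) {h : M →ₘ[m] ℝ} (hh : h ∈ (sob m).W) :
    ∀ᵐ x ∂m, dist p x < R → dist p x < R' →
      (sob m).Γ (cl m (dtr p R)) h x = (sob m).Γ (cl m (dtr p R')) h x := by
  filter_upwards [Γ_loc hC (dtr_mem hfin p R) (dtr_mem hfin p R') hh (R' - R), dtr_ae (m := m) p R,
    dtr_ae (m := m) p R'] with x h1 h2 h3 h4 h5
  refine h1 ?_
  rw [h2, h3, dtr_eq h4.le, dtr_eq h5.le]; ring

theorem Γ_dtr_zero (hC : IsDir (sob m)) (hfin : ∀ (x : M) (r : ℝ), m (Metric.ball x r) < ∞)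
    (p : M) (R : ℝ) {h : M →ₘ[m] ℝ} (hh : h ∈ (sob m).W) :
    ∀ᵐ x ∂m, R ≤ dist p x → (sob m).Γ (cl m (dtr p R)) h x = 0 := by
  filter_upwards [Γ_loc0 hC (dtr_mem hfin p R) hh 0, dtr_ae (m := m) p R] with x h1 h2 h3
  refine h1 ?_
  rw [h2, dtr_zero h3]

/-- at the centre the gradient vanishes -/
theorem Γ_dtr_centre (hC : IsDir (sob m)) (hfin : ∀ (x : M) (r : ℝ), m (Metric.ball x r) < ∞)
    (p : M) (R : ℝ) {h : M →ₘ[m] ℝ} (hh : h ∈ (sob m).W) :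
    ∀ᵐ x ∂m, x = p → (sob m).Γ (cl m (dtr p R)) h x = 0 := by
  filter_upwards [Γ_loc0 hC (dtr_mem hfin p R) hh (dtr p R p), dtr_ae (m := m) p R] with x h1 h2 h3
  refine h1 ?_
  rw [h2, h3]

/-! ### the radial potentials -/

theorem zr_eq {p : M} {s₀ C₀ t ρ : ℝ} (ht : 0 < t + s₀) (hρ : 0 ≤ ρ)
    (hρ2 : ρ ^ 2 = 2 * C₀ * (t + s₀)) (x : M) :
    zr p s₀ C₀ t x = (2 * (t + s₀))⁻¹ * (dtr p ρ x * dtr p ρ x) + ρ / (t + s₀) * dtr p ρ x := by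
  have e : C₀ = ρ ^ 2 / (2 * (t + s₀)) := by
    rw [hρ2]; field_simp
  unfold zr
  rcases le_total (dist p x) ρ with h | h
  · rw [dtr_eq h, min_eq_left, e]
    · field_simp; ring
    · rw [e, sub_nonpos]
      gcongr
  · rw [dtr_zero h, min_eq_right]
    · simp
    · rw [e, sub_nonneg]
      gcongr

theorem zr_class {p : M} {s₀ C₀ t ρ : ℝ} (ht : 0 < t + s₀) (hρ : 0 ≤ ρ)
    (hρ2 : ρ ^ 2 = 2 * C₀ * (t + s₀)) :
    cl m (zr p s₀ C₀ t) = (2 * (t + s₀))⁻¹ • (cl m (dtr p ρ) * cl m (dtr p ρ))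
      + (ρ / (t + s₀)) • cl m (dtr p ρ) := by
  have hfun : zr p s₀ C₀ t = fun x => (2 * (t + s₀))⁻¹ * (dtr p ρ x * dtr p ρ x)
      + ρ / (t + s₀) * dtr p ρ x := funext fun x => zr_eq ht hρ hρ2 x
  have hc : Continuous (zr p s₀ C₀ t) := by
    rw [hfun]
    have := (dtr_lip p ρ).continuous
    fun_prop
  rw [eq_iff_ae]
  filter_upwards [cl_cont (m := m) hc, dtr_ae (m := m) p ρ,
    add_ae ((2 * (t + s₀))⁻¹ • (cl m (dtr p ρ) * cl m (dtr p ρ))) ((ρ / (t + s₀)) • cl m (dtr p ρ)),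
    smul_ae (cl m (dtr p ρ) * cl m (dtr p ρ)) (2 * (t + s₀))⁻¹,
    smul_ae (cl m (dtr p ρ)) (ρ / (t + s₀)), mul_ae (cl m (dtr p ρ)) (cl m (dtr p ρ))]
    with x h1 h2 h3 h4 h5 h6
  rw [h1, h3, h4, h5, h6, h2, zr_eq ht hρ hρ2]

theorem zr_mem_A (hC : IsDir (sob m)) (hfin : ∀ (x : M) (r : ℝ), m (Metric.ball x r) < ∞)
    {p : M} {s₀ C₀ t ρ : ℝ} (ht : 0 < t + s₀) (hρ : 0 ≤ ρ) (hρ2 : ρ ^ 2 = 2 * C₀ * (t + s₀)) :
    cl m (zr p s₀ C₀ t) ∈ (sob m).A := by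
  rw [zr_class ht hρ hρ2]
  have h := dtr_mem_A (m := m) hfin p ρ
  exact hC.A_add (hC.A_smul _ (hC.mul_mem_A h h)) (hC.A_smul _ h)

/-- chain rule for the radial potentials -/
theorem Γ_zr (hC : IsDir (sob m)) (hfin : ∀ (x : M) (r : ℝ), m (Metric.ball x r) < ∞)
    {p : M} {s₀ C₀ t ρ : ℝ} (ht : 0 < t + s₀) (hρ : 0 ≤ ρ) (hρ2 : ρ ^ 2 = 2 * C₀ * (t + s₀))
    {h : M →ₘ[m] ℝ} (hh : h ∈ (sob m).W) :
    ∀ᵐ x ∂m, (sob m).Γ (cl m (zr p s₀ C₀ t)) h x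
      = min (dist p x) ρ / (t + s₀) * (sob m).Γ (cl m (dtr p ρ)) h x := by
  set D := cl m (dtr p ρ) with hD
  have hDA : D ∈ (sob m).A := dtr_mem_A hfin p ρ
  have e : (sob m).Γ (cl m (zr p s₀ C₀ t)) h
      = (2 * (t + s₀))⁻¹ • (D * (sob m).Γ D h + D * (sob m).Γ D h)
        + (ρ / (t + s₀)) • (sob m).Γ D h := by
    rw [zr_class ht hρ hρ2, hC.add_left _ (hC.smul_mem _ _ (hC.mul_mem_A hDA hDA).1) _
      (hC.smul_mem _ _ hDA.1) h hh, hC.smul_left _ _ (hC.mul_mem_A hDA hDA).1 h hh,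
      hC.smul_left _ _ hDA.1 h hh, hC.Γ_mul_left hDA hDA hh]
  filter_upwards [dtr_ae (m := m) p ρ,
    add_ae ((2 * (t + s₀))⁻¹ • (D * (sob m).Γ D h + D * (sob m).Γ D h))
      ((ρ / (t + s₀)) • (sob m).Γ D h),
    smul_ae (D * (sob m).Γ D h + D * (sob m).Γ D h) (2 * (t + s₀))⁻¹,
    smul_ae ((sob m).Γ D h) (ρ / (t + s₀)), add_ae (D * (sob m).Γ D h) (D * (sob m).Γ D h),
    mul_ae D ((sob m).Γ D h)] with x h1 h2 h3 h4 h5 h6
  rw [e, h2, h3, h4, h5, h6, h1]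
  unfold dtr
  field_simp
  ring

/-- The gradient of the distance function has norm one, from the Hamilton-Jacobi equality for one
radial potential. -/
theorem unit_of_HJ (hC : IsDir (sob m)) (hfin : ∀ (x : M) (r : ℝ), m (Metric.ball x r) < ∞)
    {p : M} {s₀ C₀ t R : ℝ} (ht : 0 < t + s₀) (hC₀ : 0 ≤ C₀) (hR : R ^ 2 ≤ 2 * C₀ * (t + s₀))
    (hHJ : ∀ᵐ x ∂m, dist p x ^ 2 < 2 * C₀ * (t + s₀) →
      (sob m).Γ (cl m (zr p s₀ C₀ t)) (cl m (zr p s₀ C₀ t)) x = (dist p x / (t + s₀)) ^ 2) :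
    ∀ᵐ x ∂m, x ≠ p → dist p x < R →
      (sob m).Γ (cl m (dtr p R)) (cl m (dtr p R)) x = 1 := by
  set ρ : ℝ := √(2 * C₀ * (t + s₀)) with hρdef
  have hnn : 0 ≤ 2 * C₀ * (t + s₀) := by positivity
  have hρ : 0 ≤ ρ := Real.sqrt_nonneg _
  have hρ2 : ρ ^ 2 = 2 * C₀ * (t + s₀) := Real.sq_sqrt hnn
  have hRρ : R ≤ ρ := Real.le_sqrt_of_sq_le hR
  set D := cl m (dtr p ρ) with hD
  have hDA : D ∈ (sob m).A := dtr_mem_A hfin p ρ
  have hz := zr_mem_A (m := m) hC hfin (p := p) ht hρ hρ2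
  have e1 := Γ_zr (m := m) hC hfin (p := p) ht hρ hρ2 hz.1
  have e2 := Γ_zr (m := m) hC hfin (p := p) ht hρ hρ2 hDA.1
  rw [hC.symm _ hz.1 _ hDA.1] at e2
  filter_upwards [e1, e2, hHJ, Γ_dtr_radius hC hfin p R ρ (dtr_mem hfin p R),
    Γ_dtr_radius hC hfin p R ρ hDA.1] with x h1 h2 h3 h4 h5 hx hxR
  have hxρ : dist p x < ρ := hxR.trans_le hRρ
  have hd : 0 < dist p x := dist_pos.2 (Ne.symm hx)
  have h6 := h3 (by rw [← hρ2]; gcongr)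
  rw [h1, h2, min_eq_left hxρ.le] at h6
  have h7 : (sob m).Γ D D x = 1 := by
    have h8 : (dist p x / (t + s₀)) ^ 2 * (sob m).Γ D D x = (dist p x / (t + s₀)) ^ 2 * 1 := by
      rw [hD]; linear_combination h6
    exact mul_left_cancel₀ (by positivity) h8
  have h9 := h4 hxR hxρ
  have h10 := h5 hxR hxρ
  rw [hC.symm _ (dtr_mem hfin p R) _ hDA.1] at h10
  rw [h9, ← h7, ← h10]

end Vale.Agent.P233.H183
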