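import Vale.Agent.P233.H183.MapsAux
import Vale.Agent.P233.H748.Ex
import Vale.Agent.P233.H715.GradW

/-! P233, block C6a of `Gig/IfC` (version 2): strong convergence of the conditional expectations
and of the gradients. -/

set_option linter.all false

open MeasureTheory Filter Topology Set
open scoped ENNReal NNReal InnerProductSpace

universe u

namespace Vale.Agent.P233.H183

open Vale.Agent.P233.PC
open Vale.Agent.P233.PA (en OutA PotLim)

section level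

variable {M : Type u} [MeasurableSpace M] {m : Measure M} {C : Calc m} {κ K : ℝ}
  {P : ℝ → (M →ₘ[m] ℝ) → (M →ₘ[m] ℝ)} {ε : ℝ} {a l : M →ₘ[m] ℝ} {φ φ' u : ℝ → M →ₘ[m] ℝ} {t : ℝ}

theorem en_pos (n : ℕ) : 0 < en n := by unfold PA.en; positivity

/-- `e^f - 1 ∈ L² ∩ L^∞` -/
theorem ex_L2i (hC : IsDir C) {f : M →ₘ[m] ℝ} (hf : f ∈ C.A) : L2i m (ex f - 1) :=
  ⟨hC.memLp _ (hC.ex_A hf).1, (hC.ex_A hf).2⟩

theorem rh_split : rh ε φ u t = ex (ε⁻¹ • φ t) * ex (-(ε⁻¹ • u t)) := by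
  unfold rh
  rw [← ex_add, smul_sub, sub_eq_add_neg]

theorem rh_mul : rh ε φ' u t = rh ε φ u t * ex (ε⁻¹ • (φ' t - φ t)) := by
  unfold rh
  rw [← ex_add]
  congr 1
  rw [← smul_add]; congr 1; abel

theorem rh_A (hC : IsGamma C) (h : Pair C P ε 0 1 φ u) (ht : t ∈ Icc (0 : ℝ) 1) :
    rh ε φ u t - 1 ∈ C.A :=
  hC.toIsDir.ex_A (hC.toIsDir.A_smul _ (hC.toIsDir.A_sub (hC.test_A (h.φ_mem t ht).1)
    (hC.test_A (h.u_mem t ht).1)))

theorem rh_top (hC : IsGamma C) (h : Pair C P ε 0 1 φ u) (ht : t ∈ Icc (0 : ℝ) 1) :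
    MemLp (rh ε φ u t) ∞ m := by
  have := mem_add (rh_A hC h ht).2 (mem_top_one (M := M) (m := m))
  rwa [sub_add_cancel] at this

theorem wn_L2i (hC : IsGamma C) (h : Pair C P ε 0 1 φ u) (h' : Pair C P ε 0 1 φ' u)
    (ht : t ∈ Icc (0 : ℝ) 1) : L2i m (ex (ε⁻¹ • (φ' t - φ t)) - 1) :=
  ex_L2i hC.toIsDir (hC.toIsDir.A_smul _ (hC.toIsDir.A_sub (hC.test_A (h'.φ_mem t ht).1)
    (hC.test_A (h.φ_mem t ht).1)))

/-- the density of the weight `e^l` at time `1` -/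
theorem rh_w_eq (hC : IsGamma C) (hP : Heat C K P) (h : Pair C P ε 0 1 φ u)
    (h' : Pair C P ε 0 1 φ' u) (hl : φ' 1 = φ 1 + ε • l) (ht : t ∈ Icc (0 : ℝ) 1) :
    rh ε φ u t * (ex (ε⁻¹ • (φ' t - φ t)) - 1) = RE P ε φ u t 1 (ex l - 1) := by
  have hε := h.hε
  have hr : (1 : ℝ) ∈ Icc (0 : ℝ) 1 := ⟨zero_le_one, le_rfl⟩
  have e1 : ex (ε⁻¹ • φ' 1) = ex l * ex (ε⁻¹ • φ 1) := by
    rw [← ex_add, hl, smul_add, smul_smul, inv_mul_cancel₀ hε.ne', one_smul, add_comm]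
  have e2 : (ex l - 1) * ex (ε⁻¹ • φ 1) = (ex (ε⁻¹ • φ' 1) - 1) - (ex (ε⁻¹ • φ 1) - 1) := by
    rw [e1]; ring
  have hf2 : MemLp (ex (ε⁻¹ • φ 1) - 1 : M →ₘ[m] ℝ) 2 m :=
    hC.memLp _ (hC.test_A (h.f_mem 1 hr).1).1
  have hf2' : MemLp (ex (ε⁻¹ • φ' 1) - 1 : M →ₘ[m] ℝ) 2 m :=
    hC.memLp _ (hC.test_A (h'.f_mem 1 hr).1).1
  have hτ : 0 ≤ ε * (1 - t) / 2 := by have := sub_nonneg.2 ht.2; positivity
  have e3 : P (ε * (1 - t) / 2) ((ex l - 1) * ex (ε⁻¹ • φ 1))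
      = ex (ε⁻¹ • φ' t) - ex (ε⁻¹ • φ t) := by
    have h3 := hP.add _ hτ ((ex (ε⁻¹ • φ' 1) - 1) - (ex (ε⁻¹ • φ 1) - 1)) (ex (ε⁻¹ • φ 1) - 1)
      (mem_sub hf2' hf2) hf2
    rw [sub_add_cancel, ← h'.f_eq t ht, ← h.f_eq t ht] at h3
    rw [e2]
    have h4 : P (ε * (1 - t) / 2) ((ex (ε⁻¹ • φ' 1) - 1) - (ex (ε⁻¹ • φ 1) - 1))
        = (ex (ε⁻¹ • φ' t) - 1) - (ex (ε⁻¹ • φ t) - 1) := by rw [h3]; abel
    rw [h4]; abel
  unfold RE
  rw [if_pos ht.2, e3, mul_sub, mul_one, ← rh_mul, rh_split, rh_split]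
  ring

end level

section real

/-- squeezing along a filter -/
theorem squeeze_sup {ι : Type*} {U : Filter ι} {a : ι → ℝ} {A : ℝ} (h1 : ∀ᶠ i in U, a i ≤ A)
    (h2 : ∀ δ > 0, ∃ (b : ι → ℝ) (B : ℝ), (∀ᶠ i in U, b i ≤ a i) ∧ Tendsto b U (𝓝 B) ∧ A - δ < B) :
    Tendsto a U (𝓝 A) := by
  rw [tendsto_order]
  constructor
  · intro c hc
    obtain ⟨b, B, hb, hB, hAB⟩ := h2 (A - c) (sub_pos.2 hc)
    rw [sub_sub_cancel] at hAB
    filter_upwards [hB.eventually (lt_mem_nhds hAB), hb] with i hi hbi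
    exact hi.trans_le hbi
  · intro c hc
    filter_upwards [h1] with i hi
    exact hi.trans_lt hc

/-- bounded functions are dense in `L¹` -/
theorem exists_trunc {M : Type*} [MeasurableSpace M] {m : Measure M} {b : M →ₘ[m] ℝ}
    (hb : MemLp b 1 m) {δ : ℝ} (hδ : 0 < δ) :
    ∃ b' : M →ₘ[m] ℝ, MemLp b' 1 m ∧ MemLp b' ∞ m ∧ ∫ x, |b x - b' x| ∂m < δ := by
  obtain ⟨g, hg1, hg2⟩ := hb.exists_simpleFunc_eLpNorm_sub_lt ENNReal.one_ne_top
    (ε := ENNReal.ofReal δ) (by simpa using hδ)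
  have hgm : AEStronglyMeasurable g m := g.aestronglyMeasurable
  refine ⟨AEEqFun.mk g hgm, ?_, ?_, ?_⟩
  · exact (memLp_congr_ae (AEEqFun.coeFn_mk g hgm)).2 hg2
  · obtain ⟨c, hc⟩ := g.exists_forall_norm_le
    rw [mem_top_iff]
    refine ⟨c, ?_⟩
    filter_upwards [AEEqFun.coeFn_mk g hgm] with x hx
    rw [hx]; exact hc x
  · have h1 : ∫ x, |b x - (AEEqFun.mk g hgm : M →ₘ[m] ℝ) x| ∂m = ∫ x, ‖(⇑b - ⇑g) x‖ ∂m := by
      refine integral_congr_ae ?_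
      filter_upwards [AEEqFun.coeFn_mk g hgm] with x hx
      rw [hx]; rfl
    have h2 : MemLp (⇑b - ⇑g) 1 m := hb.sub hg2
    have h3 : Integrable (⇑b - ⇑g) m := memLp_one_iff_integrable.1 h2
    rw [h1, integral_norm_eq_lintegral_enorm h3.aestronglyMeasurable]
    rw [eLpNorm_one_eq_lintegral_enorm] at hg1
    exact ENNReal.toReal_lt_of_lt_ofReal hg1

/-- convergence on bounded functions and uniform continuity in `L¹` imply convergence on `L¹` -/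
theorem tendsto_of_trunc {M ι : Type*} [MeasurableSpace M] {m : Measure M} {U : Filter ι}
    {T : ι → (M →ₘ[m] ℝ) → ℝ} {T' : (M →ₘ[m] ℝ) → ℝ} {c : ℝ} {b : M →ₘ[m] ℝ} (hb : MemLp b 1 m)
    (h1 : ∀ᶠ i in U, ∀ b' : M →ₘ[m] ℝ, MemLp b' 1 m → |T i b - T i b'| ≤ c * ∫ x, |b x - b' x| ∂m)
    (h2 : ∀ b' : M →ₘ[m] ℝ, MemLp b' 1 m → |T' b - T' b'| ≤ c * ∫ x, |b x - b' x| ∂m)
    (h3 : ∀ b' : M →ₘ[m] ℝ, MemLp b' 1 m → MemLp b' ∞ m →
      Tendsto (fun i => T i b') U (𝓝 (T' b'))) :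
    Tendsto (fun i => T i b) U (𝓝 (T' b)) := by
  rw [Metric.tendsto_nhds]
  intro δ hδ
  obtain ⟨b', hb1, hbt, hlt⟩ := exists_trunc hb (δ := δ / (3 * (|c| + 1))) (by positivity)
  have hc : c * ∫ x, |b x - b' x| ∂m < δ / 3 := by
    have h0 : 0 ≤ ∫ x, |b x - b' x| ∂m := integral_nonneg fun _ => abs_nonneg _
    calc c * ∫ x, |b x - b' x| ∂m ≤ (|c| + 1) * ∫ x, |b x - b' x| ∂m := by
          gcongr; linarith [le_abs_self c]
      _ < (|c| + 1) * (δ / (3 * (|c| + 1))) := by gcongr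
      _ = δ / 3 := by field_simp
  filter_upwards [h1, Metric.tendsto_nhds.1 (h3 b' hb1 hbt) (δ / 3) (by positivity)] with i a1 a2
  rw [Real.dist_eq] at a2 ⊢
  have a3 := a1 b' hb1
  have a4 := h2 b' hb1
  have e : T i b - T' b = (T i b - T i b') + (T i b' - T' b') + -(T' b - T' b') := by ring
  rw [e]
  refine (abs_add_three _ _ _).trans_lt ?_
  rw [abs_neg]
  linarith

end real

section metric

variable {M : Type u} [MetricSpace M] [SecondCountableTopology M] [MeasurableSpace M]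
  [BorelSpace M] {m : Measure M} {K N : ℝ} {P : ℝ → (M →ₘ[m] ℝ) → (M →ₘ[m] ℝ)} {p : M} {s₀ C₀ : ℝ}

theorem std_gamma (h : Std m K N) : IsGamma (sob m) :=
  isGamma_sob h.hfin h.rcd.quadratic h.rcd.sobolev_to_lipschitz

theorem std_bei (h : Std m K N) : (sob m).BEi K := (std_gamma h).bei h.hN h.rcd.bochner

variable {u : ℕ → ℝ → M →ₘ[m] ℝ} {φ : (M →ₘ[m] ℝ) → ℕ → ℝ → M →ₘ[m] ℝ} {U : Ultrafilter ℕ}
  {ψ ρ : ℝ → M →ₘ[m] ℝ} {R : ℝ → ℝ → (M →ₘ[m] ℝ) → (M →ₘ[m] ℝ)} {Y : ℝ → M → M} {t : ℝ}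

/-- the elementary facts of one level -/
structure Lf (m : Measure M) (P : ℝ → (M →ₘ[m] ℝ) → (M →ₘ[m] ℝ)) (u : ℕ → ℝ → M →ₘ[m] ℝ)
    (φ : (M →ₘ[m] ℝ) → ℕ → ℝ → M →ₘ[m] ℝ) (l : M →ₘ[m] ℝ) (n : ℕ) (t : ℝ) : Prop where
  F : MemLp (rn u φ 0 n t) ∞ m
  F1 : rn u φ 0 n t - 1 ∈ (sob m).A
  F0 : 0 ≤ rn u φ 0 n t
  w : L2i m (wn φ l n t - 1)
  wA : wn φ l n t - 1 ∈ (sob m).A
  RE : rn u φ 0 n t * (wn φ l n t - 1) = RE P (en n) (φ 0 n) (u n) t 1 (ex l - 1)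
  mul : rn u φ l n t = rn u φ 0 n t * wn φ l n t
  Fl : MemLp (rn u φ l n t) ∞ m
  Fl0 : 0 ≤ rn u φ l n t
  uA : u n t ∈ (sob m).A
  φA : φ l n t ∈ (sob m).A

theorem lf (hC : IsGamma (sob m)) (hP : Heat (sob m) K P) (h0 : (0 : M →ₘ[m] ℝ) ∈ (sob m).TestI)
    (hL : OutA m K N P p s₀ C₀ u φ) {l : M →ₘ[m] ℝ} (hl : l ∈ (sob m).TestI) :
    ∀ᶠ n in atTop, ∀ t ∈ Icc (0 : ℝ) 1, Lf m P u φ l n t := by
  filter_upwards [hL.fam] with n hn t ht
  have f0 := hn 0 h0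
  have fl := hn l hl
  have hfin : φ l n 1 = φ 0 n 1 + en n • l := by
    rw [fl.fin, f0.fin, smul_zero, add_zero]
  refine ⟨rh_top hC f0.pair ht, rh_A hC f0.pair ht, ex_nonneg _, wn_L2i hC f0.pair fl.pair ht,
    ?_, rh_w_eq hC hP f0.pair fl.pair hfin ht, rh_mul, rh_top hC fl.pair ht, ex_nonneg _,
    hC.test_A (f0.pair.u_mem t ht).1, hC.test_A (fl.pair.φ_mem t ht).1⟩
  exact hC.toIsDir.ex_A (hC.toIsDir.A_smul _ (hC.toIsDir.A_sub (hC.test_A (fl.pair.φ_mem t ht).1)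
    (hC.test_A (f0.pair.φ_mem t ht).1)))

/-- weak convergence of the densities, tested with `L¹ ∩ L^∞` -/
theorem rn_lim (hC : IsGamma (sob m)) (hf : ∀ᶠ n in U, Lf m P u φ 0 n t)
    (hO : LimOf P U u φ ρ R) (hLim : Lim m K N p s₀ C₀ ψ ρ R)
    (ht : t ∈ Ioc (0 : ℝ) 1) {b : M →ₘ[m] ℝ} (hb1 : MemLp b 1 m) (hbt : MemLp b ∞ m) :
    Tendsto (fun n => I (b * rn u φ 0 n t)) U (𝓝 (I (b * ρ t))) := by
  have hb2 := mem2_of_1_top hb1 hbt
  have h1 := hO.ρ_lim t ht b hb2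
  have e1 : ∀ᶠ n in U, I (b * (rn u φ 0 n t - 1)) + I b = I (b * rn u φ 0 n t) := by
    filter_upwards [hf] with n hn
    have h2 : MemLp (rn u φ 0 n t - 1 : M →ₘ[m] ℝ) 2 m := hC.memLp _ hn.F1.1
    rw [← I_add (mem_mul_22 hb2 h2) hb1]
    congr 1; ring
  have e2 : I (b * ρ t) = I (b * (ρ t - 1)) + I b := by
    obtain ⟨B, hB⟩ := hLim.ρ_L2 t ht
    have h2 : MemLp (ρ t - 1 : M →ₘ[m] ℝ) 2 m := (hB t ⟨le_rfl, ht.2⟩).1
    rw [← I_add (mem_mul_22 hb2 h2) hb1]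
    congr 1; ring
  rw [e2]
  exact (h1.add_const _).congr' e1

/-- the bilinear limits in terms of the maps -/
theorem R_pair (hLim : Lim m K N p s₀ C₀ ψ ρ R) (hM : Maps ρ R Y) (ht : t ∈ Ioc (0 : ℝ) 1)
    {k b : M →ₘ[m] ℝ} (hk : L2i m k) (hb : L2i m b) :
    I (b * R t 1 k) = ∫ x, k x * b (Y t x) ∂m := by
  have h1 : (1 : ℝ) ∈ Ioc (0 : ℝ) 1 := ⟨one_pos, le_rfl⟩
  rw [hLim.R_symm t ht 1 h1 k b hk hb]
  unfold I
  refine integral_congr_ae ?_
  filter_upwards [mul_ae k (R 1 t b), hM.repr t ht b hb] with x a1 a2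
  rw [a1, a2]

theorem L2i.sq {k : M →ₘ[m] ℝ} (hk : L2i m k) : MemLp (k ^ 2 : M →ₘ[m] ℝ) 1 m ∧
    MemLp (k ^ 2 : M →ₘ[m] ℝ) ∞ m :=
  ⟨mem_sq hk.1, by rw [_root_.sq]; exact mem_mul_top hk.2 hk.2⟩

theorem ρ_top (hLim : Lim m K N p s₀ C₀ ψ ρ R) (ht : t ∈ Ioc (0 : ℝ) 1) :
    MemLp (ρ t : M →ₘ[m] ℝ) ∞ m := by
  rw [mem_top_iff]
  refine ⟨cK K C₀ * t ^ (-N), ?_⟩
  filter_upwards [hLim.ρ_le t ht, nonneg_iff_ae.1 (hLim.ρ_nonneg t ht)] with x a1 a2
  rwa [abs_of_nonneg a2]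

/-- integrability of `b(Y_t)` -/
theorem comp_int (hLim : Lim m K N p s₀ C₀ ψ ρ R) (hM : Maps ρ R Y) (ht : t ∈ Ioc (0 : ℝ) 1)
    {b : M →ₘ[m] ℝ} (hb : MemLp b 1 m) : Integrable (fun x => b (Y t x)) m := by
  refine map_integrable hM ht (hLim.ρ_nonneg t ht) b.aestronglyMeasurable ?_
  refine (int_of_mem (mem_mul_top (ρ_top hLim ht) hb)).congr ?_
  filter_upwards [mul_ae (ρ t) b] with x a1
  rw [a1]

/-- integrability of `k²(Y_t)` -/
theorem comp_sq_int (hLim : Lim m K N p s₀ C₀ ψ ρ R) (hM : Maps ρ R Y) (ht : t ∈ Ioc (0 : ℝ) 1)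
    {k : M →ₘ[m] ℝ} (hk : L2i m k) : MemLp (fun x => k (Y t x)) 2 m := by
  have hmeas : AEStronglyMeasurable (fun x => k (Y t x)) m :=
    (k.measurable.comp (hM.meas t ht)).aestronglyMeasurable
  rw [memLp_two_iff_integrable_sq hmeas]
  refine (comp_int hLim hM ht (L2i.sq hk).1).congr ?_
  filter_upwards [map_ae hM ht (sq_ae k)] with x a1
  rw [a1]

theorem comp_sq_eq (hLim : Lim m K N p s₀ C₀ ψ ρ R) (hM : Maps ρ R Y) (ht : t ∈ Ioc (0 : ℝ) 1)
    (k : M →ₘ[m] ℝ) : I (k ^ 2 * ρ t) = ∫ x, k (Y t x) ^ 2 ∂m := by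
  rw [← map_int_class hM ht (hLim.ρ_nonneg t ht) (k ^ 2)]
  refine integral_congr_ae ?_
  filter_upwards [map_ae hM ht (sq_ae k)] with x a1
  rw [a1]

/-- approximate inverses: functions of `Y t x` close to `k x` -/
theorem exists_inv (hLim : Lim m K N p s₀ C₀ ψ ρ R) (hM : Maps ρ R Y) (ht : t ∈ Ioc (0 : ℝ) 1)
    {k : M →ₘ[m] ℝ} (hk : L2i m k) {δ : ℝ} (hδ : 0 < δ) :
    ∃ g : M →ₘ[m] ℝ, L2i m g ∧
      I (k ^ 2) - δ < 2 * ∫ x, k x * g (Y t x) ∂m - ∫ x, g (Y t x) ^ 2 ∂m := by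
  have h1 : (1 : ℝ) ∈ Ioc (0 : ℝ) 1 := ⟨one_pos, le_rfl⟩
  set G : ℕ → M → ℝ := fun j x => if ((j : ℝ) + 1)⁻¹ < ρ t x then R t 1 k x / ρ t x else 0 with hG
  have hGm : ∀ j, Measurable (G j) := fun j =>
    Measurable.ite (measurableSet_lt measurable_const (ρ t).measurable)
      ((R t 1 k).measurable.div (ρ t).measurable) measurable_const
  have hRmem := hLim.R_mem t ht 1 h1 k hk
  have hbd : ∀ j x, |G j x| ≤ ((j : ℝ) + 1) * |R t 1 k x| := by
    intro j x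
    have hj : (0 : ℝ) < (j : ℝ) + 1 := by positivity
    simp only [hG]
    split_ifs with hx
    · have hpos : 0 < ρ t x := (inv_pos.2 hj).trans hx
      rw [abs_div, abs_of_pos hpos, div_le_iff₀ hpos]
      have h2 : 1 ≤ ((j : ℝ) + 1) * ρ t x := by
        have := (inv_lt_iff_one_lt_mul₀ hj).1 hx
        linarith
      nlinarith [abs_nonneg (R t 1 k x)]
    · rw [abs_zero]; positivity
  set g : ℕ → M →ₘ[m] ℝ := fun j => AEEqFun.mk (G j) (hGm j).aestronglyMeasurable with hg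
  have hgae : ∀ j, ⇑(g j) =ᵐ[m] G j := fun j => AEEqFun.coeFn_mk _ _
  have hgL : ∀ j, L2i m (g j) := by
    intro j
    have hj : (0 : ℝ) ≤ (j : ℝ) + 1 := by positivity
    have h2 : ∀ᵐ x ∂m, |g j x| ≤ |(((j : ℝ) + 1) • R t 1 k : M →ₘ[m] ℝ) x| := by
      filter_upwards [hgae j, smul_ae (R t 1 k) ((j : ℝ) + 1)] with x a1 a2
      rw [a1, a2, abs_mul, abs_of_nonneg hj]
      exact hbd j x
    exact ⟨mem_of_le (mem_smul _ hRmem.1) h2, mem_of_le (mem_smul _ hRmem.2) h2⟩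
  -- the value at the image points
  have hval : ∀ j, ∀ᵐ x ∂m, g j (Y t x) = if ((j : ℝ) + 1)⁻¹ < ρ t (Y t x) then k x else 0 := by
    intro j
    filter_upwards [map_ae hM ht (hgae j), hM.comp t ht 1 h1 k hk] with x a1 a2
    rw [a1]
    simp only [hG]
    rw [a2, hM.one x]
    split_ifs with hx
    · have hj : (0 : ℝ) < (j : ℝ) + 1 := by positivity
      have hpos : 0 < ρ t (Y t x) := (inv_pos.2 hj).trans hx
      field_simp
    · rfl
  have hval2 : ∀ j, 2 * ∫ x, k x * g j (Y t x) ∂m - ∫ x, g j (Y t x) ^ 2 ∂m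
      = ∫ x, (if ((j : ℝ) + 1)⁻¹ < ρ t (Y t x) then k x ^ 2 else 0) ∂m := by
    intro j
    have e1 : ∫ x, k x * g j (Y t x) ∂m
        = ∫ x, (if ((j : ℝ) + 1)⁻¹ < ρ t (Y t x) then k x ^ 2 else 0) ∂m := by
      refine integral_congr_ae ?_
      filter_upwards [hval j] with x a1
      rw [a1]
      split_ifs <;> ring
    have e2 : ∫ x, g j (Y t x) ^ 2 ∂m
        = ∫ x, (if ((j : ℝ) + 1)⁻¹ < ρ t (Y t x) then k x ^ 2 else 0) ∂m := by
      refine integral_congr_ae ?_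
      filter_upwards [hval j] with x a1
      rw [a1]
      split_ifs <;> ring
    rw [e1, e2]; ring
  have hksq : Integrable (fun x => k x ^ 2) m :=
    (int_of_mem (mem_sq hk.1)).congr (sq_ae k)
  have hlim : Tendsto (fun j : ℕ => ∫ x, (if ((j : ℝ) + 1)⁻¹ < ρ t (Y t x) then k x ^ 2 else 0) ∂m)
      atTop (𝓝 (∫ x, k x ^ 2 ∂m)) := by
    refine tendsto_integral_of_dominated_convergence (fun x => k x ^ 2) (fun j => ?_) hksq
      (fun j => ?_) ?_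
    · exact (Measurable.ite (measurableSet_lt measurable_const
        ((ρ t).measurable.comp (hM.meas t ht))) (k.measurable.pow_const 2)
        measurable_const).aestronglyMeasurable
    · filter_upwards with x
      split_ifs
      · rw [Real.norm_eq_abs, abs_of_nonneg (sq_nonneg _)]
      · rw [norm_zero]; positivity
    · filter_upwards [map_pos hM ht] with x hx
      refine tendsto_const_nhds.congr' ?_
      have h3 : Tendsto (fun j : ℕ => ((j : ℝ) + 1)⁻¹) atTop (𝓝 0) := by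
        simpa only [one_div] using tendsto_one_div_add_atTop_nhds_zero_nat (𝕜 := ℝ)
      filter_upwards [h3.eventually (gt_mem_nhds hx)] with j hj
      rw [if_pos hj]
  have hIk : I (k ^ 2) = ∫ x, k x ^ 2 ∂m := integral_congr_ae (sq_ae k)
  rw [← hIk] at hlim
  obtain ⟨j, hj⟩ := (hlim.eventually (lt_mem_nhds (sub_lt_self (I (k ^ 2)) hδ))).exists
  exact ⟨g j, hgL j, by rw [hval2 j]; exact hj⟩

theorem expand_sq {F w k : M →ₘ[m] ℝ} (hF : MemLp F ∞ m) (hw : L2i m w) (hk : L2i m k) :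
    I (F * (w - k) ^ 2) = I (F * w ^ 2) - 2 * I (k * (F * w)) + I (k ^ 2 * F) := by
  have a1 : MemLp (F * w ^ 2 : M →ₘ[m] ℝ) 1 m := mem_mul_top hF (L2i.sq hw).1
  have a2 : MemLp (k * (F * w) : M →ₘ[m] ℝ) 1 m := mem_mul_22 hk.1 (mem_mul_top hF hw.1)
  have a3 : MemLp (k ^ 2 * F : M →ₘ[m] ℝ) 1 m := mem_top_mul (L2i.sq hk).1 hF
  have e : F * (w - k) ^ 2 = F * w ^ 2 - (2 : ℝ) • (k * (F * w)) + k ^ 2 * F := by
    rw [two_smul]; ring
  rw [e, I_add (mem_sub a1 (mem_smul _ a2)) a3, I_sub a1 (mem_smul _ a2), I_smul]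

/-- determinism: the variance of the weight at time `t` tends to the one at time `1` -/
theorem w_lim0 {κ : ℝ} {E : Type} [NormedAddCommGroup E] [InnerProductSpace ℝ E]
    {Gr : (M →ₘ[m] ℝ) → M → E} {V : (M →ₘ[m] ℝ) → (M →ₘ[m] ℝ) → M → E}
    {D : (M →ₘ[m] ℝ) → (M →ₘ[m] ℝ)}
    (hC : IsGamma (sob m)) (hP : Heat (sob m) K P) (h0 : (0 : M →ₘ[m] ℝ) ∈ (sob m).TestI)
    (hU : (U : Filter ℕ) ≤ atTop)
    (hL : OutA m K N P p s₀ C₀ u φ) (hBl : LevB m Gr V D κ u φ) (hO : LimOf P U u φ ρ R)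
    (hLim : Lim m K N p s₀ C₀ ψ ρ R) (hM : Maps ρ R Y) (ht : t ∈ Ioc (0 : ℝ) 1)
    {l : M →ₘ[m] ℝ} (hl : l ∈ (sob m).TestI) :
    Tendsto (fun n => I (rn u φ 0 n t * (wn φ l n t - 1) ^ 2)) U (𝓝 (I ((ex l - 1) ^ 2))) := by
  have h1 : (1 : ℝ) ∈ Ioc (0 : ℝ) 1 := ⟨one_pos, le_rfl⟩
  have htI : t ∈ Icc (0 : ℝ) 1 := ⟨ht.1.le, ht.2⟩
  have hkk : L2i m (ex l - 1) := ex_L2i hC.toIsDir (hC.test_A hl.1)
  have hf : ∀ᶠ n in U, ∀ t ∈ Icc (0 : ℝ) 1, Lf m P u φ l n t := (lf hC hP h0 hL hl).filter_mono hU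
  have hf0 : ∀ᶠ n in U, Lf m P u φ 0 n t :=
    ((lf hC hP h0 hL h0).filter_mono hU).mono fun n hn => hn t htI
  have hup : ∀ᶠ n in U, I (rn u φ 0 n t * (wn φ l n t - 1) ^ 2) ≤ I ((ex l - 1) ^ 2) := by
    filter_upwards [hf, (hBl.b8 l hl).filter_mono hU] with n hn h2
    have h2 := h2.2 t htI
    have h3 : 0 ≤ en n * ∫ s in t..1, I (rn u φ 0 n s *
        (sob m).Γ (wn φ l n s - 1) (wn φ l n s - 1)) := by
      refine mul_nonneg (en_pos n).le (intervalIntegral.integral_nonneg ht.2 fun s hs => ?_)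
      have hs' : s ∈ Icc (0 : ℝ) 1 := ⟨ht.1.le.trans hs.1, hs.2⟩
      refine I_nonneg ?_
      have h4 : 0 ≤ (sob m).Γ (wn φ l n s - 1) (wn φ l n s - 1) := hC.nonneg _ (hn s hs').wA.1
      have h5 : 0 ≤ rn u φ 0 n s := ex_nonneg _
      rw [nonneg_iff_ae] at h4 h5 ⊢
      filter_upwards [h4, h5, mul_ae (rn u φ 0 n s)
        ((sob m).Γ (wn φ l n s - 1) (wn φ l n s - 1))] with x a1 a2 a3
      rw [a3]; exact mul_nonneg a2 a1
    linarith
  refine squeeze_sup hup fun δ hδ => ?_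
  obtain ⟨g, hg, hgδ⟩ := exists_inv hLim hM ht hkk hδ
  refine ⟨fun n => 2 * I (g * RE P (en n) (φ 0 n) (u n) t 1 (ex l - 1))
    - I (g ^ 2 * rn u φ 0 n t), 2 * ∫ x, (ex l - 1 : M →ₘ[m] ℝ) x * g (Y t x) ∂m
    - ∫ x, g (Y t x) ^ 2 ∂m, ?_, ?_, hgδ⟩
  · filter_upwards [hf] with n hn
    have hn := hn t htI
    have h2 : 0 ≤ I (rn u φ 0 n t * (wn φ l n t - 1 - g) ^ 2) := by
      refine I_nonneg ?_
      have h5 := hn.F0
      rw [nonneg_iff_ae] at h5 ⊢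
      filter_upwards [h5, mul_ae (rn u φ 0 n t) ((wn φ l n t - 1 - g) ^ 2),
        sq_ae (wn φ l n t - 1 - g)] with x a1 a2 a3
      rw [a2, a3]; exact mul_nonneg a1 (sq_nonneg _)
    rw [expand_sq hn.F hn.w hg, hn.RE] at h2
    linarith
  · refine Tendsto.sub ?_ ?_
    · have h3 := hO.R_lim t ht 1 h1 (ex l - 1) hkk g hg.1
      rw [R_pair hLim hM ht hkk hg] at h3
      exact h3.const_mul 2
    · rw [← comp_sq_eq hLim hM ht g]
      exact rn_lim hC hf0 hO hLim ht (L2i.sq hg).1 (L2i.sq hg).2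

theorem I_abs_le {F b b' : M →ₘ[m] ℝ} {c : ℝ} (hc : ∀ᵐ x ∂m, |F x| ≤ c) (hb : MemLp b 1 m)
    (hb' : MemLp b' 1 m) : |I (b * F) - I (b' * F)| ≤ c * ∫ x, |b x - b' x| ∂m := by
  have hF : MemLp F ∞ m := mem_top_iff.2 ⟨c, hc⟩
  rw [← I_sub (mem_top_mul hb hF) (mem_top_mul hb' hF), ← integral_const_mul]
  unfold I
  refine (abs_integral_le_integral_abs).trans (integral_mono_ae ?_ ?_ ?_)
  · exact (int_of_mem (mem_sub (mem_top_mul hb hF) (mem_top_mul hb' hF))).abs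
  · refine (((int_of_mem hb).sub (int_of_mem hb')).abs).const_mul c
  · filter_upwards [sub_ae (b * F) (b' * F), mul_ae b F, mul_ae b' F, hc] with x a1 a2 a3 a4
    rw [a1, a2, a3, ← sub_mul, abs_mul, mul_comm]
    gcongr

/-- the final densities are bounded, uniformly in the level -/
theorem dens_bd (hL : OutA m K N P p s₀ C₀ u φ) {l : M →ₘ[m] ℝ} (hl : l ∈ (sob m).TestI)
    (hlt : MemLp l ∞ m) (ht : t ∈ Ioc (0 : ℝ) 1) :
    ∃ c : ℝ, 0 ≤ c ∧ ∀ᶠ n in atTop, ∀ᵐ x ∂m, |rn u φ l n t x| ≤ c := by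
  obtain ⟨B, hB⟩ := mem_top_iff.1 hlt
  obtain ⟨D, D', h⟩ := hL.levF l hl (Real.exp |B|) (Real.one_le_exp (abs_nonneg _)) (by
    filter_upwards [hB] with x hx
    rw [Real.log_exp]
    exact (le_abs_self _).trans (hx.trans (le_abs_self _)))
  have ht0 := ht.1
  refine ⟨t ^ (-N) * Real.exp ((1 + |K|) * |K| * |C₀|) * Real.exp |B|, by positivity, ?_⟩
  filter_upwards [h] with n hn
  filter_upwards [hn.dens t ht, nonneg_iff_ae.1 (ex_nonneg ((en n)⁻¹ • (φ l n t - u n t)))]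
    with x a1 a2
  have a2' : 0 ≤ rn u φ l n t x := a2
  rw [abs_of_nonneg a2']
  refine a1.trans ?_
  have h1 : PA.c1 K (en n) C₀ * (1 - t) ≤ (1 + |K|) * |K| * |C₀| := by
    unfold PA.c1
    have h2 : en n ≤ 1 := by
      unfold PA.en
      rw [inv_le_one_iff₀]; right; linarith [Nat.cast_nonneg (α := ℝ) n]
    have h3 := en_pos n
    have h4 : 0 ≤ 1 - t := by linarith [ht.2]
    have h5 : 1 - t ≤ 1 := by linarith
    calc (1 + en n * |K|) * |K| * C₀ * (1 - t) ≤ (1 + en n * |K|) * |K| * |C₀| * (1 - t) := by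
          gcongr; exact le_abs_self _
      _ ≤ (1 + 1 * |K|) * |K| * |C₀| * 1 := by gcongr
      _ = (1 + |K|) * |K| * |C₀| := by ring
  gcongr

theorem en_lim : Tendsto en atTop (𝓝 0) := by
  have h : Tendsto (fun n : ℕ => ((n : ℝ) + 1)⁻¹) atTop (𝓝 0) := by
    simpa only [one_div] using tendsto_one_div_add_atTop_nhds_zero_nat (𝕜 := ℝ)
  exact h

theorem Γ_add_le' {M : Type*} [MeasurableSpace M] {m : Measure M} {C : Calc m} (hD : IsDir C)
    {f g : M →ₘ[m] ℝ} (hf : f ∈ C.W) (hg : g ∈ C.W) :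
    ∀ᵐ x ∂m, C.Γ (f + g) (f + g) x ≤ 2 * C.Γ f f x + 2 * C.Γ g g x := by
  have hs := hD.add_mem f hf g hg
  have hd := hD.sub_mem hf hg
  have e : C.Γ (f + g) (f + g) + C.Γ (f - g) (f - g) = (2 : ℝ) • C.Γ f f + (2 : ℝ) • C.Γ g g := by
    rw [hD.add_left f hf g hg _ hs, hD.Γ_add_right hf hf hg, hD.Γ_add_right hg hf hg,
      hD.Γ_sub_left hf hg hd, hD.Γ_sub_right hf hf hg, hD.Γ_sub_right hg hf hg,
      hD.symm g hg f hf, two_smul, two_smul]
    abel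
  filter_upwards [add_ae (C.Γ (f + g) (f + g)) (C.Γ (f - g) (f - g)),
    add_ae ((2 : ℝ) • C.Γ f f) ((2 : ℝ) • C.Γ g g), smul_ae (C.Γ f f) (2 : ℝ),
    smul_ae (C.Γ g g) (2 : ℝ), nonneg_iff_ae.1 (hD.nonneg _ hd)] with x a1 a2 a3 a4 a5
  rw [e, a2, a3, a4] at a1
  linarith

theorem Γ_smul_smul {M : Type*} [MeasurableSpace M] {m : Measure M} {C : Calc m} (hD : IsDir C)
    {f : M →ₘ[m] ℝ} (hf : f ∈ C.W) (c : ℝ) :
    ∀ᵐ x ∂m, C.Γ (c • f) (c • f) x = c ^ 2 * C.Γ f f x := by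
  have e : C.Γ (c • f) (c • f) = c • (c • C.Γ f f) := by
    rw [hD.smul_left _ _ hf _ (hD.smul_mem _ _ hf), hD.Γ_smul_right c hf hf]
  filter_upwards [smul_ae (c • C.Γ f f) c, smul_ae (C.Γ f f) c] with x a1 a2
  rw [e, a1, a2]; ring

/-- strong convergence of the velocities, locally, at every time -/
theorem v_lim {κ : ℝ} {E : Type} [NormedAddCommGroup E] [InnerProductSpace ℝ E]
    {Gr : (M →ₘ[m] ℝ) → M → E} {V : (M →ₘ[m] ℝ) → (M →ₘ[m] ℝ) → M → E}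
    {D : (M →ₘ[m] ℝ) → (M →ₘ[m] ℝ)}
    (hC : IsGamma (sob m)) (hP : Heat (sob m) K P) (h0 : (0 : M →ₘ[m] ℝ) ∈ (sob m).TestI)
    (hL : OutA m K N P p s₀ C₀ u φ) (hBl : LevB m Gr V D κ u φ) (ht : t ∈ Ioc (0 : ℝ) 1)
    {l : M →ₘ[m] ℝ} (hl : l ∈ (sob m).TestI) {χ : M →ₘ[m] ℝ} (hχ : MemLp χ 1 m) (hχ0 : 0 ≤ χ) :
    Tendsto (fun n => I (χ * rn u φ l n t *
      (sob m).Γ (tn u φ l n t - zc m p s₀ C₀ t) (tn u φ l n t - zc m p s₀ C₀ t))) atTop (𝓝 0) := by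
  have hD := hC.toIsDir
  have htI : t ∈ Icc (0 : ℝ) 1 := ⟨ht.1.le, ht.2⟩
  have hlt : MemLp l ∞ m := (hC.test_A hl.1).2
  obtain ⟨c₁, hc₁, hdens⟩ := dens_bd hL hl hlt ht
  obtain ⟨DU, DU', hU1⟩ := hL.levU
  obtain ⟨B, hB⟩ := mem_top_iff.1 hlt
  obtain ⟨DF, DF', hF1⟩ := hL.levF l hl (Real.exp |B|) (Real.one_le_exp (abs_nonneg _)) (by
    filter_upwards [hB] with x hx
    rw [Real.log_exp]
    exact (le_abs_self _).trans (hx.trans (le_abs_self _)))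
  obtain ⟨hzA, hzt⟩ := hL.ulim.mem t htI
  obtain ⟨Z, hZ⟩ := mem_top_iff.1 hzt
  set z : M →ₘ[m] ℝ := zc m p s₀ C₀ t with hz
  have hzA : z ∈ (sob m).A := hzA
  have hZ : ∀ᵐ x ∂m, |(sob m).Γ z z x| ≤ Z := hZ
  have hs : t / 2 ∈ Ioo (0 : ℝ) 1 := ⟨half_pos ht.1, by linarith [ht.1, ht.2]⟩
  obtain ⟨c₂, hc₂⟩ := hBl.b2 l hl (t / 2) hs
  have hts : t ∈ Icc (t / 2) 1 := ⟨by linarith [ht.1], ht.2⟩
  obtain ⟨ζ, hζ, hex⟩ := H715.exists_cuts hC
  -- the pointwise inequalities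
  have key : ∀ᶠ n in atTop, 0 ≤ rn u φ l n t * (sob m).Γ (tn u φ l n t - z) (tn u φ l n t - z) ∧
      MemLp (rn u φ l n t * (sob m).Γ (tn u φ l n t - z) (tn u φ l n t - z) : M →ₘ[m] ℝ) 1 m ∧
      MemLp ((sob m).Γ (u n t - z) (u n t - z)) 1 m ∧
      MemLp (rn u φ l n t * (sob m).Γ (LL (en n) (φ l n) (u n) t) (LL (en n) (φ l n) (u n) t)
        : M →ₘ[m] ℝ) 1 m ∧
      0 ≤ rn u φ l n t * (sob m).Γ (LL (en n) (φ l n) (u n) t) (LL (en n) (φ l n) (u n) t) ∧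
      ∀ᵐ x ∂m, (rn u φ l n t * (sob m).Γ (tn u φ l n t - z) (tn u φ l n t - z)) x
          ≤ c₁ * (4 * (DU ^ 2 + Z) + (DF ^ 2 + DU ^ 2)) ∧
        (rn u φ l n t * (sob m).Γ (tn u φ l n t - z) (tn u φ l n t - z)) x
          ≤ 2 * c₁ * (sob m).Γ (u n t - z) (u n t - z) x + en n ^ 2 / 2 *
            (rn u φ l n t * (sob m).Γ (LL (en n) (φ l n) (u n) t) (LL (en n) (φ l n) (u n) t)) x := by
    filter_upwards [lf hC hP h0 hL hl, hU1, hF1, hdens] with n hn hUn hFn hdn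
    have hn := hn t htI
    have hε := en_pos n
    have uW := hn.uA.1
    have φW := hn.φA.1
    have zW := hzA.1
    have hLW : LL (en n) (φ l n) (u n) t ∈ (sob m).W := hD.smul_mem _ _ (hD.sub_mem φW uW)
    have huz : u n t - z ∈ (sob m).W := hD.sub_mem uW zW
    have e1 : tn u φ l n t - z = (u n t - z) + (en n / 2) • LL (en n) (φ l n) (u n) t := by
      have e2 : (en n / 2) • LL (en n) (φ l n) (u n) t = (2 : ℝ)⁻¹ • (φ l n t - u n t) := by
        unfold LL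
        rw [smul_smul]; congr 1
        field_simp
      rw [e2]
      unfold tn th
      have e4 : (2 : ℝ)⁻¹ • (φ l n t + u n t) = u n t + (2 : ℝ)⁻¹ • (φ l n t - u n t) := by
        module
      rw [e4]; abel
    have hTW : tn u φ l n t - z ∈ (sob m).W := by
      rw [e1]; exact hD.add_mem _ huz _ (hD.smul_mem _ _ hLW)
    have hdW : φ l n t - u n t ∈ (sob m).W := hD.sub_mem φW uW
    have g1 : ∀ᵐ x ∂m, (sob m).Γ (tn u φ l n t - z) (tn u φ l n t - z) x ≤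
        2 * (sob m).Γ (u n t - z) (u n t - z) x + en n ^ 2 / 2 *
          (sob m).Γ (LL (en n) (φ l n) (u n) t) (LL (en n) (φ l n) (u n) t) x := by
      rw [e1]
      filter_upwards [Γ_add_le' hD huz (hD.smul_mem (en n / 2) _ hLW),
        Γ_smul_smul hD hLW (en n / 2)] with x a1 a2
      rw [a2] at a1
      linarith
    have g2 : ∀ᵐ x ∂m, (sob m).Γ (u n t - z) (u n t - z) x ≤ 2 * DU ^ 2 + 2 * Z := by
      have h1 := Γ_add_le' hD uW (hD.neg_mem zW)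
      have h2 : (sob m).Γ (-z) (-z) = (sob m).Γ z z := by
        rw [hD.Γ_neg_left zW (hD.neg_mem zW), hD.Γ_neg_right zW zW, neg_neg]
      rw [← sub_eq_add_neg, h2] at h1
      filter_upwards [h1, hUn.lip t htI, hZ] with x a1 a2 a3
      linarith [le_abs_self ((sob m).Γ z z x)]
    have g3 : ∀ᵐ x ∂m, en n ^ 2 * (sob m).Γ (LL (en n) (φ l n) (u n) t)
        (LL (en n) (φ l n) (u n) t) x ≤ 2 * DF ^ 2 + 2 * DU ^ 2 := by
      have h1 := Γ_add_le' hD φW (hD.neg_mem uW)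
      have h2 : (sob m).Γ (-u n t) (-u n t) = (sob m).Γ (u n t) (u n t) := by
        rw [hD.Γ_neg_left uW (hD.neg_mem uW), hD.Γ_neg_right uW uW, neg_neg]
      rw [← sub_eq_add_neg, h2] at h1
      filter_upwards [h1, hUn.lip t htI, hFn.lip t htI, Γ_smul_smul hD hdW (en n)⁻¹]
        with x a1 a2 a3 a4
      have a5 : (sob m).Γ (LL (en n) (φ l n) (u n) t) (LL (en n) (φ l n) (u n) t) x
          = (en n)⁻¹ ^ 2 * (sob m).Γ (φ l n t - u n t) (φ l n t - u n t) x := a4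
      rw [a5]
      have a6 : en n ^ 2 * ((en n)⁻¹ ^ 2 * (sob m).Γ (φ l n t - u n t) (φ l n t - u n t) x)
          = (sob m).Γ (φ l n t - u n t) (φ l n t - u n t) x := by field_simp
      rw [a6]
      linarith
    have n1 := nonneg_iff_ae.1 (hC.nonneg _ hTW)
    have n2 := nonneg_iff_ae.1 (hC.nonneg _ hLW)
    have n3 := nonneg_iff_ae.1 hn.Fl0
    have n4 := nonneg_iff_ae.1 (hC.nonneg _ huz)
    refine ⟨?_, mem_mul_top hn.Fl (hC.mem1 _ hTW), hC.mem1 _ huz, mem_mul_top hn.Fl (hC.mem1 _ hLW),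
      ?_, ?_⟩
    · rw [nonneg_iff_ae]
      filter_upwards [n1, n3, mul_ae (rn u φ l n t) ((sob m).Γ (tn u φ l n t - z)
        (tn u φ l n t - z))] with x a1 a2 a3
      rw [a3]; exact mul_nonneg a2 a1
    · rw [nonneg_iff_ae]
      filter_upwards [n2, n3, mul_ae (rn u φ l n t) ((sob m).Γ (LL (en n) (φ l n) (u n) t)
        (LL (en n) (φ l n) (u n) t))] with x a1 a2 a3
      rw [a3]; exact mul_nonneg a2 a1
    · filter_upwards [n1, n2, n3, n4, g1, g2, g3, hdn, mul_ae (rn u φ l n t)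
        ((sob m).Γ (tn u φ l n t - z) (tn u φ l n t - z)), mul_ae (rn u φ l n t)
        ((sob m).Γ (LL (en n) (φ l n) (u n) t) (LL (en n) (φ l n) (u n) t))]
        with x a1 a2 a3 a4 a5 a6 a7 a8 a9 a10
      rw [a9, a10]
      rw [abs_of_nonneg a3] at a8
      constructor
      · have b1 : (sob m).Γ (tn u φ l n t - z) (tn u φ l n t - z) x
            ≤ 4 * (DU ^ 2 + Z) + (DF ^ 2 + DU ^ 2) := by linarith
        exact mul_le_mul a8 b1 a1 hc₁
      · calc rn u φ l n t x * (sob m).Γ (tn u φ l n t - z) (tn u φ l n t - z) x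
            ≤ rn u φ l n t x * (2 * (sob m).Γ (u n t - z) (u n t - z) x + en n ^ 2 / 2 *
              (sob m).Γ (LL (en n) (φ l n) (u n) t) (LL (en n) (φ l n) (u n) t) x) := by gcongr
          _ = 2 * rn u φ l n t x * (sob m).Γ (u n t - z) (u n t - z) x + en n ^ 2 / 2 *
              (rn u φ l n t x *
                (sob m).Γ (LL (en n) (φ l n) (u n) t) (LL (en n) (φ l n) (u n) t) x) := by ring
          _ ≤ _ := by gcongr
  have hgoal : Tendsto (fun n => I (χ * (rn u φ l n t *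
      (sob m).Γ (tn u φ l n t - z) (tn u φ l n t - z)))) atTop (𝓝 0) := by
    refine H715.tendsto_weight (L := c₁ * (4 * (DU ^ 2 + Z) + (DF ^ 2 + DU ^ 2))) (ζ := ζ) ?_
      (fun k => hC.memLp _ (hζ k).1.1) hex (fun k => ?_) hχ0 hχ
    · filter_upwards [key] with n hn
      filter_upwards [nonneg_iff_ae.1 hn.1, hn.2.2.2.2.2] with x a1 a2
      exact ⟨a1, a2.1⟩
    · obtain ⟨b, hb⟩ := mem_top_iff.1 (hζ k).1.2
      have hζ2 : MemLp (ζ k ^ 2 : M →ₘ[m] ℝ) ∞ m := by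
        rw [sq]; exact mem_mul_top (hζ k).1.2 (hζ k).1.2
      have hζ1 : MemLp (ζ k ^ 2 : M →ₘ[m] ℝ) 1 m := mem_sq (hC.memLp _ (hζ k).1.1)
      have hζ0 : 0 ≤ ζ k ^ 2 := by
        rw [nonneg_iff_ae]
        filter_upwards [sq_ae (ζ k)] with x hx
        rw [hx]; positivity
      have hlim : Tendsto (fun n => 2 * c₁ * I (ζ k ^ 2 * (sob m).Γ (u n t - z) (u n t - z))
          + b ^ 2 / 2 * (en n * |c₂|)) atTop (𝓝 0) := by
        have h1 := (hL.ulim.grad t ht (ζ k ^ 2) hζ0 hζ1).const_mul (2 * c₁)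
        have h2 := (en_lim.mul_const |c₂|).const_mul (b ^ 2 / 2)
        have h3 := h1.add h2
        rw [mul_zero, zero_mul, mul_zero, add_zero] at h3
        exact h3
      refine squeeze_zero' ?_ ?_ hlim
      · filter_upwards [key] with n hn
        refine I_nonneg ?_
        rw [nonneg_iff_ae]
        filter_upwards [nonneg_iff_ae.1 hn.1, nonneg_iff_ae.1 hζ0, mul_ae (ζ k ^ 2)
          (rn u φ l n t * (sob m).Γ (tn u φ l n t - z) (tn u φ l n t - z))] with x a1 a2 a3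
        rw [a3]; exact mul_nonneg a2 a1
      · filter_upwards [key, hc₂] with n hn hcn
        obtain ⟨k1, k2, k3, k4, k5, k6⟩ := hn
        have hεEV := (hcn t hts).1
        have hε := en_pos n
        have q1 : I (ζ k ^ 2 * (rn u φ l n t * (sob m).Γ (tn u φ l n t - z) (tn u φ l n t - z)))
            ≤ I ((2 * c₁) • (ζ k ^ 2 * (sob m).Γ (u n t - z) (u n t - z))
              + (b ^ 2 / 2 * en n ^ 2) • (rn u φ l n t * (sob m).Γ (LL (en n) (φ l n) (u n) t)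
                (LL (en n) (φ l n) (u n) t))) := by
          refine I_mono (mem_mul_top hζ2 k2)
            (mem_add (mem_smul _ (mem_mul_top hζ2 k3)) (mem_smul _ k4)) ?_
          rw [le_iff_ae]
          filter_upwards [k6, hb, nonneg_iff_ae.1 k5, sq_ae (ζ k), mul_ae (ζ k ^ 2)
            (rn u φ l n t * (sob m).Γ (tn u φ l n t - z) (tn u φ l n t - z)),
            add_ae ((2 * c₁) • (ζ k ^ 2 * (sob m).Γ (u n t - z) (u n t - z)))
              ((b ^ 2 / 2 * en n ^ 2) • (rn u φ l n t * (sob m).Γ (LL (en n) (φ l n) (u n) t)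
                (LL (en n) (φ l n) (u n) t))),
            smul_ae (ζ k ^ 2 * (sob m).Γ (u n t - z) (u n t - z)) (2 * c₁),
            smul_ae (rn u φ l n t * (sob m).Γ (LL (en n) (φ l n) (u n) t)
                (LL (en n) (φ l n) (u n) t)) (b ^ 2 / 2 * en n ^ 2),
            mul_ae (ζ k ^ 2) ((sob m).Γ (u n t - z) (u n t - z))]
            with x a1 a2 a3 a4 a5 a6 a7 a8 a9
          rw [a5, a6, a7, a8, a9, a4]
          have b1 : ζ k x ^ 2 ≤ b ^ 2 := sq_le_sq' (abs_le.1 a2).1 (abs_le.1 a2).2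
          have b2 : 0 ≤ ζ k x ^ 2 := sq_nonneg _
          calc ζ k x ^ 2 * (rn u φ l n t * (sob m).Γ (tn u φ l n t - z) (tn u φ l n t - z)
                : M →ₘ[m] ℝ) x
              ≤ ζ k x ^ 2 * (2 * c₁ * (sob m).Γ (u n t - z) (u n t - z) x + en n ^ 2 / 2 *
                (rn u φ l n t * (sob m).Γ (LL (en n) (φ l n) (u n) t)
                  (LL (en n) (φ l n) (u n) t) : M →ₘ[m] ℝ) x) := by gcongr; exact a1.2
            _ = 2 * c₁ * (ζ k x ^ 2 * (sob m).Γ (u n t - z) (u n t - z) x) + ζ k x ^ 2 / 2 *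
                en n ^ 2 * (rn u φ l n t * (sob m).Γ (LL (en n) (φ l n) (u n) t)
                  (LL (en n) (φ l n) (u n) t) : M →ₘ[m] ℝ) x := by ring
            _ ≤ _ := by
              have a3' : 0 ≤ (rn u φ l n t * (sob m).Γ (LL (en n) (φ l n) (u n) t)
                  (LL (en n) (φ l n) (u n) t) : M →ₘ[m] ℝ) x := a3
              gcongr
        refine q1.trans ?_
        rw [I_add (mem_smul _ (mem_mul_top hζ2 k3)) (mem_smul _ k4), I_smul, I_smul]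
        have q2 : I (rn u φ l n t * (sob m).Γ (LL (en n) (φ l n) (u n) t)
            (LL (en n) (φ l n) (u n) t)) = (sob m).EV (en n) (φ l n) (u n) t := rfl
        rw [q2]
        have q3 : b ^ 2 / 2 * en n ^ 2 * (sob m).EV (en n) (φ l n) (u n) t
            = b ^ 2 / 2 * (en n * (en n * (sob m).EV (en n) (φ l n) (u n) t)) := by ring
        rw [q3]
        gcongr
        exact hεEV.trans (le_abs_self _)
  refine hgoal.congr fun n => ?_
  rw [mul_assoc]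

theorem blk_C6a : Blk_C6a.{u} := by
  intro M _ _ _ _ _ m K N κ P p s₀ C₀ hyp E _ _ _ Gr V D HO e hE u φ hL hBl U hU φ₀ L B R₀ c ρ R Y
    hPL hO hLim hMu hM
  have hC := std_gamma hyp.std
  have hB := std_bei hyp.std
  have hP := hyp.heat
  have h0 : (0 : M →ₘ[m] ℝ) ∈ (sob m).TestI := hC.testI_zero hB
  have h1 : (1 : ℝ) ∈ Ioc (0 : ℝ) 1 := ⟨one_pos, le_rfl⟩
  have hf : ∀ l ∈ (sob m).TestI, ∀ᶠ n in U, ∀ t ∈ Icc (0 : ℝ) 1, Lf m P u φ l n t :=
    fun l hl => (lf hC hP h0 hL hl).filter_mono hU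
  constructor
  · intro l hl s hs
    have hs' : s ∈ Ioc (0 : ℝ) 1 := ⟨hs.1, hs.2.le⟩
    have h2 := w_lim0 hC hP h0 hU hL hBl hO hLim hM hs' hl
    have h4 : ∀ᶠ n in U, I ((ex l - 1) ^ 2) - I (rn u φ 0 n s * (wn φ l n s - 1) ^ 2)
        = en n * ∫ t in s..1, I (rn u φ 0 n t * (sob m).Γ (wn φ l n t - 1) (wn φ l n t - 1)) := by
      filter_upwards [(hBl.b8 l hl).filter_mono hU] with n hn
      exact hn.2 s ⟨hs.1.le, hs.2.le⟩
    have h5 := (tendsto_const_nhds (x := I ((ex l - 1 : M →ₘ[m] ℝ) ^ 2)) (f := (U : Filter ℕ))).sub h2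
    rw [sub_self] at h5
    exact h5.congr' h4
  · intro l hl t ht k hk
    have htI : t ∈ Icc (0 : ℝ) 1 := ⟨ht.1.le, ht.2⟩
    have hkk : L2i m (ex l - 1) := ex_L2i hC.toIsDir (hC.test_A hl.1)
    have e1 : ∀ᶠ n in U, I (rn u φ 0 n t * (wn φ l n t - 1) ^ 2)
          - 2 * I (k * RE P (en n) (φ 0 n) (u n) t 1 (ex l - 1)) + I (k ^ 2 * rn u φ 0 n t)
        = I (rn u φ 0 n t * (wn φ l n t - 1 - k) ^ 2) := by
      filter_upwards [hf l hl] with n hn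
      have hn := hn t htI
      rw [expand_sq hn.F hn.w hk, hn.RE]
    have h2 := w_lim0 hC hP h0 hU hL hBl hO hLim hM ht hl
    have h3 := hO.R_lim t ht 1 h1 (ex l - 1) hkk k hk.1
    rw [R_pair hLim hM ht hkk hk] at h3
    have h4 := rn_lim hC ((hf 0 h0).mono fun n hn => hn t htI) hO hLim ht (L2i.sq hk).1 (L2i.sq hk).2
    rw [comp_sq_eq hLim hM ht k] at h4
    have h5 := (h2.sub (h3.const_mul 2)).add h4
    have e2 : ∫ x, (Real.exp (l x) - 1 - k (Y t x)) ^ 2 ∂m = I ((ex l - 1) ^ 2)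
        - 2 * ∫ x, (ex l - 1 : M →ₘ[m] ℝ) x * k (Y t x) ∂m + ∫ x, k (Y t x) ^ 2 ∂m := by
      have i1 : MemLp (fun x => (ex l - 1 : M →ₘ[m] ℝ) x) 2 m := hkk.1
      have i2 := comp_sq_int hLim hM ht hk
      have j1 : Integrable (fun x => (ex l - 1 : M →ₘ[m] ℝ) x ^ 2) m := i1.integrable_sq
      have j2 : Integrable (fun x => k (Y t x) ^ 2) m := i2.integrable_sq
      have j3 : Integrable (fun x => (ex l - 1 : M →ₘ[m] ℝ) x * k (Y t x)) m := i1.integrable_mul i2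
      have e3 : I ((ex l - 1) ^ 2) = ∫ x, (ex l - 1 : M →ₘ[m] ℝ) x ^ 2 ∂m :=
        integral_congr_ae (sq_ae _)
      have j4 : Integrable (fun x => (ex l - 1 : M →ₘ[m] ℝ) x ^ 2
          - 2 * ((ex l - 1 : M →ₘ[m] ℝ) x * k (Y t x))) m := j1.sub (j3.const_mul 2)
      rw [e3, ← integral_const_mul, ← integral_sub j1 (j3.const_mul 2), ← integral_add j4 j2]
      refine integral_congr_ae ?_
      filter_upwards [sub_ae (ex l) (1 : M →ₘ[m] ℝ), ex_ae l, one_ae (M := M) (m := m)]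
        with x a1 a2 a3
      rw [a1, a2, a3]; ring
    rw [e2]
    exact h5.congr' e1
  · intro l hl t ht b hb
    have htI : t ∈ Icc (0 : ℝ) 1 := ⟨ht.1.le, ht.2⟩
    have hkk : L2i m (ex l - 1) := ex_L2i hC.toIsDir (hC.test_A hl.1)
    have hlt : MemLp l ∞ m := (hC.test_A hl.1).2
    obtain ⟨c₁, hc₁, hdens⟩ := dens_bd hL hl hlt ht
    obtain ⟨B, hB⟩ := mem_top_iff.1 hlt
    have hexl : ∀ᵐ x ∂m, |Real.exp (l x)| ≤ Real.exp |B| := by
      filter_upwards [hB] with x hx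
      rw [abs_of_pos (Real.exp_pos _)]
      exact Real.exp_le_exp.2 ((le_abs_self _).trans (hx.trans (le_abs_self _)))
    have hexm : AEStronglyMeasurable (fun x => Real.exp (l x)) m :=
      Real.continuous_exp.comp_aestronglyMeasurable l.aestronglyMeasurable
    have hint : ∀ b : M →ₘ[m] ℝ, MemLp b 1 m → Integrable (fun x => b (Y t x) * Real.exp (l x)) m :=
      fun b hb => (comp_int hLim hM ht hb).mul_bdd (c := Real.exp |B|) hexm (by
        filter_upwards [hexl] with x hx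
        rw [Real.norm_eq_abs]; exact hx)
    set c₂ : ℝ := Real.exp |B| * (|cK K C₀| * t ^ (-N)) with hc₂
    refine tendsto_of_trunc (T := fun n b => I (b * rn u φ l n t))
      (T' := fun b => ∫ x, b (Y t x) * Real.exp (l x) ∂m) (c := max c₁ c₂) hb ?_ ?_ ?_
    · filter_upwards [hdens.filter_mono hU] with n hn b' hb'
      refine (I_abs_le hn hb hb').trans ?_
      have h0 : 0 ≤ ∫ x, |b x - b' x| ∂m := integral_nonneg fun _ => abs_nonneg _
      gcongr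
      exact le_max_left _ _
    · intro b' hb'
      have h0 : 0 ≤ ∫ x, |b x - b' x| ∂m := integral_nonneg fun _ => abs_nonneg _
      have hbb : Integrable (fun x => |b x - b' x|) m := ((int_of_mem hb).sub (int_of_mem hb')).abs
      have h2 : |(∫ x, b (Y t x) * Real.exp (l x) ∂m) - ∫ x, b' (Y t x) * Real.exp (l x) ∂m|
          ≤ Real.exp |B| * ∫ x, |b (Y t x) - b' (Y t x)| ∂m := by
        rw [← integral_sub (hint b hb) (hint b' hb'), ← integral_const_mul]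
        refine (abs_integral_le_integral_abs).trans (integral_mono_ae ?_ ?_ ?_)
        · exact ((hint b hb).sub (hint b' hb')).abs
        · exact (((comp_int hLim hM ht hb).sub (comp_int hLim hM ht hb')).abs).const_mul _
        · filter_upwards [hexl] with x hx
          rw [← sub_mul, abs_mul, mul_comm]
          gcongr
      have h3 : ∫ x, |b (Y t x) - b' (Y t x)| ∂m = ∫ x, ρ t x * |b x - b' x| ∂m :=
        map_int hM ht (hLim.ρ_nonneg t ht) hbb.aestronglyMeasurable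
      have h4 : ∫ x, ρ t x * |b x - b' x| ∂m ≤ (|cK K C₀| * t ^ (-N)) * ∫ x, |b x - b' x| ∂m := by
        rw [← integral_const_mul]
        have ht0 := ht.1
        refine integral_mono_of_nonneg ?_ (hbb.const_mul _) ?_
        · filter_upwards [nonneg_iff_ae.1 (hLim.ρ_nonneg t ht)] with x hx
          exact mul_nonneg hx (abs_nonneg _)
        · filter_upwards [hLim.ρ_le t ht] with x hx
          have : cK K C₀ * t ^ (-N) ≤ |cK K C₀| * t ^ (-N) := by gcongr; exact le_abs_self _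
          gcongr
          exact hx.trans this
      calc _ ≤ Real.exp |B| * ∫ x, |b (Y t x) - b' (Y t x)| ∂m := h2
        _ ≤ Real.exp |B| * ((|cK K C₀| * t ^ (-N)) * ∫ x, |b x - b' x| ∂m) := by
            rw [h3]; gcongr
        _ = c₂ * ∫ x, |b x - b' x| ∂m := by rw [hc₂]; ring
        _ ≤ max c₁ c₂ * ∫ x, |b x - b' x| ∂m := by gcongr; exact le_max_right _ _
    · intro b hb1 hbt
      have hb2 := mem2_of_1_top hb1 hbt
      have e1 : ∀ᶠ n in U, I (b * rn u φ 0 n t)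
          + I (b * RE P (en n) (φ 0 n) (u n) t 1 (ex l - 1)) = I (b * rn u φ l n t) := by
        filter_upwards [hf l hl] with n hn
        have hn := hn t htI
        have e2 : rn u φ l n t = rn u φ 0 n t + rn u φ 0 n t * (wn φ l n t - 1) := by
          rw [hn.mul]; ring
        rw [e2, hn.RE, mul_add, I_add (mem_top_mul hb1 hn.F)]
        rw [← hn.RE]
        exact mem_mul_22 hb2 (mem_mul_top hn.F hn.w.1)
      have h3 := hO.R_lim t ht 1 h1 (ex l - 1) hkk b hb2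
      rw [R_pair hLim hM ht hkk ⟨hb2, hbt⟩] at h3
      have h4 := rn_lim hC ((hf 0 h0).mono fun n hn => hn t htI) hO hLim ht hb1 hbt
      have h5 := h4.add h3
      have e2 : ∫ x, b (Y t x) * Real.exp (l x) ∂m = I (b * ρ t)
          + ∫ x, (ex l - 1 : M →ₘ[m] ℝ) x * b (Y t x) ∂m := by
        rw [← map_int_class hM ht (hLim.ρ_nonneg t ht) b, ← integral_add (comp_int hLim hM ht hb1)]
        · refine integral_congr_ae ?_
          filter_upwards [sub_ae (ex l) (1 : M →ₘ[m] ℝ), ex_ae l, one_ae (M := M) (m := m)]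
            with x a1 a2 a3
          rw [a1, a2, a3]; ring
        · have i1 : MemLp (fun x => (ex l - 1 : M →ₘ[m] ℝ) x) 2 m := hkk.1
          exact i1.integrable_mul (comp_sq_int hLim hM ht ⟨hb2, hbt⟩)
      rw [e2]
      exact h5.congr' e1
  · intro l hl t ht χ hχ hχ0
    exact (v_lim hC hP h0 hL hBl ht hl hχ hχ0).mono_left hU

end metric

end Vale.Agent.P233.H183
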