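import Vale.Agent.P233.H183.Unit
import Vale.Agent.P233.Gig.IfD

/-! P233, block D0 of `Gig/IfD`: the gradient of a distance function has norm one. -/

set_option linter.all false

open MeasureTheory Filter Topology Set
open scoped ENNReal NNReal InnerProductSpace

universe u

namespace Vale.Agent.P233.H183

/-- A null set argument: if there are maps `Y` close to the identity and of bounded compression
with `Y x ∉ N` for almost every `x ∈ B`, then `N ⊆ B` is a null set. -/
theorem null_of_maps {M : Type*} [MetricSpace M] [MeasurableSpace M] [BorelSpace M]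
    {m : Measure M} {B N : Set M} (hB : MeasurableSet B) (hBfin : m B ≠ ∞)
    (hthick : ∃ R > 0, m (Metric.thickening R B) ≠ ∞)
    (hN : MeasurableSet N) (hNB : N ⊆ B) {K : ℝ≥0∞} (hK : K ≠ ∞)
    (hY : ∀ δ > 0, ∃ Y : M → M, (∀ᵐ x ∂m, x ∈ B → dist (Y x) x < δ) ∧
      (∀ A : Set M, MeasurableSet A → m {x | x ∈ B ∧ Y x ∈ A} ≤ K * m A) ∧
      m {x | x ∈ B ∧ Y x ∈ N} = 0) : m N = 0 := by
  by_contra h0
  have : IsFiniteMeasure (m.restrict B) := ⟨by rw [Measure.restrict_apply_univ]; exact hBfin.lt_top⟩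
  have hN0 : 0 < m.restrict B N := by
    rw [Measure.restrict_apply hN, inter_eq_left.2 hNB]
    exact pos_iff_ne_zero.2 h0
  obtain ⟨F, hFN, hFc, hF0⟩ := hN.exists_lt_isClosed_of_ne_top (μ := m.restrict B)
    (measure_ne_top _ _) hN0
  rw [Measure.restrict_apply hFc.measurableSet, inter_eq_left.2 (hFN.trans hNB)] at hF0
  have hFfin : m F ≠ ∞ := ((measure_mono (hFN.trans hNB)).trans_lt hBfin.lt_top).ne
  obtain ⟨R, hR, hRfin⟩ := hthick
  have hlim := tendsto_measure_thickening_of_isClosed (μ := m) (s := F)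
    ⟨R, hR, ((measure_mono (Metric.thickening_subset_of_subset R (hFN.trans hNB))).trans_lt
      hRfin.lt_top).ne⟩ hFc
  have key : ∀ δ > 0, m F ≤ K * (m (Metric.thickening δ F) - m F) := by
    intro δ hδ
    obtain ⟨Y, h1, h2, h3⟩ := hY δ hδ
    have hmeas : MeasurableSet (Metric.thickening δ F \ F) :=
      Metric.isOpen_thickening.measurableSet.diff hFc.measurableSet
    have h4 : m F ≤ m {x | x ∈ B ∧ Y x ∈ Metric.thickening δ F \ F} := by
      have h5 : (F : Set M) ≤ᵐ[m] {x | x ∈ B ∧ Y x ∈ Metric.thickening δ F \ F} := by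
        have h3' : ∀ᵐ x ∂m, ¬ (x ∈ B ∧ Y x ∈ N) := by
          rw [ae_iff]; simpa using h3
        filter_upwards [h1, h3'] with x hx hx' hxF
        have hxB : x ∈ B := hNB (hFN hxF)
        refine ⟨hxB, ?_, fun h => hx' ⟨hxB, hFN h⟩⟩
        rw [Metric.mem_thickening_iff]
        exact ⟨x, hxF, hx hxB⟩
      exact measure_mono_ae h5
    refine h4.trans ((h2 _ hmeas).trans ?_)
    gcongr
    rw [measure_sdiff (Metric.self_subset_thickening hδ F) hFc.measurableSet.nullMeasurableSet hFfin]
  have hlim2 : Tendsto (fun r => K * (m (Metric.thickening r F) - m F)) (𝓝[>] 0)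
      (𝓝 (K * (m F - m F))) := by
    refine ENNReal.Tendsto.const_mul ?_ (Or.inr hK)
    exact ENNReal.Tendsto.sub hlim tendsto_const_nhds (Or.inl hFfin)
  rw [tsub_self, mul_zero] at hlim2
  have h6 : m F ≤ 0 := ge_of_tendsto hlim2 (by
    filter_upwards [self_mem_nhdsWithin] with r hr
    exact key r hr)
  exact absurd h6 (not_le.2 hF0)

theorem dtr_LW {M : Type u} [MetricSpace M] [MeasurableSpace M] [BorelSpace M] {m : Measure M}
    (hfin : ∀ (x : M) (r : ℝ), m (Metric.ball x r) < ∞) (p : M) (R : ℝ) :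
    PD.LW m (PD.dp m p R) (dtr p R) :=
  ⟨dtr_mem hfin p R, ⟨1, dtr_lip p R⟩, dtr_ae p R⟩

theorem gn_measurable {M : Type u} [MetricSpace M] [MeasurableSpace M] {m : Measure M}
    (h : M →ₘ[m] ℝ) : Measurable (PD.gn m h) := by
  unfold PD.gn
  exact ((sob m).Γ h h).measurable.sqrt

theorem unitGrad_of_contr {M : Type u} [MetricSpace M] [SecondCountableTopology M]
    [MeasurableSpace M] [BorelSpace M] {m : Measure M} [SFinite m] {K N : ℝ} (hC : IsDir (sob m))
    (hfin : ∀ (x : M) (r : ℝ), m (Metric.ball x r) < ∞) (hna : ∀ p : M, m {p} = 0)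
    {n : ℝ} (hct : PD.HasContr m n) : PD.UnitGrad m := by
  intro p R
  rcases le_or_gt R 0 with hR | hR
  · filter_upwards with y hy
    exact absurd (dist_nonneg.trans_lt hy) (not_lt.2 hR)
  obtain ⟨K, hK⟩ := hct R hR
  obtain ⟨Y, hY⟩ := hK p 1 ⟨one_pos, le_rfl⟩
  set h := PD.dp m p R with hh
  have hhW : h ∈ (sob m).W := dtr_mem hfin p R
  set g := PD.gn m h with hg
  have hgm : Measurable g := gn_measurable h
  have hg1 : ∀ᵐ x ∂m, g x ≤ 1 := by
    filter_upwards [Γ_cl_le (m := m) hfin (dtr_lip p R) (x₀ := p) (R := R)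
      (fun x hx => dtr_zero hx)] with x hx
    rw [hg, PD.gn, ← Real.sqrt_one]
    refine Real.sqrt_le_sqrt ?_
    simp only [NNReal.coe_one, one_pow] at hx
    exact hx
  set B : Set M := {x | dist p x < R} with hB
  have hBm : MeasurableSet B := (isOpen_lt (by fun_prop) (by fun_prop)).measurableSet
  have hBball : B = Metric.ball p R := by ext x; simp [hB, dist_comm]
  -- the set where the gradient is smaller than one
  set N : Set M := {x | dist p x < R ∧ g x < 1} with hN
  have hNm : MeasurableSet N := hBm.inter (measurableSet_lt hgm measurable_const)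
  have hgY : Measurable fun z : ℝ × M => g (Y z.1 z.2) := hgm.comp hY.meas
  have hYm : ∀ t, Measurable (Y t) := fun t => hY.meas.comp (by fun_prop : Measurable fun x => (t, x))
  -- for almost every time almost every point is moved to a point with gradient one
  have hone : ∀ᵐ t ∂(volume.restrict (Ioo (1 / 2 : ℝ) 1)), ∀ᵐ x ∂m, dist p x < R →
      g (Y t x) = 1 := by
    have hms : MeasurableSet {z : M × ℝ | dist p z.1 < R → g (Y z.2 z.1) = 1} := by
      have h1 : MeasurableSet {z : M × ℝ | dist p z.1 < R} :=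
        (isOpen_lt (by fun_prop) (by fun_prop)).measurableSet
      have h2 : MeasurableSet {z : M × ℝ | g (Y z.2 z.1) = 1} :=
        measurableSet_eq_fun (hgY.comp measurable_swap) measurable_const
      have : {z : M × ℝ | dist p z.1 < R → g (Y z.2 z.1) = 1}
          = {z : M × ℝ | dist p z.1 < R}ᶜ ∪ {z : M × ℝ | g (Y z.2 z.1) = 1} := by
        ext z; simp [imp_iff_not_or]
      rw [this]; exact h1.compl.union h2
    rw [← Measure.ae_ae_comm (μ := m) (ν := volume.restrict (Ioo (1 / 2 : ℝ) 1))
      (p := fun x t => dist p x < R → g (Y t x) = 1) hms]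
    -- gradient at most one along almost every curve
    have hle : ∀ᵐ x ∂m, ∀ᵐ t ∂(volume.restrict (Ioo (1 / 2 : ℝ) 1)), dist p x < R →
        g (Y t x) ≤ 1 := by
      have hms2 : MeasurableSet {z : M × ℝ | dist p z.1 < R → g (Y z.2 z.1) ≤ 1} := by
        have h1 : MeasurableSet {z : M × ℝ | dist p z.1 < R} :=
          (isOpen_lt (by fun_prop) (by fun_prop)).measurableSet
        have h2 : MeasurableSet {z : M × ℝ | g (Y z.2 z.1) ≤ 1} :=
          measurableSet_le (hgY.comp measurable_swap) measurable_const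
        have : {z : M × ℝ | dist p z.1 < R → g (Y z.2 z.1) ≤ 1}
            = {z : M × ℝ | dist p z.1 < R}ᶜ ∪ {z : M × ℝ | g (Y z.2 z.1) ≤ 1} := by
          ext z; simp [imp_iff_not_or]
        rw [this]; exact h1.compl.union h2
      rw [Measure.ae_ae_comm (μ := m) (ν := volume.restrict (Ioo (1 / 2 : ℝ) 1))
        (p := fun x t => dist p x < R → g (Y t x) ≤ 1) hms2]
      refine (ae_restrict_iff' measurableSet_Ioo).2 (ae_of_all _ fun t ht => ?_)
      have h1 := hY.dens t ⟨by linarith [ht.1], ht.2.le⟩ {x | g x ≤ 1}ᶜ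
        (measurableSet_le hgm measurable_const).compl
      have h2 : m {x | g x ≤ 1}ᶜ = 0 := hg1
      rw [h2, mul_zero] at h1
      have h3 : m {x | dist p x < R ∧ Y t x ∈ {x | g x ≤ 1}ᶜ} = 0 := le_antisymm h1 zero_le
      rw [ae_iff]
      refine measure_mono_null (fun x hx => ?_) h3
      simp only [mem_setOf_eq, Classical.not_imp, mem_compl_iff] at hx ⊢
      exact hx
    filter_upwards [hY.rad, hY.curve h (dtr p R) (dtr_LW hfin p R), hle,
      measure_eq_zero_iff_ae_notMem.1 (hna p)] with x h1 h2 h3 h4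
    by_cases hxR : dist p x < R
    · have hxp : 0 < dist p x := dist_pos.2 fun e => h4 e.symm
      obtain ⟨h5, h6⟩ := h2 hxR (1 / 2) ⟨by norm_num, by norm_num⟩
      obtain ⟨h7, -⟩ := h1 hxR (1 / 2) ⟨by norm_num, by norm_num⟩
      have h8 : dist p (Y (1 / 2) x) < R := by rw [h7]; linarith
      rw [dtr_eq hxR.le, dtr_eq h8.le, h7] at h6
      have h9 : 1 / 4 * dist p x ≤ dist p x / (1 + 1) * ∫ τ in (1 / 2 : ℝ)..1, g (Y τ x) := by
        refine le_trans ?_ h6
        refine le_trans (le_of_eq ?_) (le_abs_self _)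
        ring
      have h10 : (1 / 2 : ℝ) ≤ ∫ τ in (1 / 2 : ℝ)..1, g (Y τ x) := by
        by_contra hlt
        rw [not_le] at hlt
        nlinarith
      have h11 : ∫ τ in (1 / 2 : ℝ)..1, (1 - g (Y τ x)) ≤ 0 := by
        rw [intervalIntegral.integral_sub intervalIntegrable_const h5]
        simp only [intervalIntegral.integral_const, smul_eq_mul, mul_one]
        linarith
      rw [intervalIntegral.integral_of_le (by norm_num), integral_Ioc_eq_integral_Ioo] at h11
      have h12 : 0 ≤ᵐ[volume.restrict (Ioo (1 / 2 : ℝ) 1)] fun τ => 1 - g (Y τ x) := by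
        filter_upwards [h3] with t ht
        have := ht hxR
        simp only [Pi.zero_apply]; linarith
      have h13 : Integrable (fun τ => 1 - g (Y τ x)) (volume.restrict (Ioo (1 / 2 : ℝ) 1)) := by
        have := (intervalIntegrable_const (c := (1 : ℝ)) (μ := volume) (a := 1 / 2) (b := 1)).sub h5
        exact (intervalIntegrable_iff_integrableOn_Ioo_of_le (by norm_num)).1 this
      have h14 := (integral_eq_zero_iff_of_nonneg_ae h12 h13).1
        (le_antisymm h11 (integral_nonneg_of_ae h12))
      filter_upwards [h14] with t ht _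
      simp only [Pi.zero_apply] at ht
      linarith
    · filter_upwards with t h; exact absurd h hxR
  -- conclusion
  have hKt : ENNReal.ofReal (K * (1 / 2 : ℝ) ^ (-n)) ≠ ∞ := ENNReal.ofReal_ne_top
  have hN0 : m N = 0 := by
    refine null_of_maps (m := m) (B := B) (N := N) hBm (hBball ▸ (hfin p R).ne) ?_ hNm
      (fun x hx => hx.1) (K := ENNReal.ofReal (|K| * max 1 ((1 / 2 : ℝ) ^ (-n))))
      ENNReal.ofReal_ne_top ?_
    · refine ⟨1, one_pos, ?_⟩
      refine ((measure_mono ?_).trans_lt (hfin p (R + 1))).ne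
      intro x hx
      rw [Metric.mem_thickening_iff] at hx
      obtain ⟨z, hz, hxz⟩ := hx
      rw [Metric.mem_ball]
      have h1 : dist p z < R := hz
      have h2 := dist_triangle x z p
      rw [dist_comm z p] at h2
      linarith
    · intro δ hδ
      -- choose a good time close to one
      have h1 : ∃ t ∈ Ioo (1 / 2 : ℝ) 1, (1 - t) * R < δ ∧ ∀ᵐ x ∂m, dist p x < R →
          g (Y t x) = 1 := by
        set a : ℝ := max (1 / 2) (1 - δ / R) with ha
        have ha1 : a < 1 := max_lt (by norm_num) (by have := div_pos hδ hR; linarith)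
        have h2 : ∀ᵐ t ∂(volume.restrict (Ioo a 1)), ∀ᵐ x ∂m, dist p x < R → g (Y t x) = 1 :=
          ae_mono (Measure.restrict_mono (Ioo_subset_Ioo_left (le_max_left _ _)) le_rfl) hone
        have h3 : ∀ᵐ t ∂(volume.restrict (Ioo a 1)), t ∈ Ioo a 1 :=
          ae_restrict_mem measurableSet_Ioo
        have h4 : NeBot (ae (volume.restrict (Ioo a 1))) := by
          rw [ae_restrict_neBot, Real.volume_Ioo]
          simp only [ne_eq, ENNReal.ofReal_eq_zero, not_le]
          linarith
        obtain ⟨t, ht1, ht2⟩ := (h2.and h3).exists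
        refine ⟨t, ⟨(le_max_left _ _).trans_lt ht2.1, ht2.2⟩, ?_, ht1⟩
        have h5 : 1 - δ / R < t := (le_max_right _ _).trans_lt ht2.1
        have h6 : 1 - t < δ / R := by linarith
        calc (1 - t) * R < δ / R * R := by gcongr
          _ = δ := by field_simp
      obtain ⟨t, ht, htδ, hg1'⟩ := h1
      refine ⟨Y t, ?_, ?_, ?_⟩
      · filter_upwards [hY.rad] with x hx hxB
        have h2 := (hx hxB t ⟨by linarith [ht.1], ht.2.le⟩).2
        rw [h2]
        have h3 : dist p x < R := hxB
        have h4 : (1 - t) / (1 + 1) * dist p x ≤ (1 - t) * R := by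
          have h5 : 0 ≤ 1 - t := by linarith [ht.2]
          have h6 : 0 ≤ dist p x := dist_nonneg
          nlinarith
        linarith
      · intro A hA
        refine (hY.dens t ⟨by linarith [ht.1], ht.2.le⟩ A hA).trans ?_
        have h3 : t ^ (-n) ≤ max 1 ((1 / 2 : ℝ) ^ (-n)) := by
          rcases le_total 0 n with hn | hn
          · refine le_trans ?_ (le_max_right _ _)
            exact Real.rpow_le_rpow_of_nonpos (by norm_num) ht.1.le (by linarith)
          · refine le_trans ?_ (le_max_left _ _)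
            exact Real.rpow_le_one (by linarith [ht.1]) ht.2.le (by linarith)
        have h4 : K * t ^ (-n) ≤ |K| * max 1 ((1 / 2 : ℝ) ^ (-n)) :=
          mul_le_mul (le_abs_self K) h3 (Real.rpow_nonneg (by linarith [ht.1]) _) (abs_nonneg K)
        gcongr
      · rw [measure_eq_zero_iff_ae_notMem]
        filter_upwards [hg1'] with x hx hxx
        have h2 := hx hxx.1
        have h3 : g (Y t x) < 1 := hxx.2.2
        linarith
  have hN0' : ∀ᵐ x ∂m, x ∉ N := measure_eq_zero_iff_ae_notMem.1 hN0
  filter_upwards [hN0', hg1, hC.Γ_nonneg_ae hhW] with x h1 h2 h3 hxR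
  have h4 : g x = 1 := le_antisymm h2 (not_lt.1 fun h => h1 ⟨hxR, h⟩)
  rw [hg, PD.gn] at h4
  have h5 := Real.sq_sqrt h3
  rw [h4] at h5
  linarith

/-- Block D0. -/
theorem blk_D0 : PD.Blk_D0.{u} := by
  intro M _ _ _ _ _ m n K h
  have hfin := h.std.hfin
  have hsf : SigmaFinite m := sigmaFinite_of_ball hfin
  have hn : 0 < (n : ℝ) := h.std.hN
  have hna : ∀ p : M, m {p} = 0 := by
    intro p
    have := Measure.noAtoms_hausdorff M hn
    rw [h.haus]
    exact measure_singleton p
  exact unitGrad_of_contr (K := K) (N := n) (isGamma_sob hfin h.std.rcd.quadratic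
    h.std.rcd.sobolev_to_lipschitz).toIsDir hfin hna h.contr

end Vale.Agent.P233.H183
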