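import Vale.Agent.P233.H183.BlkC6a
import Vale.Agent.P233.H866.Loc

/-! P233: localisation in `L¹` with the weights `exp l - 1`, `l ∈ TestI`. -/

set_option linter.all false

open MeasureTheory Filter Topology Set
open scoped ENNReal NNReal InnerProductSpace

universe u

namespace Vale.Agent.P233.H183

variable {M : Type u} [MeasurableSpace M] {m : Measure M} {C : Calc m} {K : ℝ}
  {P : ℝ → (M →ₘ[m] ℝ) → (M →ₘ[m] ℝ)}

theorem mem2_of' {f : M →ₘ[m] ℝ} (h1 : MemLp f 1 m) (h2 : MemLp f ∞ m) : MemLp f 2 m := by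
  refine memLp_two_of_sq ?_
  rw [sq]; exact mem_mul_top h2 h1

theorem I_abs_le' {F b b' : M →ₘ[m] ℝ} {c : ℝ} (hc : ∀ᵐ x ∂m, |F x| ≤ c) (hb : MemLp b 1 m)
    (hb' : MemLp b' 1 m) : |I (b * F) - I (b' * F)| ≤ c * ∫ x, |b x - b' x| ∂m := by
  have hF : MemLp F ∞ m := mem_top_iff.2 ⟨c, hc⟩
  rw [← I_sub (mem_top_mul hb hF) (mem_top_mul hb' hF), ← integral_const_mul]
  unfold I
  refine (abs_integral_le_integral_abs).trans (integral_mono_ae ?_ ?_ ?_)
  · exact (int_of_mem (mem_sub (mem_top_mul hb hF) (mem_top_mul hb' hF))).abs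
  · refine (((int_of_mem hb).sub (int_of_mem hb')).abs).const_mul c
  · filter_upwards [sub_ae (b * F) (b' * F), mul_ae b F, mul_ae b' F, hc] with x a1 a2 a3 a4
    rw [a1, a2, a3, ← sub_mul, abs_mul, mul_comm]
    gcongr

/-- integrable functions are determined by nonnegative functions in `TestI` -/
theorem loc_testI (hP : Heat C K P) {D : M →ₘ[m] ℝ} (hD : MemLp D 1 m)
    (h : ∀ k ∈ C.TestI, 0 ≤ k → I (D * k) = 0) {ψ : M →ₘ[m] ℝ} (h0 : 0 ≤ ψ) (h2 : MemLp ψ 2 m)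
    (ht : MemLp ψ ∞ m) : I (D * ψ) = 0 := by
  obtain ⟨c, hc⟩ := mem_top_iff.1 ht
  have hpos : ∀ n : ℕ, (0 : ℝ) < ((n : ℝ) + 1)⁻¹ := fun n => by positivity
  set k : ℕ → M →ₘ[m] ℝ := fun n => P ((n : ℝ) + 1)⁻¹ ψ with hk
  have k1 : ∀ n, k n ∈ C.TestI := fun n => hP.testI' _ (hpos n) ψ h2 ht
  have k2 : ∀ n, 0 ≤ k n := fun n => hP.nonneg _ (hpos n).le ψ h2 h0
  have k3 : ∀ n, MemLp (k n) 2 m := fun n => hP.mem _ (hpos n).le ψ h2
  have k4 : Tendsto (fun n => I ((k n - ψ) ^ 2)) atTop (𝓝 0) := by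
    have h3 := hP.cont ψ h2 0 le_rfl
    rw [hP.zero ψ h2] at h3
    refine h3.comp (tendsto_nhdsWithin_iff.2 ⟨?_, ?_⟩)
    · simpa only [one_div] using tendsto_one_div_add_atTop_nhds_zero_nat (𝕜 := ℝ)
    · exact Eventually.of_forall fun n => (hpos n).le
  have hc' : ∀ᵐ x ∂m, |ψ x| ≤ |c| := hc.mono fun x hx => hx.trans (le_abs_self _)
  have k5 : ∀ n, ∀ᵐ x ∂m, |k n x| ≤ |c| := by
    intro n
    have h3 := hP.le _ (hpos n).le ψ h2 |c| (abs_nonneg _)
      (hc'.mono fun x hx => (le_abs_self _).trans hx)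
    filter_upwards [h3, nonneg_iff_ae.1 (k2 n)] with x a1 a2
    rw [abs_of_nonneg a2]; exact a1
  have h5 : Tendsto (fun n => I (D * k n)) atTop (𝓝 (I (D * ψ))) := by
    refine tendsto_of_trunc (T := fun n b => I (b * k n)) (T' := fun b => I (b * ψ)) (c := |c|) hD
      (Eventually.of_forall fun n b' hb' => I_abs_le' (k5 n) hD hb')
      (fun b' hb' => I_abs_le' hc' hD hb') (fun b hb1 hbt => ?_)
    have h6 := H866.tendsto_I_of_L2 k3 h2 (mem2_of' hb1 hbt) k4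
    rw [mul_comm b ψ]
    exact h6.congr fun n => by rw [mul_comm]
  have h6 : ∀ n, I (D * k n) = 0 := fun n => h _ (k1 n) (k2 n)
  simp_rw [h6] at h5
  exact (tendsto_nhds_unique h5 tendsto_const_nhds)

/-- **localisation**: weights `exp l - 1` -/
theorem loc_L1 (hC : IsGamma C) {κ : ℝ} (hB : C.BEi κ) (hP : Heat C K P) {D : M → ℝ}
    (hD : Integrable D m) (h : ∀ l ∈ C.TestI, ∫ x, (Real.exp (l x) - 1) * D x ∂m = 0) :
    ∀ᵐ x ∂m, D x = 0 := by
  set D' : M →ₘ[m] ℝ := AEEqFun.mk D hD.aestronglyMeasurable with hD'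
  have e : ⇑D' =ᵐ[m] D := AEEqFun.coeFn_mk D _
  have hD1 : MemLp D' 1 m := (memLp_congr_ae e).2 (memLp_one_iff_integrable.2 hD)
  have h1 : ∀ k ∈ C.TestI, 0 ≤ k → I (D' * k) = 0 := by
    intro k hk hk0
    obtain ⟨l, hl, el⟩ := hC.exists_log hB hk (c := 1) one_pos (by
      filter_upwards [nonneg_iff_ae.1 hk0] with x a1
      linarith)
    rw [← h l hl]
    refine integral_congr_ae ?_
    rw [← el]
    filter_upwards [mul_ae D' (ex l - 1), sub_ae (ex l) (1 : M →ₘ[m] ℝ), ex_ae (f := l),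
      one_ae (M := M) (m := m), e] with x a1 a2 a3 a4 a5
    rw [a1, a2, a3, a4, a5, mul_comm]
  refine hD.ae_eq_zero_of_forall_setIntegral_eq_zero fun s hs hms => ?_
  have hm : AEStronglyMeasurable (s.indicator fun _ : M => (1 : ℝ)) m :=
    aestronglyMeasurable_const.indicator hs
  set ψ : M →ₘ[m] ℝ := AEEqFun.mk _ hm with hψ
  have e2 : ⇑ψ =ᵐ[m] s.indicator fun _ : M => (1 : ℝ) := AEEqFun.coeFn_mk _ _
  have hp : ∀ q : ℝ≥0∞, MemLp ψ q m := fun q =>
    (memLp_congr_ae e2).2 (memLp_indicator_const q hs (1 : ℝ) (Or.inr hms.ne))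
  have h0 : 0 ≤ ψ := by
    rw [nonneg_iff_ae]
    filter_upwards [e2] with x hx
    rw [hx]; exact indicator_nonneg (fun _ _ => zero_le_one) x
  rw [← loc_testI hP hD1 h1 h0 (hp 2) (hp ∞), ← integral_indicator hs]
  refine integral_congr_ae ?_
  filter_upwards [mul_ae D' ψ, e, e2] with x a1 a2 a3
  rw [a1, a2, a3]
  by_cases hx : x ∈ s
  · rw [indicator_of_mem hx, indicator_of_mem hx, mul_one]
  · rw [indicator_of_notMem hx, indicator_of_notMem hx, mul_zero]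

end Vale.Agent.P233.H183
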