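import Vale.Agent.P233.Gig.IfC

/-! P233: elementary consequences of the structure `Maps` of `Gig/IfC`. -/

set_option linter.all false

open MeasureTheory Filter Topology Set
open scoped ENNReal NNReal InnerProductSpace
open Vale.Agent.P233.PC (Maps)

universe u

namespace Vale.Agent.P233.H183

variable {M : Type u} [MetricSpace M] [MeasurableSpace M] {m : Measure M}

theorem mem2_of_1_top {f : M →ₘ[m] ℝ} (h1 : MemLp f 1 m) (h2 : MemLp f ∞ m) : MemLp f 2 m := by
  refine memLp_two_of_sq ?_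
  rw [sq]; exact mem_mul_top h2 h1

variable {ρ : ℝ → M →ₘ[m] ℝ} {R : ℝ → ℝ → (M →ₘ[m] ℝ) → (M →ₘ[m] ℝ)} {Y : ℝ → M → M} {t : ℝ}

theorem map_eq (h : Maps ρ R Y) (ht : t ∈ Ioc (0 : ℝ) 1) :
    m.map (Y t) = m.withDensity (fun x => ENNReal.ofReal (ρ t x)) := by
  ext A hA
  rw [Measure.map_apply (h.meas t ht) hA, withDensity_apply _ hA, h.map t ht A hA]

theorem map_qmp (h : Maps ρ R Y) (ht : t ∈ Ioc (0 : ℝ) 1) :
    Measure.QuasiMeasurePreserving (Y t) m m :=
  ⟨h.meas t ht, by rw [map_eq h ht]; exact withDensity_absolutelyContinuous _ _⟩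

/-- almost everywhere statements can be pulled back -/
theorem map_ae (h : Maps ρ R Y) (ht : t ∈ Ioc (0 : ℝ) 1) {q : M → Prop} (hq : ∀ᵐ x ∂m, q x) :
    ∀ᵐ x ∂m, q (Y t x) := (map_qmp h ht).ae hq

theorem map_int (h : Maps ρ R Y) (ht : t ∈ Ioc (0 : ℝ) 1) (h0 : 0 ≤ ρ t) {b : M → ℝ}
    (hb : AEStronglyMeasurable b m) : ∫ x, b (Y t x) ∂m = ∫ x, ρ t x * b x ∂m := by
  have h1 : ∫ x, b (Y t x) ∂m = ∫ y, b y ∂(m.map (Y t)) := by
    rw [integral_map (h.meas t ht).aemeasurable]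
    exact hb.mono_ac (map_qmp h ht).absolutelyContinuous
  have h2 : Measurable fun x => Real.toNNReal (ρ t x) := (ρ t).measurable.real_toNNReal
  have h3 : m.withDensity (fun x => ENNReal.ofReal (ρ t x))
      = m.withDensity (fun x => ((Real.toNNReal (ρ t x) : ℝ≥0) : ℝ≥0∞)) := rfl
  rw [h1, map_eq h ht, h3, integral_withDensity_eq_integral_smul h2]
  refine integral_congr_ae ?_
  filter_upwards [nonneg_iff_ae.1 h0] with x hx
  rw [NNReal.smul_def, Real.coe_toNNReal _ hx, smul_eq_mul]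

theorem map_int_class (h : Maps ρ R Y) (ht : t ∈ Ioc (0 : ℝ) 1) (h0 : 0 ≤ ρ t)
    (b : M →ₘ[m] ℝ) : ∫ x, b (Y t x) ∂m = I (b * ρ t) := by
  rw [map_int h ht h0 b.aestronglyMeasurable]
  unfold I
  refine integral_congr_ae ?_
  filter_upwards [mul_ae b (ρ t)] with x hx
  rw [hx, mul_comm]

theorem map_integrable (h : Maps ρ R Y) (ht : t ∈ Ioc (0 : ℝ) 1) (h0 : 0 ≤ ρ t) {b : M → ℝ}
    (hb : AEStronglyMeasurable b m) (hi : Integrable (fun x => ρ t x * b x) m) :
    Integrable (fun x => b (Y t x)) m := by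
  have h1 : Integrable b (m.map (Y t)) := by
    have h2 : Measurable fun x => Real.toNNReal (ρ t x) := (ρ t).measurable.real_toNNReal
    have h3 : m.withDensity (fun x => ENNReal.ofReal (ρ t x))
        = m.withDensity (fun x => ((Real.toNNReal (ρ t x) : ℝ≥0) : ℝ≥0∞)) := rfl
    rw [map_eq h ht, h3, integrable_withDensity_iff_integrable_smul h2]
    refine hi.congr ?_
    filter_upwards [nonneg_iff_ae.1 h0] with x hx
    rw [NNReal.smul_def, Real.coe_toNNReal _ hx, smul_eq_mul]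
  exact h1.comp_measurable (h.meas t ht)

/-- the density is positive at the image points -/
theorem map_pos (h : Maps ρ R Y) (ht : t ∈ Ioc (0 : ℝ) 1) : ∀ᵐ x ∂m, 0 < ρ t (Y t x) := by
  have hm : MeasurableSet {y : M | ρ t y ≤ 0} := measurableSet_le (ρ t).measurable measurable_const
  have h1 := h.map t ht _ hm
  have h2 : ∫⁻ x in {y : M | ρ t y ≤ 0}, ENNReal.ofReal (ρ t x) ∂m = 0 := by
    rw [setLIntegral_congr_fun hm (g := fun _ => 0)]
    · simp
    · intro x hx
      exact ENNReal.ofReal_eq_zero.2 hx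
  rw [h2] at h1
  rw [measure_eq_zero_iff_ae_notMem] at h1
  filter_upwards [h1] with x hx
  simpa using hx

end Vale.Agent.P233.H183
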