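import Vale.Agent.P233.Bd3.B1
import Mathlib.MeasureTheory.Measure.Decomposition.RadonNikodym

/-! P233, RCDA, block S4 (drift), first part: the first marginals of the pieces
`γ|{z | z.2 ∈ Q}` of a plan whose first marginal has a density. -/

set_option linter.all false

open MeasureTheory Filter Topology Set
open scoped ENNReal NNReal

universe u

namespace Vale.Agent.P233.H183

section cells

variable {M : Type u} [MeasurableSpace M] {m : Measure M} {γ : Measure (M × M)} {ρ : M →ₘ[m] ℝ}

/-- the first marginal of the piece `γ|{z.2 ∈ Q}` -/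
noncomputable def mgl (γ : Measure (M × M)) (Q : Set M) : Measure M :=
  (γ.restrict (Prod.snd ⁻¹' Q)).map Prod.fst

theorem mgl_le (Q : Set M) : mgl γ Q ≤ γ.map Prod.fst :=
  Measure.map_mono Measure.restrict_le_self measurable_fst

instance mgl_finite [IsFiniteMeasure γ] (Q : Set M) : IsFiniteMeasure (mgl γ Q) := by
  unfold mgl; infer_instance

theorem mgl_ac (hρ : γ.map Prod.fst = m.withDensity fun x => ENNReal.ofReal (ρ x)) (Q : Set M) :
    mgl γ Q ≪ m := by
  refine (Measure.absolutelyContinuous_of_le (mgl_le Q)).trans ?_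
  rw [hρ]; exact withDensity_absolutelyContinuous _ _

/-- the density of the first marginal of `γ|{z.2 ∈ Q}` -/
noncomputable def du (m : Measure M) (γ : Measure (M × M)) (Q : Set M) : M →ₘ[m] ℝ :=
  AEEqFun.mk (fun x => ((mgl γ Q).rnDeriv m x).toReal)
    (Measure.measurable_rnDeriv _ _).ennreal_toReal.aestronglyMeasurable

theorem du_ae (Q : Set M) : ⇑(du m γ Q) =ᵐ[m] fun x => ((mgl γ Q).rnDeriv m x).toReal :=
  AEEqFun.coeFn_mk _ _

theorem du_nonneg (Q : Set M) : 0 ≤ du m γ Q := by
  rw [nonneg_iff_ae]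
  filter_upwards [du_ae (m := m) (γ := γ) Q] with x hx
  rw [hx]; exact ENNReal.toReal_nonneg

variable [SigmaFinite m] [IsFiniteMeasure γ]

theorem withDensity_du (hρ : γ.map Prod.fst = m.withDensity fun x => ENNReal.ofReal (ρ x))
    (Q : Set M) : m.withDensity (fun x => ENNReal.ofReal (du m γ Q x)) = mgl γ Q := by
  rw [← Measure.withDensity_rnDeriv_eq (mgl γ Q) m (mgl_ac hρ Q)]
  refine withDensity_congr_ae ?_
  filter_upwards [du_ae (m := m) (γ := γ) Q, Measure.rnDeriv_lt_top (mgl γ Q) m] with x h1 h2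
  rw [h1, ENNReal.ofReal_toReal h2.ne]

/-- integration of functions of the first variable over a piece -/
theorem int_mgl (hρ : γ.map Prod.fst = m.withDensity fun x => ENNReal.ofReal (ρ x))
    {Q : Set M} (hQ : MeasurableSet Q) {b : M → ℝ} (hb : Measurable b) :
    ∫ z in Prod.snd ⁻¹' Q, b z.1 ∂γ = ∫ x, du m γ Q x * b x ∂m := by
  have h1 : ∫ z in Prod.snd ⁻¹' Q, b z.1 ∂γ = ∫ x, b x ∂(mgl γ Q) := by
    unfold mgl
    rw [integral_map measurable_fst.aemeasurable hb.aestronglyMeasurable]
  have h2 : Measurable fun x => Real.toNNReal (du m γ Q x) := (du m γ Q).measurable.real_toNNReal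
  have h3 : m.withDensity (fun x => ENNReal.ofReal (du m γ Q x))
      = m.withDensity (fun x => ((Real.toNNReal (du m γ Q x) : ℝ≥0) : ℝ≥0∞)) := rfl
  rw [h1, ← withDensity_du hρ Q, h3, integral_withDensity_eq_integral_smul h2]
  refine integral_congr_ae ?_
  filter_upwards [nonneg_iff_ae.1 (du_nonneg (m := m) (γ := γ) Q)] with x hx
  rw [NNReal.smul_def, Real.coe_toNNReal _ hx, smul_eq_mul]

theorem du_le (hρ : γ.map Prod.fst = m.withDensity fun x => ENNReal.ofReal (ρ x)) (hρ0 : 0 ≤ ρ)
    (Q : Set M) : ∀ᵐ x ∂m, du m γ Q x ≤ ρ x := by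
  have h1 : m.withDensity (fun x => ENNReal.ofReal (du m γ Q x))
      ≤ m.withDensity (fun x => ENNReal.ofReal (ρ x)) := by
    rw [withDensity_du hρ Q, ← hρ]; exact mgl_le Q
  have h2 := ae_le_of_forall_setLIntegral_le_of_sigmaFinite (μ := m)
    (f := fun x => ENNReal.ofReal (du m γ Q x)) (g := fun x => ENNReal.ofReal (ρ x))
    (du m γ Q).measurable.ennreal_ofReal (fun s hs _ => by
      rw [← withDensity_apply _ hs, ← withDensity_apply _ hs]
      exact h1 s)
  filter_upwards [h2, nonneg_iff_ae.1 hρ0] with x a1 a2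
  exact (ENNReal.ofReal_le_ofReal_iff a2).1 a1

theorem du_mem (hρ : γ.map Prod.fst = m.withDensity fun x => ENNReal.ofReal (ρ x)) (hρ0 : 0 ≤ ρ)
    {q : ℝ≥0∞} (hq : MemLp ρ q m) (Q : Set M) : MemLp (du m γ Q) q m := by
  refine mem_of_le hq ?_
  filter_upwards [du_le hρ hρ0 Q, nonneg_iff_ae.1 (du_nonneg (m := m) (γ := γ) Q),
    nonneg_iff_ae.1 hρ0] with x a1 a2 a3
  rwa [abs_of_nonneg a2, abs_of_nonneg a3]

/-- finite partitions -/
theorem sum_du {ι : Type*} [Fintype ι] (hρ : γ.map Prod.fst = m.withDensity fun x =>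
    ENNReal.ofReal (ρ x)) (hρ0 : 0 ≤ ρ) (hρ1 : MemLp ρ 1 m) {Q : ι → Set M}
    (hQ : ∀ i, MeasurableSet (Q i)) (hd : Pairwise (Function.onFun Disjoint Q)) (hU : ⋃ i, Q i = univ) :
    ∑ i, du m γ (Q i) = ρ := by
  have hmem : ∀ i, MemLp (du m γ (Q i)) 1 m := fun i => du_mem hρ hρ0 hρ1 (Q i)
  have key : ∀ i, Integrable (fun x => du m γ (Q i) x) m := fun i => int_of_mem (hmem i)
  have hsum : ⇑(∑ i, du m γ (Q i)) =ᵐ[m] fun x => ∑ i, du m γ (Q i) x := by
    have : ∀ s : Finset ι, ⇑(∑ i ∈ s, du m γ (Q i)) =ᵐ[m] fun x => ∑ i ∈ s, du m γ (Q i) x := by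
      classical
      intro s
      induction s using Finset.induction_on with
      | empty =>
        simp only [Finset.sum_empty]
        exact zero_ae
      | insert a s ha ih =>
        rw [Finset.sum_insert ha]
        filter_upwards [add_ae (du m γ (Q a)) (∑ i ∈ s, du m γ (Q i)), ih] with x h1 h2
        rw [h1, h2, Finset.sum_insert ha]
    exact this _
  rw [eq_iff_ae]
  have hi : Integrable (fun x => ∑ i, du m γ (Q i) x) m := integrable_finset_sum _ fun i _ => key i
  refine hsum.trans (hi.ae_eq_of_forall_setIntegral_eq _ _ (int_of_mem hρ1) fun s hs _ => ?_)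
  rw [integral_finset_sum _ fun i _ => (key i).integrableOn]
  have hb : Measurable (s.indicator fun _ : M => (1 : ℝ)) := measurable_const.indicator hs
  have e1 : ∀ i, ∫ x in s, du m γ (Q i) x ∂m
      = ∫ z in Prod.snd ⁻¹' (Q i), s.indicator (fun _ => (1 : ℝ)) z.1 ∂γ := by
    intro i
    rw [int_mgl hρ (hQ i) hb, ← integral_indicator hs]
    refine integral_congr_ae (Eventually.of_forall fun x => ?_)
    by_cases hx : x ∈ s
    · simp only [indicator_of_mem hx, mul_one]
    · simp only [indicator_of_notMem hx, mul_zero]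
  simp_rw [e1]
  have hpre : ∀ i, MeasurableSet (Prod.snd ⁻¹' (Q i) : Set (M × M)) := fun i => measurable_snd (hQ i)
  have hint : Integrable (fun z : M × M => s.indicator (fun _ => (1 : ℝ)) z.1) γ := by
    refine (integrable_const (1 : ℝ)).mono' (hb.comp measurable_fst).aestronglyMeasurable
      (Eventually.of_forall fun z => ?_)
    rw [Real.norm_eq_abs]
    by_cases hx : z.1 ∈ s
    · rw [indicator_of_mem hx]; simp
    · rw [indicator_of_notMem hx]; simp
  have e2 : ∑ i, ∫ z in Prod.snd ⁻¹' (Q i), s.indicator (fun _ => (1 : ℝ)) z.1 ∂γ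
      = ∫ z, s.indicator (fun _ => (1 : ℝ)) z.1 ∂γ := by
    rw [← integral_iUnion_fintype (fun i => hpre i) (fun i j hij => ?_) fun i => hint.integrableOn]
    · rw [← preimage_iUnion, hU, preimage_univ, Measure.restrict_univ]
    · exact (hd hij).preimage _
  have e3 : ∫ z, s.indicator (fun _ => (1 : ℝ)) z.1 ∂γ = ∫ x, s.indicator (fun _ => (1 : ℝ)) x
      ∂(γ.map Prod.fst) := by
    rw [integral_map measurable_fst.aemeasurable hb.aestronglyMeasurable]
  have h2 : Measurable fun x => Real.toNNReal (ρ x) := ρ.measurable.real_toNNReal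
  have h3 : m.withDensity (fun x => ENNReal.ofReal (ρ x))
      = m.withDensity (fun x => ((Real.toNNReal (ρ x) : ℝ≥0) : ℝ≥0∞)) := rfl
  rw [e2, e3, hρ, h3, integral_withDensity_eq_integral_smul h2, ← integral_indicator hs]
  refine integral_congr_ae ?_
  filter_upwards [nonneg_iff_ae.1 hρ0] with x hx
  rw [NNReal.smul_def, Real.coe_toNNReal _ hx, smul_eq_mul]
  by_cases hxs : x ∈ s
  · simp only [indicator_of_mem hxs, mul_one]
  · simp only [indicator_of_notMem hxs, mul_zero]

end cells

end Vale.Agent.P233.H183
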