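import Vale.Agent.P233.H183.RS4a
import Vale.Agent.P233.Bd3.B5

/-! P233, RCDA, block S4 (drift), second part: the drift inequality at one time, for a finite
partition of the second factor. -/

set_option linter.all false

open MeasureTheory Filter Topology Set
open scoped ENNReal NNReal

universe u

namespace Vale.Agent.P233.H183

variable {M : Type u} [TopologicalSpace M] [SecondCountableTopology M] [MeasurableSpace M]
  [BorelSpace M] {m : Measure M}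

theorem mem_sum' {ι : Type*} {s : Finset ι} {f : ι → M →ₘ[m] ℝ} {p : ℝ≥0∞}
    (h : ∀ i ∈ s, MemLp (f i) p m) : MemLp (∑ i ∈ s, f i : M →ₘ[m] ℝ) p m := by
  refine (memLp_congr_ae (sum_ae s f)).2 ?_
  exact memLp_finset_sum s h

/-- products of integrable classes and bounded continuous functions -/
theorem int_cb {u : M →ₘ[m] ℝ} (hu : MemLp u 1 m) {b : M → ℝ} (hb : Continuous b) {B : ℝ}
    (hB : ∀ x, |b x| ≤ B) : Integrable (fun x => u x * b x) m :=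
  (int_of_mem hu).mul_bdd (c := B) hb.aestronglyMeasurable
    (Eventually.of_forall fun x => by rw [Real.norm_eq_abs]; exact hB x)

theorem int_cb_mono {u v : M →ₘ[m] ℝ} (hu : MemLp u 1 m) (hv : MemLp v 1 m)
    (huv : ∀ᵐ x ∂m, u x ≤ v x) {b : M → ℝ} (hb : Continuous b) {B : ℝ} (hB : ∀ x, |b x| ≤ B)
    (h0 : ∀ x, 0 ≤ b x) : ∫ x, u x * b x ∂m ≤ ∫ x, v x * b x ∂m := by
  refine integral_mono_ae (int_cb hu hb hB) (int_cb hv hb hB) ?_
  filter_upwards [huv] with x hx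
  exact mul_le_mul_of_nonneg_right hx (h0 x)

/-- the data of the drift inequality at one time -/
structure DriftHyp (m : Measure M) (γ : Measure (M × M)) (ρ : M →ₘ[m] ℝ) (c : M → M → ℝ)
    (φ ψ : M → ℝ) (δ b n K τ A : ℝ) (T : (M →ₘ[m] ℝ) → (M →ₘ[m] ℝ)) : Prop where
  hρ : γ.map Prod.fst = m.withDensity fun x => ENNReal.ofReal (ρ x)
  ρ0 : 0 ≤ ρ
  ρ1 : MemLp ρ 1 m
  ρ2 : MemLp ρ 2 m
  c0 : ∀ x y, 0 ≤ c x y
  cδ : ∀ x y, c x y ≤ δ
  cc : Continuous (Function.uncurry c)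
  φc : Continuous φ
  ψc : Continuous ψ
  φb : ∀ x, |φ x| ≤ b
  ψb : ∀ x, |ψ x| ≤ b
  le : ∀ x y, φ x + ψ y ≤ c x y
  eq : ∀ᵐ z ∂γ, φ z.1 + ψ z.2 = c z.1 z.2
  τ0 : 0 ≤ τ
  pos : ∀ u : M →ₘ[m] ℝ, 0 ≤ u → MemLp u 1 m → MemLp u 2 m →
    0 ≤ T u ∧ MemLp (T u) 1 m ∧ I (T u) = I u
  zero : T 0 = 0
  add : ∀ u v : M →ₘ[m] ℝ, MemLp u 1 m → MemLp v 1 m → MemLp u 2 m →
    MemLp v 2 m → T (u + v) = T u + T v
  lc : ∀ (y : M) (u : M →ₘ[m] ℝ), 0 ≤ u → MemLp u 1 m → MemLp u 2 m →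
    ∫ x, T u x * c x y ∂m ≤ (∫ x, u x * c x y ∂m)
      + τ / 2 * (n * I u - 2 * K / 3 * ∫ x, u x * c x y ∂m) + A * I u

variable {γ : Measure (M × M)} {ρ : M →ₘ[m] ℝ} {c : M → M → ℝ}
    {φ ψ : M → ℝ} {δ b n K τ A : ℝ} {T : (M →ₘ[m] ℝ) → (M →ₘ[m] ℝ)}

namespace DriftHyp

theorem cx (h : DriftHyp m γ ρ c φ ψ δ b n K τ A T) (y : M) : Continuous fun x => c x y :=
  h.cc.comp (continuous_id.prodMk continuous_const)

theorem cabs (h : DriftHyp m γ ρ c φ ψ δ b n K τ A T) (x y : M) : |c x y| ≤ δ := by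
  rw [abs_of_nonneg (h.c0 x y)]; exact h.cδ x y

theorem sum_T (h : DriftHyp m γ ρ c φ ψ δ b n K τ A T) {ι : Type*} (s : Finset ι)
    {u : ι → M →ₘ[m] ℝ} (u1 : ∀ i, MemLp (u i) 1 m) (u2 : ∀ i, MemLp (u i) 2 m) :
    T (∑ i ∈ s, u i) = ∑ i ∈ s, T (u i) := by
  classical
  induction s using Finset.induction_on with
  | empty => simp only [Finset.sum_empty]; exact h.zero
  | insert a s ha ih =>
    have m1 : MemLp (∑ i ∈ s, u i : M →ₘ[m] ℝ) 1 m := mem_sum' fun i _ => u1 i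
    have m2 : MemLp (∑ i ∈ s, u i : M →ₘ[m] ℝ) 2 m := mem_sum' fun i _ => u2 i
    rw [Finset.sum_insert ha, Finset.sum_insert ha, h.add _ _ (u1 a) m1 (u2 a) m2, ih]

/-- integrals over the pieces of a partition -/
theorem int_piece [SigmaFinite m] [IsFiniteMeasure γ] (h : DriftHyp m γ ρ c φ ψ δ b n K τ A T)
    {Q : Set M} (hQ : MeasurableSet Q) {f : M → ℝ} (hf : Continuous f) :
    ∫ z in Prod.snd ⁻¹' Q, f z.1 ∂γ = ∫ x, du m γ Q x * f x ∂m :=
  int_mgl h.hρ hQ hf.measurable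

end DriftHyp

/-- A finite partition of the second factor, with errors `er i`. -/
structure Cells {ι : Type*} [Fintype ι] (c : M → M → ℝ) (ψ : M → ℝ) (Q : ι → Set M) (y : ι → M)
    (er : ι → ℝ) : Prop where
  meas : ∀ i, MeasurableSet (Q i)
  disj : Pairwise (Function.onFun Disjoint Q)
  cover : ⋃ i, Q i = univ
  er0 : ∀ i, 0 ≤ er i
  ce : ∀ i, ∀ y' ∈ Q i, ∀ x, |c x y' - c x (y i)| ≤ er i
  ψe : ∀ i, ∀ y' ∈ Q i, |ψ y' - ψ (y i)| ≤ er i

/-- the total error -/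
noncomputable def Cells.err {ι : Type*} [Fintype ι] (γ : Measure (M × M)) (Q : ι → Set M)
    (er : ι → ℝ) : ℝ := ∑ i, er i * (γ (Prod.snd ⁻¹' (Q i))).toReal

theorem int_cells {ι : Type*} [Fintype ι] [IsFiniteMeasure γ] {Q : ι → Set M} {y : ι → M}
    {er : ι → ℝ} (hQ : Cells c ψ Q y er) {f : M × M → ℝ} (hf : Integrable f γ) :
    ∫ z, f z ∂γ = ∑ i, ∫ z in Prod.snd ⁻¹' (Q i), f z ∂γ := by
  rw [← integral_iUnion_fintype (fun i => measurable_snd (hQ.meas i)) (fun i j hij => ?_)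
    fun i => hf.integrableOn]
  · rw [← preimage_iUnion, hQ.cover, preimage_univ, Measure.restrict_univ]
  · exact (hQ.disj hij).preimage _

theorem bint [IsFiniteMeasure γ] {f : M × M → ℝ} (hf : Continuous f) {B : ℝ}
    (hB : ∀ z, |f z| ≤ B) : Integrable f γ :=
  (integrable_const B).mono' hf.aestronglyMeasurable (Eventually.of_forall fun z => by
    rw [Real.norm_eq_abs]; exact hB z)

variable [SigmaFinite m] [IsProbabilityMeasure γ] {ι : Type*} [Fintype ι] {Q : ι → Set M}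
    {y : ι → M} {er : ι → ℝ}

namespace DriftHyp

theorem du0 (h : DriftHyp m γ ρ c φ ψ δ b n K τ A T) (Q : Set M) : 0 ≤ du m γ Q := du_nonneg Q

theorem du1 (h : DriftHyp m γ ρ c φ ψ δ b n K τ A T) (Q : Set M) :
    MemLp (du m γ Q) 1 m := du_mem h.hρ h.ρ0 h.ρ1 Q

theorem du2 (h : DriftHyp m γ ρ c φ ψ δ b n K τ A T) (Q : Set M) :
    MemLp (du m γ Q) 2 m := du_mem h.hρ h.ρ0 h.ρ2 Q

theorem I_du (h : DriftHyp m γ ρ c φ ψ δ b n K τ A T) {Q : Set M}
    (hQ : MeasurableSet Q) : I (du m γ Q) = (γ (Prod.snd ⁻¹' Q)).toReal := by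
  have h1 := h.int_piece hQ (f := fun _ => 1) continuous_const
  simp only [mul_one, setIntegral_const, smul_eq_mul] at h1
  rw [← measureReal_def]
  exact h1.symm

theorem sum_I_du (h : DriftHyp m γ ρ c φ ψ δ b n K τ A T) (hQ : Cells c ψ Q y er) :
    ∑ i, I (du m γ (Q i)) = 1 := by
  have h1 := int_cells hQ (f := fun _ => (1 : ℝ)) (integrable_const (μ := γ) 1)
  simp only [setIntegral_const, smul_eq_mul, mul_one] at h1
  rw [show ∫ _ : M × M, (1 : ℝ) ∂γ = 1 by simp] at h1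
  rw [h1]
  refine Finset.sum_congr rfl fun i _ => ?_
  rw [h.I_du (hQ.meas i)]; rfl

theorem c_int (h : DriftHyp m γ ρ c φ ψ δ b n K τ A T) :
    Integrable (fun z : M × M => c z.1 z.2) γ := bint h.cc fun z => h.cabs z.1 z.2

theorem ψ_int (h : DriftHyp m γ ρ c φ ψ δ b n K τ A T) :
    Integrable (fun z : M × M => ψ z.2) γ := bint (h.ψc.comp continuous_snd) fun z => h.ψb z.2

theorem φ_int (h : DriftHyp m γ ρ c φ ψ δ b n K τ A T) :
    Integrable (fun z : M × M => φ z.1) γ := bint (h.φc.comp continuous_fst) fun z => h.φb z.1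

theorem int_φ (h : DriftHyp m γ ρ c φ ψ δ b n K τ A T) :
    ∫ z, φ z.1 ∂γ = ∫ x, ρ x * φ x ∂m := by
  have h2 : Measurable fun x => Real.toNNReal (ρ x) := ρ.measurable.real_toNNReal
  have h3 : m.withDensity (fun x => ENNReal.ofReal (ρ x))
      = m.withDensity (fun x => ((Real.toNNReal (ρ x) : ℝ≥0) : ℝ≥0∞)) := rfl
  rw [show ∫ z, φ z.1 ∂γ = ∫ x, φ x ∂(γ.map Prod.fst) by
    rw [integral_map measurable_fst.aemeasurable h.φc.aestronglyMeasurable], h.hρ, h3,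
    integral_withDensity_eq_integral_smul h2]
  refine integral_congr_ae ?_
  filter_upwards [nonneg_iff_ae.1 h.ρ0] with x hx
  rw [NNReal.smul_def, Real.coe_toNNReal _ hx, smul_eq_mul]

theorem D_eq (h : DriftHyp m γ ρ c φ ψ δ b n K τ A T) :
    ∫ z, c z.1 z.2 ∂γ = (∫ x, ρ x * φ x ∂m) + ∫ z, ψ z.2 ∂γ := by
  rw [← h.int_φ, ← integral_add h.φ_int h.ψ_int]
  refine integral_congr_ae ?_
  filter_upwards [h.eq] with z hz
  exact hz.symm

/-- Lemma A -/
theorem sumA (h : DriftHyp m γ ρ c φ ψ δ b n K τ A T) (hQ : Cells c ψ Q y er) :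
    |(∑ i, ∫ x, du m γ (Q i) x * c x (y i) ∂m) - ∫ z, c z.1 z.2 ∂γ| ≤ Cells.err γ Q er := by
  rw [int_cells hQ h.c_int]
  unfold Cells.err
  rw [← Finset.sum_sub_distrib]
  refine (Finset.abs_sum_le_sum_abs _ _).trans (Finset.sum_le_sum fun i _ => ?_)
  have hm : MeasurableSet (Prod.snd ⁻¹' (Q i) : Set (M × M)) := measurable_snd (hQ.meas i)
  have i1 : Integrable (fun z : M × M => c z.1 (y i)) γ :=
    bint (h.cc.comp (continuous_fst.prodMk continuous_const)) fun z => h.cabs z.1 (y i)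
  have e1 : er i * (γ (Prod.snd ⁻¹' (Q i))).toReal = ∫ z in Prod.snd ⁻¹' (Q i), er i ∂γ := by
    rw [setIntegral_const, smul_eq_mul, mul_comm]; rfl
  rw [← h.int_piece (hQ.meas i) (h.cx (y i)), e1,
    ← integral_sub i1.integrableOn h.c_int.integrableOn]
  refine (abs_integral_le_integral_abs).trans ?_
  refine setIntegral_mono_on (i1.sub h.c_int).abs.integrableOn
    (integrable_const (er i)).integrableOn hm fun z hz => ?_
  rw [abs_sub_comm]
  exact hQ.ce i z.2 hz z.1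

/-- Lemma B -/
theorem sumB (h : DriftHyp m γ ρ c φ ψ δ b n K τ A T) (hQ : Cells c ψ Q y er) :
    (∫ z, ψ z.2 ∂γ) - Cells.err γ Q er ≤ ∑ i, ψ (y i) * I (du m γ (Q i)) := by
  rw [int_cells hQ h.ψ_int]
  unfold Cells.err
  rw [← Finset.sum_sub_distrib]
  refine Finset.sum_le_sum fun i _ => ?_
  have hm : MeasurableSet (Prod.snd ⁻¹' (Q i) : Set (M × M)) := measurable_snd (hQ.meas i)
  have e1 : er i * (γ (Prod.snd ⁻¹' (Q i))).toReal = ∫ z in Prod.snd ⁻¹' (Q i), er i ∂γ := by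
    rw [setIntegral_const, smul_eq_mul, mul_comm]; rfl
  have e2 : ψ (y i) * I (du m γ (Q i)) = ∫ z in Prod.snd ⁻¹' (Q i), ψ (y i) ∂γ := by
    rw [setIntegral_const, smul_eq_mul, mul_comm, h.I_du (hQ.meas i)]; rfl
  rw [e1, e2, ← integral_sub h.ψ_int.integrableOn (integrable_const (er i)).integrableOn]
  refine setIntegral_mono_on (h.ψ_int.sub (integrable_const (er i))).integrableOn
    (integrable_const (ψ (y i))).integrableOn hm fun z hz => ?_
  have := (abs_le.1 (hQ.ψe i z.2 hz)).2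
  linarith

theorem sum_Tφ (h : DriftHyp m γ ρ c φ ψ δ b n K τ A T) (hQ : Cells c ψ Q y er) :
    ∑ i, ∫ x, T (du m γ (Q i)) x * φ x ∂m = ∫ x, T ρ x * φ x ∂m := by
  have h1 := sum_du (m := m) h.hρ h.ρ0 h.ρ1 hQ.meas hQ.disj hQ.cover
  have h2 := h.sum_T (Finset.univ (α := ι)) (fun i => h.du1 (Q i)) (fun i => h.du2 (Q i))
  rw [h1] at h2
  rw [h2, ← integral_finset_sum _ fun i _ => int_cb
    (h.pos _ (h.du0 (Q i)) (h.du1 (Q i)) (h.du2 (Q i))).2.1 h.φc h.φb]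
  refine integral_congr_ae ?_
  filter_upwards [sum_ae (Finset.univ (α := ι)) fun i => T (du m γ (Q i))] with x hx
  rw [hx, Finset.sum_mul]

/-- Upper bound for the transported cost. -/
theorem SS_le (h : DriftHyp m γ ρ c φ ψ δ b n K τ A T) (hQ : Cells c ψ Q y er) :
    ∑ i, ∫ x, T (du m γ (Q i)) x * c x (y i) ∂m ≤ (∫ z, c z.1 z.2 ∂γ)
      + τ / 2 * (n - 2 * K / 3 * ∫ z, c z.1 z.2 ∂γ) + A
      + (1 + |K| / 3 * τ) * Cells.err γ Q er := by
  have h1 : ∑ i, ∫ x, T (du m γ (Q i)) x * c x (y i) ∂m ≤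
      ∑ i, ((∫ x, du m γ (Q i) x * c x (y i) ∂m)
      + τ / 2 * (n * I (du m γ (Q i)) - 2 * K / 3 * ∫ x, du m γ (Q i) x * c x (y i) ∂m)
      + A * I (du m γ (Q i))) :=
    Finset.sum_le_sum fun i _ => h.lc (y i) _ (h.du0 (Q i)) (h.du1 (Q i)) (h.du2 (Q i))
  rw [Finset.sum_add_distrib, Finset.sum_add_distrib, ← Finset.mul_sum, Finset.sum_sub_distrib,
    ← Finset.mul_sum, ← Finset.mul_sum, ← Finset.mul_sum, h.sum_I_du hQ, mul_one, mul_one] at h1
  refine h1.trans ?_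
  have h2 := h.sumA hQ
  have hτ := h.τ0
  set S := ∑ i, ∫ x, du m γ (Q i) x * c x (y i) ∂m
  set D := ∫ z, c z.1 z.2 ∂γ
  set e := Cells.err γ Q er
  have h3 : -(K / 3 * τ * (S - D)) ≤ |K| / 3 * τ * e := by
    refine (neg_le_abs _).trans ?_
    rw [abs_mul, abs_mul, abs_div, abs_of_nonneg hτ, show |(3 : ℝ)| = 3 by norm_num]
    gcongr
  have h4 := (abs_le.1 h2).2
  linarith

/-- Lemmas F, G, H: the drift of `e = c - φ - ψ`. -/
theorem drift_e (h : DriftHyp m γ ρ c φ ψ δ b n K τ A T) (hQ : Cells c ψ Q y er) :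
    ∑ i, ∫ x, T (du m γ (Q i)) x * (c x (y i) - φ x - ψ (y i)) ∂m ≤
      τ / 2 * (n - 2 * K / 3 * ∫ z, c z.1 z.2 ∂γ) + A
        - ((∫ x, T ρ x * φ x ∂m) - ∫ x, ρ x * φ x ∂m)
        + (2 + |K| / 3 * τ) * Cells.err γ Q er := by
  have hH : ∑ i, ∫ x, T (du m γ (Q i)) x * (c x (y i) - φ x - ψ (y i)) ∂m
      = (∑ i, ∫ x, T (du m γ (Q i)) x * c x (y i) ∂m) - (∫ x, T ρ x * φ x ∂m)
        - ∑ i, ψ (y i) * I (du m γ (Q i)) := by
    rw [← h.sum_Tφ hQ]
    rw [← Finset.sum_sub_distrib, ← Finset.sum_sub_distrib]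
    refine Finset.sum_congr rfl fun i _ => ?_
    obtain ⟨p1, p2, p3⟩ := h.pos _ (h.du0 (Q i)) (h.du1 (Q i)) (h.du2 (Q i))
    have j1 := int_cb p2 (h.cx (y i)) fun x => h.cabs x (y i)
    have j2 := int_cb p2 h.φc h.φb
    have j3 := (int_of_mem p2).const_mul (ψ (y i))
    have j4 : Integrable (fun x => T (du m γ (Q i)) x * c x (y i)
        - T (du m γ (Q i)) x * φ x) m := j1.sub j2
    rw [← p3]
    unfold I
    rw [← integral_const_mul, ← integral_sub j1 j2, ← integral_sub j4 j3]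
    refine integral_congr_ae (Eventually.of_forall fun x => ?_)
    simp only
    ring
  rw [hH]
  have h1 := h.SS_le hQ
  have hB := h.sumB hQ
  have hDe := h.D_eq
  linarith

end DriftHyp

end Vale.Agent.P233.H183
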