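import Vale.Agent.P233.H183.RS4b

/-! P233, RCDA, block S4 (drift), third part: existence of partitions with small error, and the
drift inequality at one time against a kernel. -/

set_option linter.all false

open MeasureTheory Filter Topology Set
open scoped ENNReal NNReal

universe u

namespace Vale.Agent.P233.H183

section exist

variable {M : Type u} [MetricSpace M] [SecondCountableTopology M] [MeasurableSpace M]
  [BorelSpace M] {γ : Measure (M × M)} [IsFiniteMeasure γ] {c : M → M → ℝ} {ψ : M → ℝ}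

theorem exists_cells [Nonempty M] {δ b L : ℝ} (hL : 0 ≤ L)
    (hc : ∀ x y y', |c x y - c x y'| ≤ L * dist y y') (hcb : ∀ x y, |c x y| ≤ δ)
    (hψ : ∀ y y', |ψ y - ψ y'| ≤ L * dist y y') (hψb : ∀ y, |ψ y| ≤ b) {ε : ℝ} (hε : 0 < ε) :
    ∃ (N : ℕ) (Q : Option (Fin N) → Set M) (y : Option (Fin N) → M) (er : Option (Fin N) → ℝ),
      Cells c ψ Q y er ∧ Cells.err γ Q er ≤ ε := by
  classical
  set y₀ : M := Classical.arbitrary M
  have hδ0 : 0 ≤ δ := (abs_nonneg _).trans (hcb y₀ y₀)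
  have hb0 : 0 ≤ b := (abs_nonneg _).trans (hψb y₀)
  set G : ℝ := (γ univ).toReal with hG
  have hG0 : 0 ≤ G := ENNReal.toReal_nonneg
  set r : ℝ := ε / (2 * (L + 1) * (G + 1)) with hr
  have hr0 : 0 < r := by positivity
  set yy : ℕ → M := TopologicalSpace.denseSeq M
  set A : ℕ → Set M := disjointed fun k => Metric.ball (yy k) r with hA
  have hAm : ∀ k, MeasurableSet (A k) := fun k =>
    MeasurableSet.disjointed (fun i => measurableSet_ball) k
  have hAd : Pairwise (Function.onFun Disjoint A) := disjoint_disjointed _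
  have hAU : ⋃ k, A k = univ := by
    rw [hA, iUnion_disjointed, eq_univ_iff_forall]
    intro x
    obtain ⟨k, hk⟩ := Metric.dense_iff.1 (TopologicalSpace.denseRange_denseSeq M) x r hr0
    obtain ⟨j, hj⟩ := hk.2
    refine mem_iUnion.2 ⟨j, ?_⟩
    rw [Metric.mem_ball, dist_comm]
    show dist (yy j) x < r
    rw [show yy j = k from hj]
    exact hk.1
  set R : ℕ → Set M := fun N => (⋃ k : Fin N, A k)ᶜ with hRdef
  have hRm : ∀ N, MeasurableSet (R N) := fun N =>
    (MeasurableSet.iUnion fun k : Fin N => hAm k).compl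
  have hpre : ∀ {S : Set M}, MeasurableSet S → MeasurableSet (Prod.snd ⁻¹' S : Set (M × M)) :=
    fun hS => measurable_snd hS
  have hanti : Antitone fun N => (Prod.snd ⁻¹' (R N) : Set (M × M)) := by
    intro N N' hNN z hz
    simp only [hRdef, mem_preimage, mem_compl_iff, mem_iUnion, not_exists] at hz ⊢
    intro k
    exact hz ⟨k, lt_of_lt_of_le k.2 hNN⟩
  have hempty : ⋂ N, (Prod.snd ⁻¹' (R N) : Set (M × M)) = ∅ := by
    rw [eq_empty_iff_forall_notMem]
    intro z hz
    have h1 : z.2 ∈ ⋃ k, A k := by rw [hAU]; trivial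
    obtain ⟨k, hk⟩ := mem_iUnion.1 h1
    have h2 := mem_iInter.1 hz (k + 1)
    simp only [hRdef, mem_preimage, mem_compl_iff, mem_iUnion, not_exists] at h2
    exact h2 ⟨k, Nat.lt_succ_self k⟩ hk
  have hlim : Tendsto (fun N => (γ (Prod.snd ⁻¹' (R N))).toReal) atTop (𝓝 0) := by
    have h1 := tendsto_measure_iInter_atTop (μ := γ)
      (s := fun N => (Prod.snd ⁻¹' (R N) : Set (M × M)))
      (fun N => (hpre (hRm N)).nullMeasurableSet) hanti ⟨0, measure_ne_top _ _⟩
    rw [hempty, measure_empty] at h1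
    have h2 := (ENNReal.tendsto_toReal ENNReal.zero_ne_top).comp h1
    rw [ENNReal.toReal_zero] at h2
    exact h2
  have hε2 : 0 < ε / (2 * (2 * (δ + b) + 1)) := by positivity
  obtain ⟨N, hN⟩ := (hlim.eventually_lt_const hε2).exists
  refine ⟨N, fun i => i.elim (R N) fun k => A k, fun i => i.elim y₀ fun k => yy k,
    fun i => i.elim (2 * (δ + b)) fun _ => L * r, ⟨?_, ?_, ?_, ?_, ?_, ?_⟩, ?_⟩
  · rintro (_ | k)
    · exact hRm N
    · exact hAm k
  · rintro (_ | k) (_ | j) hij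
    · exact absurd rfl hij
    · show Disjoint (R N) (A j)
      exact (disjoint_compl_right (a := ⋃ k : Fin N, A k)).symm.mono_right
        (subset_iUnion (fun k : Fin N => A k) j)
    · show Disjoint (A k) (R N)
      exact (disjoint_compl_right (a := ⋃ k : Fin N, A k)).mono_left
        (subset_iUnion (fun k : Fin N => A k) k)
    · show Disjoint (A k) (A j)
      refine hAd fun h => hij ?_
      rw [Option.some_inj]
      exact Fin.ext h
  · rw [eq_univ_iff_forall]
    intro x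
    by_cases hx : x ∈ ⋃ k : Fin N, A k
    · obtain ⟨k, hk⟩ := mem_iUnion.1 hx
      exact mem_iUnion.2 ⟨some k, hk⟩
    · exact mem_iUnion.2 ⟨none, hx⟩
  · rintro (_ | k)
    · show 0 ≤ 2 * (δ + b); positivity
    · show 0 ≤ L * r; positivity
  · rintro (_ | k) y' hy x
    · show |c x y' - c x y₀| ≤ 2 * (δ + b)
      have h1 := hcb x y'
      have h2 := hcb x y₀
      have h3 := abs_sub (c x y') (c x y₀)
      linarith
    · show |c x y' - c x (yy k)| ≤ L * r
      refine (hc x y' (yy k)).trans ?_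
      have : y' ∈ Metric.ball (yy k) r :=
        disjointed_subset (fun k => Metric.ball (yy k) r) _ hy
      gcongr
      exact (Metric.mem_ball.1 this).le
  · rintro (_ | k) y' hy
    · show |ψ y' - ψ y₀| ≤ 2 * (δ + b)
      have h1 := hψb y'
      have h2 := hψb y₀
      have h3 := abs_sub (ψ y') (ψ y₀)
      linarith
    · show |ψ y' - ψ (yy k)| ≤ L * r
      refine (hψ y' (yy k)).trans ?_
      have : y' ∈ Metric.ball (yy k) r :=
        disjointed_subset (fun k => Metric.ball (yy k) r) _ hy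
      gcongr
      exact (Metric.mem_ball.1 this).le
  · unfold Cells.err
    rw [Fintype.sum_option]
    show 2 * (δ + b) * (γ (Prod.snd ⁻¹' (R N))).toReal
      + ∑ i : Fin N, L * r * (γ (Prod.snd ⁻¹' (A i))).toReal ≤ ε
    have h1 : ∑ i : Fin N, (γ (Prod.snd ⁻¹' (A i))).toReal ≤ G := by
      have := sum_measureReal_le_measureReal_univ (μ := γ) (s := Finset.univ)
        (t := fun i : Fin N => (Prod.snd ⁻¹' (A i) : Set (M × M)))
        (fun i _ => hpre (hAm i)) (fun i _ j _ hij => ?_)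
      · exact this
      · exact (hAd fun h => hij (Fin.ext h)).preimage _
    rw [← Finset.mul_sum]
    have h2 : L * r * ∑ i : Fin N, (γ (Prod.snd ⁻¹' (A i))).toReal ≤ ε / 2 := by
      calc L * r * ∑ i : Fin N, (γ (Prod.snd ⁻¹' (A i))).toReal ≤ (L + 1) * r * (G + 1) := by
            gcongr <;> linarith
        _ = ε / 2 := by rw [hr]; field_simp
    have h3 : 2 * (δ + b) * (γ (Prod.snd ⁻¹' (R N))).toReal ≤ ε / 2 := by
      calc 2 * (δ + b) * (γ (Prod.snd ⁻¹' (R N))).toReal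
          ≤ (2 * (δ + b) + 1) * (ε / (2 * (2 * (δ + b) + 1))) := by
            gcongr
            linarith
        _ = ε / 2 := by field_simp
    linarith

end exist

section kernel

variable {M : Type u} [TopologicalSpace M] [SecondCountableTopology M] [MeasurableSpace M]
  [BorelSpace M] {m : Measure M} {γ : Measure (M × M)} {ρ : M →ₘ[m] ℝ} {c : M → M → ℝ}
    {φ ψ : M → ℝ} {δ b n K τ A : ℝ} {T : (M →ₘ[m] ℝ) → (M →ₘ[m] ℝ)} {k : M → M → ℝ}

/-- a lower kernel of `T` -/
structure KerHyp (m : Measure M) (k : M → M → ℝ) (T : (M →ₘ[m] ℝ) → (M →ₘ[m] ℝ)) : Prop where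
  meas : Measurable (Function.uncurry k)
  k0 : ∀ x y, 0 ≤ k x y
  cy : ∀ u : M →ₘ[m] ℝ, 0 ≤ u → MemLp u 1 m → MemLp u 2 m → ∀ (v : M → ℝ) (B : ℝ),
    Continuous v → (∀ x, |v x| ≤ B) → (∀ x, 0 ≤ v x) →
    ∫⁻ x, ∫⁻ y, ENNReal.ofReal (u x * k x y * v y) ∂m ∂m ≤ ENNReal.ofReal (∫ x, T u x * v x ∂m)

variable [SigmaFinite m] [IsProbabilityMeasure γ]

theorem lint_mgl (hρ : γ.map Prod.fst = m.withDensity fun x => ENNReal.ofReal (ρ x))
    {Q : Set M} (hQ : MeasurableSet Q) {F : M → ℝ≥0∞} (hF : Measurable F) :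
    ∫⁻ z in Prod.snd ⁻¹' Q, F z.1 ∂γ = ∫⁻ x, ENNReal.ofReal (du m γ Q x) * F x ∂m := by
  have h1 : ∫⁻ z in Prod.snd ⁻¹' Q, F z.1 ∂γ = ∫⁻ x, F x ∂(mgl γ Q) := by
    unfold mgl
    rw [lintegral_map hF measurable_fst]
  rw [h1, ← withDensity_du hρ Q, lintegral_withDensity_eq_lintegral_mul _
    (du m γ Q).measurable.ennreal_ofReal hF]
  rfl

/-- The drift inequality at one time against a kernel, with a partition. -/
theorem ker_cells {ι : Type*} [Fintype ι] {Q : ι → Set M} {y : ι → M} {er : ι → ℝ}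
    (h : DriftHyp m γ ρ c φ ψ δ b n K τ A T) (hk : KerHyp m k T) (hQ : Cells c ψ Q y er) :
    ∫⁻ z, ∫⁻ x, ENNReal.ofReal (k z.1 x * (c x z.2 - φ x - ψ z.2)) ∂m ∂γ ≤
      ENNReal.ofReal (∑ i, ∫ x, T (du m γ (Q i)) x * (c x (y i) - φ x - ψ (y i)) ∂m
        + 2 * Cells.err γ Q er) := by
  have hcov : ∫⁻ z, ∫⁻ x, ENNReal.ofReal (k z.1 x * (c x z.2 - φ x - ψ z.2)) ∂m ∂γ
      = ∑ i, ∫⁻ z in Prod.snd ⁻¹' (Q i),
        ∫⁻ x, ENNReal.ofReal (k z.1 x * (c x z.2 - φ x - ψ z.2)) ∂m ∂γ := by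
    rw [← setLIntegral_univ, show (univ : Set (M × M)) = ⋃ i, Prod.snd ⁻¹' (Q i) by
      rw [← preimage_iUnion, hQ.cover, preimage_univ]]
    rw [lintegral_iUnion (fun i => measurable_snd (hQ.meas i))
      (fun i j hij => (hQ.disj hij).preimage _), tsum_fintype]
  rw [hcov]
  have hone : ∀ i, ∫⁻ z in Prod.snd ⁻¹' (Q i),
        ∫⁻ x, ENNReal.ofReal (k z.1 x * (c x z.2 - φ x - ψ z.2)) ∂m ∂γ
      ≤ ENNReal.ofReal ((∫ x, T (du m γ (Q i)) x * (c x (y i) - φ x - ψ (y i)) ∂m)
        + 2 * (er i * (γ (Prod.snd ⁻¹' (Q i))).toReal)) := by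
    intro i
    obtain ⟨p1, p2, p3⟩ := h.pos _ (h.du0 (Q i)) (h.du1 (Q i)) (h.du2 (Q i))
    set v : M → ℝ := fun x => c x (y i) - φ x - ψ (y i) + 2 * er i with hv
    have hvc : Continuous v :=
      (((h.cx (y i)).sub h.φc).sub continuous_const).add continuous_const
    have hvb : ∀ x, |v x| ≤ δ + b + b + 2 * er i := by
      intro x
      have a1 := abs_le.1 (h.cabs x (y i)); have a2 := abs_le.1 (h.φb x)
      have a3 := abs_le.1 (h.ψb (y i)); have a4 := hQ.er0 i
      rw [hv, abs_le]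
      constructor <;> simp only <;> linarith [a1.1, a1.2, a2.1, a2.2, a3.1, a3.2]
    have hv0 : ∀ x, 0 ≤ v x := by
      intro x
      have a1 := h.le x (y i); have a2 := hQ.er0 i
      simp only [hv]; linarith
    have hvm : Measurable fun z : M × M => ENNReal.ofReal (k z.1 z.2 * v z.2) :=
      (hk.meas.mul (hvc.measurable.comp measurable_snd)).ennreal_ofReal
    have hF : Measurable fun x' => ∫⁻ x, ENNReal.ofReal (k x' x * v x) ∂m :=
      Measurable.lintegral_prod_right' hvm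
    calc ∫⁻ z in Prod.snd ⁻¹' (Q i),
          ∫⁻ x, ENNReal.ofReal (k z.1 x * (c x z.2 - φ x - ψ z.2)) ∂m ∂γ
        ≤ ∫⁻ z in Prod.snd ⁻¹' (Q i), ∫⁻ x, ENNReal.ofReal (k z.1 x * v x) ∂m ∂γ := by
          refine setLIntegral_mono (hF.comp measurable_fst) fun z hz => lintegral_mono fun x => ?_
          refine ENNReal.ofReal_le_ofReal (mul_le_mul_of_nonneg_left ?_ (hk.k0 _ _))
          have a1 := (abs_le.1 (hQ.ce i z.2 hz x)).2
          have a2 := (abs_le.1 (hQ.ψe i z.2 hz)).1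
          simp only [hv]; linarith
      _ = ∫⁻ x, ENNReal.ofReal (du m γ (Q i) x) * ∫⁻ y, ENNReal.ofReal (k x y * v y) ∂m ∂m :=
          lint_mgl h.hρ (hQ.meas i) hF
      _ = ∫⁻ x, ∫⁻ y, ENNReal.ofReal (du m γ (Q i) x * k x y * v y) ∂m ∂m := by
          refine lintegral_congr_ae ?_
          filter_upwards [nonneg_iff_ae.1 (h.du0 (Q i))] with x hx
          have hm1 : Measurable fun y => ENNReal.ofReal (k x y * v y) :=
            hvm.comp measurable_prodMk_left
          rw [← lintegral_const_mul _ hm1]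
          refine lintegral_congr fun y => ?_
          rw [← ENNReal.ofReal_mul hx, mul_assoc]
      _ ≤ ENNReal.ofReal (∫ x, T (du m γ (Q i)) x * v x ∂m) :=
          hk.cy _ (h.du0 (Q i)) (h.du1 (Q i)) (h.du2 (Q i)) v _ hvc hvb hv0
      _ = _ := by
          congr 1
          rw [← h.I_du (hQ.meas i), ← p3]
          unfold I
          have hb' : Continuous fun x => c x (y i) - φ x - ψ (y i) :=
            ((h.cx (y i)).sub h.φc).sub continuous_const
          have j1 : Integrable (fun x => T (du m γ (Q i)) x * (c x (y i) - φ x - ψ (y i))) m :=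
            int_cb p2 (B := δ + b + b) hb' fun x => by
              have a1 := abs_le.1 (h.cabs x (y i)); have a2 := abs_le.1 (h.φb x)
              have a3 := abs_le.1 (h.ψb (y i))
              rw [abs_le]
              constructor <;> linarith [a1.1, a1.2, a2.1, a2.2, a3.1, a3.2]
          rw [← integral_const_mul, ← integral_const_mul,
            ← integral_add j1 (((int_of_mem p2).const_mul _).const_mul _)]
          refine integral_congr_ae (Eventually.of_forall fun x => ?_)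
          simp only [hv]; ring
  refine (Finset.sum_le_sum fun i _ => hone i).trans ?_
  rw [← ENNReal.ofReal_sum_of_nonneg]
  · unfold Cells.err
    rw [Finset.sum_add_distrib, Finset.mul_sum]
  · intro i _
    obtain ⟨p1, p2, p3⟩ := h.pos _ (h.du0 (Q i)) (h.du1 (Q i)) (h.du2 (Q i))
    refine add_nonneg (integral_nonneg_of_ae ?_) (mul_nonneg zero_le_two
      (mul_nonneg (hQ.er0 i) ENNReal.toReal_nonneg))
    filter_upwards [nonneg_iff_ae.1 p1] with x hx
    refine mul_nonneg hx ?_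
    have := h.le x (y i); linarith

end kernel

section final

variable {M : Type u} [MetricSpace M] [SecondCountableTopology M] [MeasurableSpace M]
  [BorelSpace M] {m : Measure M} {γ : Measure (M × M)} {ρ : M →ₘ[m] ℝ} {c : M → M → ℝ}
    {φ ψ : M → ℝ} {δ b n K τ A : ℝ} {T : (M →ₘ[m] ℝ) → (M →ₘ[m] ℝ)} {k : M → M → ℝ}
    [SigmaFinite m] [IsProbabilityMeasure γ]

/-- **S4 at one time.** -/
theorem drift_ker (h : DriftHyp m γ ρ c φ ψ δ b n K τ A T) (hk : KerHyp m k T) {L : ℝ}
    (hL : 0 ≤ L) (hc : ∀ x y y', |c x y - c x y'| ≤ L * dist y y')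
    (hψ : ∀ y y', |ψ y - ψ y'| ≤ L * dist y y') :
    ∫⁻ z, ∫⁻ x, ENNReal.ofReal (k z.1 x * (c x z.2 - φ x - ψ z.2)) ∂m ∂γ ≤
      ENNReal.ofReal (τ / 2 * (n - 2 * K / 3 * ∫ z, c z.1 z.2 ∂γ) + A
        - ((∫ x, T ρ x * φ x ∂m) - ∫ x, ρ x * φ x ∂m)) := by
  have hne : Nonempty M := by
    by_contra hM
    rw [not_nonempty_iff] at hM
    have h1 : γ univ = 0 := by
      have : (univ : Set (M × M)) = ∅ := by ext z; exact hM.elim z.1
      rw [this]; simp
    rw [measure_univ] at h1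
    exact one_ne_zero h1
  set X : ℝ := τ / 2 * (n - 2 * K / 3 * ∫ z, c z.1 z.2 ∂γ) + A
        - ((∫ x, T ρ x * φ x ∂m) - ∫ x, ρ x * φ x ∂m) with hX
  have hτ := h.τ0
  have key : ∀ ε : ℝ, 0 < ε →
      ∫⁻ z, ∫⁻ x, ENNReal.ofReal (k z.1 x * (c x z.2 - φ x - ψ z.2)) ∂m ∂γ
        ≤ ENNReal.ofReal (X + ε) := by
    intro ε hε
    have hC : 0 < 4 + |K| / 3 * τ := by positivity
    obtain ⟨N, Q, y, er, hQ, he⟩ := exists_cells (γ := γ) (c := c) (ψ := ψ) hL hc h.cabs hψ h.ψb
      (show 0 < ε / (4 + |K| / 3 * τ) by positivity)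
    refine (ker_cells h hk hQ).trans (ENNReal.ofReal_le_ofReal ?_)
    have h1 := h.drift_e hQ
    have h2 : (4 + |K| / 3 * τ) * Cells.err γ Q er ≤ ε := by
      calc (4 + |K| / 3 * τ) * Cells.err γ Q er
          ≤ (4 + |K| / 3 * τ) * (ε / (4 + |K| / 3 * τ)) := by gcongr
        _ = ε := by field_simp
    linarith
  have hlim : Tendsto (fun ε : ℝ => ENNReal.ofReal (X + ε)) (𝓝[>] 0) (𝓝 (ENNReal.ofReal X)) := by
    have h1 : Tendsto (fun ε : ℝ => X + ε) (𝓝[>] 0) (𝓝 (X + 0)) :=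
      (tendsto_const_nhds.add tendsto_id).mono_left nhdsWithin_le_nhds
    rw [add_zero] at h1
    exact (ENNReal.continuous_ofReal.tendsto X).comp h1
  refine ge_of_tendsto hlim ?_
  filter_upwards [self_mem_nhdsWithin] with ε hε
  exact key ε hε

end final

end Vale.Agent.P233.H183
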