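import Vale.Agent.P233.H183.RS4c
import Vale.Agent.P233.H183.Unit
import Vale.Agent.P233.H886.CDelta
import Vale.Agent.P233.RA.IfST

/-! P233, RCDA, block S4 (drift): `Blk_S4`. -/

set_option linter.all false

open MeasureTheory Filter Topology Set
open scoped ENNReal NNReal

universe u

namespace Vale.Agent.P233.H183

open RA (gg cc ww aK bK ga KH Q Okd CD BLip Adm Opt dm SG0 tht mom InS tau Good aS)

section basic

variable {M : Type u} [MetricSpace M] [MeasurableSpace M] [BorelSpace M] {m : Measure M}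

theorem cc_cost {δ : ℝ} (hδ : 0 ≤ δ) : H886.Cost (fun x y : M => cc δ x y) δ (√(2 * δ)) :=
  H886.cost_min hδ

theorem cc_nonneg {δ : ℝ} (hδ : 0 ≤ δ) (x y : M) : 0 ≤ cc δ x y := le_min (by positivity) hδ

theorem cc_le {δ : ℝ} (x y : M) : cc δ x y ≤ δ := min_le_right _ _

theorem continuous_cc (δ : ℝ) : Continuous (Function.uncurry fun x y : M => cc δ x y) := by
  unfold cc
  exact ((continuous_dist.pow 2).div_const 2).min continuous_const

theorem cc_lip {δ : ℝ} (hδ : 0 ≤ δ) (x y y' : M) :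
    |cc δ x y - cc δ x y'| ≤ √(2 * δ) * dist y y' := by
  have h := H886.abs_min_sq_sub (a := dist x y) (b := dist x y') dist_nonneg dist_nonneg hδ
  refine h.trans (mul_le_mul_of_nonneg_left ?_ (Real.sqrt_nonneg _))
  rw [dist_comm x y, dist_comm x y']
  exact abs_dist_sub_le y y' x

theorem continuous_ww (δ : ℝ) (y : M) : Continuous (ww δ y) := by
  unfold ww cc
  exact ((((continuous_id.dist continuous_const).pow 2).div_const 2).min continuous_const).sub
    continuous_const

theorem abs_ww {δ : ℝ} (hδ : 0 ≤ δ) (y x : M) : |ww δ y x| ≤ δ := by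
  have h1 := cc_nonneg hδ x y
  have h2 := cc_le (δ := δ) x y
  unfold ww
  rw [abs_le]; constructor <;> linarith

theorem ww_zero {δ : ℝ} {y x : M} (h : x ∉ Metric.ball y (√(2 * δ) + 1)) (hδ : 0 ≤ δ) :
    ww δ y x = 0 := by
  rw [Metric.mem_ball, not_lt] at h
  have h0 : 0 ≤ √(2 * δ) := Real.sqrt_nonneg _
  have h1 : δ ≤ dist x y ^ 2 / 2 := by
    have h2 : √(2 * δ) ^ 2 = 2 * δ := Real.sq_sqrt (by positivity)
    have h3 : √(2 * δ) ^ 2 ≤ dist x y ^ 2 := pow_le_pow_left₀ h0 (by linarith) 2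
    linarith
  unfold ww cc
  rw [min_eq_right h1, sub_self]

/-- bounded functions supported in a ball are in `L²` -/
theorem memLp_of_ball (hfin : ∀ (x : M) (r : ℝ), m (Metric.ball x r) < ∞) {f : M → ℝ}
    (hf : AEStronglyMeasurable f m) {B : ℝ} (hB : ∀ x, |f x| ≤ B) {x₀ : M} {R : ℝ}
    (hR : ∀ x, x ∉ Metric.ball x₀ R → f x = 0) (p : ℝ≥0∞) : MemLp f p m := by
  have h1 : MemLp ((Metric.ball x₀ R).indicator fun _ => B) p m :=
    memLp_indicator_const p measurableSet_ball B (Or.inr (hfin x₀ R).ne)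
  refine h1.mono hf (Eventually.of_forall fun x => ?_)
  by_cases hx : x ∈ Metric.ball x₀ R
  · rw [indicator_of_mem hx, Real.norm_eq_abs, Real.norm_eq_abs]
    exact (hB x).trans (le_abs_self _)
  · rw [indicator_of_notMem hx, hR x hx]

theorem cl_memLp {f : M → ℝ} (hf : AEStronglyMeasurable f m) {p : ℝ≥0∞} (h : MemLp f p m) :
    MemLp (cl m f) p m := (memLp_congr_ae (cl_ae hf)).2 h

theorem ww_mem (hfin : ∀ (x : M) (r : ℝ), m (Metric.ball x r) < ∞) {δ : ℝ} (hδ : 0 ≤ δ) (y : M)
    (p : ℝ≥0∞) : MemLp (cl m (ww δ y)) p m :=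
  cl_memLp (continuous_ww δ y).aestronglyMeasurable
    (memLp_of_ball hfin (continuous_ww δ y).aestronglyMeasurable (abs_ww hδ y)
      (fun x hx => ww_zero hx hδ) p)

theorem mem2_of {f : M →ₘ[m] ℝ} (h1 : MemLp f 1 m) (ht : MemLp f ∞ m) : MemLp f 2 m :=
  memLp_two_of_sq (by rw [sq]; exact mem_mul_top ht h1)

end basic

section ins

variable {M : Type u} [MetricSpace M] [ProperSpace M] [MeasurableSpace M] [BorelSpace M]
  {m : Measure M} {n : ℕ} {K θ δ : ℝ}

theorem ins_mul_int {u v : M →ₘ[m] ℝ} (hu : MemLp u 2 m) (hv : MemLp v 2 m) :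
    Integrable (fun x => u x * v x) m := (int_of_mem (mem_mul_22 hu hv)).congr (mul_ae u v)

/-- (LC) in duality with a density -/
theorem lc_dual (h : InS m n K θ δ) {C : ℝ}
    (hC : ∀ t : ℝ, 0 ≤ t → t ≤ 1 → ∀ y : M, ∀ᵐ x ∂m,
      Q m t (cl m (ww δ y)) x ≤ ww δ y x + t / 2 * (n - 2 * K / 3 * cc δ x y) + C * (t * √t))
    {t : ℝ} (ht : 0 ≤ t) (ht1 : t ≤ 1) (y : M) {u : M →ₘ[m] ℝ} (hu0 : 0 ≤ u)
    (hu1 : MemLp u 1 m) (hu2 : MemLp u 2 m) :
    ∫ x, Q m t u x * cc δ x y ∂m ≤ (∫ x, u x * cc δ x y ∂m)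
      + t / 2 * (n * I u - 2 * K / 3 * ∫ x, u x * cc δ x y ∂m) + C * (t * √t) * I u := by
  have hδ : 0 ≤ δ := h.ok.1.le
  have hcont : Continuous fun x => cc δ x y :=
    (continuous_cc δ).comp (continuous_id.prodMk continuous_const)
  have hcb : ∀ x, |cc δ x y| ≤ δ := fun x => by
    rw [abs_of_nonneg (cc_nonneg hδ x y)]; exact cc_le x y
  have hw2 : MemLp (cl m (ww δ y)) 2 m := ww_mem h.hN.fin hδ y 2
  have hq2 : MemLp (Q m t u) 2 m := h.sg.mem t ht u hu2
  have hq1 : MemLp (Q m t u) 1 m := h.sg.L1 t ht u hu2 hu1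
  have hmass : I (Q m t u) = I u := h.sg.mass t ht u hu2 hu1
  have hwq2 : MemLp (Q m t (cl m (ww δ y))) 2 m := h.sg.mem t ht _ hw2
  have e1 : ∫ x, Q m t u x * cc δ x y ∂m = I (Q m t u * cl m (ww δ y)) + δ * I u := by
    rw [← hmass]
    unfold I
    rw [← integral_const_mul, ← integral_add (int_of_mem (mem_mul_22 hq2 hw2))
      ((int_of_mem hq1).const_mul δ)]
    refine integral_congr_ae ?_
    filter_upwards [mul_ae (f := Q m t u) (g := cl m (ww δ y)),
      cl_cont (m := m) (continuous_ww δ y)] with x a1 a2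
    rw [a1, a2]; unfold ww; ring
  have e2 : I (Q m t u * cl m (ww δ y)) = I (u * Q m t (cl m (ww δ y))) :=
    h.sg.symm t ht u _ hu2 hw2
  have hX : Continuous fun x => ww δ y x + t / 2 * (n - 2 * K / 3 * cc δ x y) + C * (t * √t) :=
    ((continuous_ww δ y).add (continuous_const.mul (continuous_const.sub
      (continuous_const.mul hcont)))).add continuous_const
  have i1 : Integrable (fun x => u x * ww δ y x) m :=
    int_cb hu1 (continuous_ww δ y) (abs_ww hδ y)
  have i2 : Integrable (fun x => u x * cc δ x y) m := int_cb hu1 hcont hcb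
  have i3 : Integrable (fun x => u x) m := int_of_mem hu1
  have e3 : I (u * Q m t (cl m (ww δ y))) ≤ (∫ x, u x * ww δ y x ∂m)
      + t / 2 * (n * I u - 2 * K / 3 * ∫ x, u x * cc δ x y ∂m) + C * (t * √t) * I u := by
    have j1 : Integrable (fun x => (n : ℝ) * u x) m := i3.const_mul _
    have j2 : Integrable (fun x => 2 * K / 3 * (u x * cc δ x y)) m := i2.const_mul _
    have j3 : Integrable (fun x => t / 2 * (n * u x - 2 * K / 3 * (u x * cc δ x y))) m :=
      (j1.sub j2).const_mul _
    have j4 : Integrable (fun x => C * (t * √t) * u x) m := i3.const_mul _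
    have j5 : Integrable (fun x => u x * ww δ y x + t / 2 * (n * u x - 2 * K / 3 *
        (u x * cc δ x y))) m := i1.add j3
    have i4 : Integrable (fun x => u x * ww δ y x + t / 2 * (n * u x - 2 * K / 3 *
        (u x * cc δ x y)) + C * (t * √t) * u x) m := j5.add j4
    calc I (u * Q m t (cl m (ww δ y)))
        ≤ ∫ x, (u x * ww δ y x + t / 2 * (n * u x - 2 * K / 3 *
        (u x * cc δ x y)) + C * (t * √t) * u x) ∂m := by
          refine integral_mono_ae (int_of_mem (mem_mul_22 hu2 hwq2)) i4 ?_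
          filter_upwards [mul_ae (f := u) (g := Q m t (cl m (ww δ y))), hC t ht ht1 y,
            nonneg_iff_ae.1 hu0] with x a1 a2 a3
          rw [a1]
          refine (mul_le_mul_of_nonneg_left a2 a3).trans (le_of_eq ?_)
          ring
      _ = _ := by
          rw [integral_add j5 j4, integral_add i1 j3, integral_const_mul, integral_sub j1 j2,
            integral_const_mul, integral_const_mul, integral_const_mul]
          rfl
  have e4 : ∫ x, u x * ww δ y x ∂m = (∫ x, u x * cc δ x y ∂m) - δ * I u := by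
    unfold I
    rw [← integral_const_mul, ← integral_sub i2 (i3.const_mul δ)]
    refine integral_congr_ae (Eventually.of_forall fun x => ?_)
    simp only; unfold ww; ring
  rw [e1, e2]
  rw [e4] at e3
  linarith

/-- the truncated Cheeger–Yau kernel -/
noncomputable def kt (n : ℕ) (K θ η τ : ℝ) (x y : M) : ℝ :=
  (Metric.ball x η).indicator (fun y => KH n K θ τ x y) y

theorem ga_nonneg {θ : ℝ} (hθ : 0 ≤ θ) (n : ℕ) : 0 ≤ ga n θ := by
  unfold ga
  have : 0 < Real.Gamma ((n : ℝ) / 2 + 1) := Real.Gamma_pos_of_pos (by positivity)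
  positivity

theorem KH_nonneg {θ : ℝ} (hθ : 0 ≤ θ) (n : ℕ) (K : ℝ) {τ : ℝ} (hτ : 0 ≤ τ) (x y : M) :
    0 ≤ KH n K θ τ x y := by
  unfold KH
  have := ga_nonneg hθ n
  have := Real.rpow_nonneg hτ (-((n : ℝ) / 2))
  positivity

theorem continuous_KH (n : ℕ) (K θ τ : ℝ) :
    Continuous (Function.uncurry fun x y : M => KH n K θ τ x y) := by
  unfold KH gg Function.uncurry
  fun_prop

theorem measurable_kt (n : ℕ) (K θ η τ : ℝ) :
    Measurable (Function.uncurry fun x y : M => kt n K θ η τ x y) := by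
  have h1 : (Function.uncurry fun x y : M => kt n K θ η τ x y)
      = {z : M × M | dist z.2 z.1 < η}.indicator (Function.uncurry fun x y => KH n K θ τ x y) := by
    funext z
    show (Metric.ball z.1 η).indicator (fun y => KH n K θ τ z.1 y) z.2 = _
    by_cases hz : dist z.2 z.1 < η
    · rw [indicator_of_mem (show z.2 ∈ Metric.ball z.1 η from hz), indicator_of_mem (show z ∈
        {z : M × M | dist z.2 z.1 < η} from hz)]
      rfl
    · rw [indicator_of_notMem (show z.2 ∉ Metric.ball z.1 η from hz), indicator_of_notMem (show z ∉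
        {z : M × M | dist z.2 z.1 < η} from hz)]
  rw [h1]
  exact (continuous_KH n K θ τ).measurable.indicator
    (isOpen_lt (continuous_snd.dist continuous_fst) continuous_const).measurableSet

theorem kt_nonneg {θ : ℝ} (hθ : 0 ≤ θ) (n : ℕ) (K η : ℝ) {τ : ℝ} (hτ : 0 ≤ τ) (x y : M) :
    0 ≤ kt n K θ η τ x y := indicator_nonneg (fun z _ => KH_nonneg hθ n K hτ x z) y

theorem kt_le {θ : ℝ} (hθ : 0 ≤ θ) (n : ℕ) (K η : ℝ) {τ : ℝ} (hτ : 0 ≤ τ) (x y : M) :
    kt n K θ η τ x y ≤ KH n K θ τ x y :=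
  indicator_le_self' (fun z _ => KH_nonneg hθ n K hτ x z) y

/-- Cheeger–Yau for bounded continuous functions -/
theorem kerHyp (h : InS m n K θ δ) {τ : ℝ} (hτ : 0 < τ) (hτ1 : τ ≤ 1) (η : ℝ) :
    KerHyp m (fun x y => kt n K θ η τ x y) (Q m τ) where
  meas := measurable_kt n K θ η τ
  k0 := fun x y => kt_nonneg h.hN.θ_pos.le n K η hτ.le x y
  cy := by
    intro u hu0 hu1 hu2 v B hvc hvb hv0
    haveI : SigmaFinite m := sigmaFinite_of_ball h.hN.fin
    rcases isEmpty_or_nonempty M with hM | ⟨⟨x₀⟩⟩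
    · rw [lintegral_of_isEmpty]; exact zero_le
    have hθ := h.hN.θ_pos.le
    have hq2 : MemLp (Q m τ u) 2 m := h.sg.mem τ hτ.le u hu2
    have hq1 : MemLp (Q m τ u) 1 m := h.sg.L1 τ hτ.le u hu2 hu1
    have hq0 : 0 ≤ Q m τ u := h.sg.nonneg τ hτ.le u hu2 hu0
    have hG : Measurable fun z : M × M => ENNReal.ofReal (u z.1 * kt n K θ η τ z.1 z.2 * v z.2) :=
      (((u.measurable.comp measurable_fst).mul (measurable_kt n K θ η τ)).mul
        (hvc.measurable.comp measurable_snd)).ennreal_ofReal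
    have hGx : ∀ x, Measurable fun y => ENNReal.ofReal (u x * kt n K θ η τ x y * v y) :=
      fun x => hG.comp measurable_prodMk_left
    -- the bound on balls
    have hball : ∀ N : ℕ, ∫⁻ x, ∫⁻ y in Metric.ball x₀ N,
        ENNReal.ofReal (u x * kt n K θ η τ x y * v y) ∂m ∂m
        ≤ ENNReal.ofReal (∫ x, Q m τ u x * v x ∂m) := by
      intro N
      set w : M → ℝ := (Metric.ball x₀ N).indicator v with hw
      have hwm : AEStronglyMeasurable w m :=
        (hvc.measurable.indicator measurableSet_ball).aestronglyMeasurable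
      have hwb : ∀ x, |w x| ≤ B := by
        intro x
        rw [hw]
        by_cases hx : x ∈ Metric.ball x₀ (N : ℝ)
        · rw [indicator_of_mem hx]; exact hvb x
        · rw [indicator_of_notMem hx, abs_zero]; exact (abs_nonneg _).trans (hvb x)
      have hw2 : MemLp (cl m w) 2 m := cl_memLp hwm
        (memLp_of_ball h.hN.fin hwm hwb (x₀ := x₀) (R := N)
          (fun x hx => indicator_of_notMem hx _) 2)
      have hw0 : 0 ≤ cl m w := by
        rw [nonneg_iff_ae]
        filter_upwards [cl_ae hwm] with x hx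
        rw [hx]; exact indicator_nonneg (fun z _ => hv0 z) x
      calc ∫⁻ x, ∫⁻ y in Metric.ball x₀ N,
            ENNReal.ofReal (u x * kt n K θ η τ x y * v y) ∂m ∂m
          ≤ ∫⁻ x, ∫⁻ y, ENNReal.ofReal (u x * KH n K θ τ x y * cl m w y) ∂m ∂m := by
            refine lintegral_mono_ae ?_
            filter_upwards [nonneg_iff_ae.1 hu0] with x hx
            rw [← lintegral_indicator measurableSet_ball]
            refine lintegral_mono_ae ?_
            filter_upwards [cl_ae hwm] with y hy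
            rw [hy, hw]
            by_cases hyb : y ∈ Metric.ball x₀ (N : ℝ)
            · rw [indicator_of_mem hyb, indicator_of_mem hyb]
              refine ENNReal.ofReal_le_ofReal ?_
              have := kt_le hθ n K η hτ.le x y
              have := hv0 y
              gcongr
            · rw [indicator_of_notMem hyb]; exact zero_le
        _ ≤ ENNReal.ofReal (I (u * Q m τ (cl m w))) := h.cy τ hτ hτ1 u _ hu0 hw0 hu2 hw2
        _ ≤ _ := by
            rw [← h.sg.symm τ hτ.le u _ hu2 hw2]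
            refine ENNReal.ofReal_le_ofReal ?_
            refine integral_mono_ae (int_of_mem (mem_mul_22 hq2 hw2))
              (int_cb hq1 hvc hvb) ?_
            filter_upwards [mul_ae (f := Q m τ u) (g := cl m w), cl_ae hwm,
              nonneg_iff_ae.1 hq0] with x a1 a2 a3
            rw [a1, a2]
            exact mul_le_mul_of_nonneg_left (indicator_le_self' (fun z _ => hv0 z) x) a3
    -- monotone convergence
    have hmono : Monotone fun N : ℕ => Metric.ball x₀ (N : ℝ) := fun a b hab =>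
      Metric.ball_subset_ball (Nat.cast_le.2 hab)
    have hUn : ⋃ N : ℕ, Metric.ball x₀ (N : ℝ) = univ := Metric.iUnion_ball_nat x₀
    have hinner : ∀ x, ∫⁻ y, ENNReal.ofReal (u x * kt n K θ η τ x y * v y) ∂m
        = ⨆ N : ℕ, ∫⁻ y in Metric.ball x₀ (N : ℝ),
          ENNReal.ofReal (u x * kt n K θ η τ x y * v y) ∂m := by
      intro x
      rw [← setLIntegral_univ, ← hUn]
      exact setLIntegral_iUnion_of_directed _ hmono.directed_le
    have houter : ∀ N : ℕ, Measurable fun x => ∫⁻ y in Metric.ball x₀ (N : ℝ),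
          ENNReal.ofReal (u x * kt n K θ η τ x y * v y) ∂m := fun N =>
      Measurable.lintegral_prod_right' hG
    simp_rw [hinner]
    rw [lintegral_iSup houter fun a b hab x => lintegral_mono_set (hmono hab)]
    exact iSup_le hball

end ins

end Vale.Agent.P233.H183
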