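import Vale.Agent.P233.H183.RS4d

/-! P233, RCDA, block S4 (drift): `blk_S4 : RA.Blk_S4`. -/

set_option linter.all false

open MeasureTheory Filter Topology Set
open scoped ENNReal NNReal

universe u

namespace Vale.Agent.P233.H183

open RA (gg cc ww aK bK ga KH Q Okd CD BLip Adm Opt dm SG0 tht mom InS tau Good aS)

section nonneg

variable {M : Type u} [MetricSpace M] [SecondCountableTopology M] [MeasurableSpace M]
  [BorelSpace M] {m : Measure M} {γ : Measure (M × M)} {ρ : M →ₘ[m] ℝ} {c : M → M → ℝ}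
    {φ ψ : M → ℝ} {δ b n K τ A : ℝ} {T : (M →ₘ[m] ℝ) → (M →ₘ[m] ℝ)}
    [SigmaFinite m] [IsProbabilityMeasure γ]

theorem drift_nonneg (h : DriftHyp m γ ρ c φ ψ δ b n K τ A T) {L : ℝ}
    (hL : 0 ≤ L) (hc : ∀ x y y', |c x y - c x y'| ≤ L * dist y y')
    (hψ : ∀ y y', |ψ y - ψ y'| ≤ L * dist y y') :
    0 ≤ τ / 2 * (n - 2 * K / 3 * ∫ z, c z.1 z.2 ∂γ) + A
        - ((∫ x, T ρ x * φ x ∂m) - ∫ x, ρ x * φ x ∂m) := by
  have hne : Nonempty M := by
    by_contra hM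
    rw [not_nonempty_iff] at hM
    have h1 : γ univ = 0 := by
      have : (univ : Set (M × M)) = ∅ := by ext z; exact hM.elim z.1
      rw [this]; simp
    rw [measure_univ] at h1
    exact one_ne_zero h1
  have hτ := h.τ0
  refine le_of_forall_pos_le_add fun ε hε => ?_
  have hC : 0 < 2 + |K| / 3 * τ := by positivity
  obtain ⟨N, Q, y, er, hQ, he⟩ := exists_cells (γ := γ) (c := c) (ψ := ψ) hL hc h.cabs hψ h.ψb
    (show 0 < ε / (2 + |K| / 3 * τ) by positivity)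
  have h1 := h.drift_e hQ
  have h2 : (2 + |K| / 3 * τ) * Cells.err γ Q er ≤ ε := by
    calc (2 + |K| / 3 * τ) * Cells.err γ Q er
        ≤ (2 + |K| / 3 * τ) * (ε / (2 + |K| / 3 * τ)) := by gcongr
      _ = ε := by field_simp
  have h3 : 0 ≤ ∑ i, ∫ x, T (du m γ (Q i)) x * (c x (y i) - φ x - ψ (y i)) ∂m := by
    refine Finset.sum_nonneg fun i _ => integral_nonneg_of_ae ?_
    obtain ⟨p1, p2, p3⟩ := h.pos _ (h.du0 (Q i)) (h.du1 (Q i)) (h.du2 (Q i))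
    filter_upwards [nonneg_iff_ae.1 p1] with x hx
    refine mul_nonneg hx ?_
    have := h.le x (y i); linarith
  linarith

end nonneg

section main

variable {M : Type u} [MetricSpace M] [ProperSpace M] [MeasurableSpace M] [BorelSpace M]
  {m : Measure M} {n : ℕ} {K θ δ : ℝ} {ρ ρ' σ σ' : M →ₘ[m] ℝ} {γ : Measure (M × M)}
  {φ ψ : M → ℝ}

theorem cont_of_blip {φ : M → ℝ} (h : BLip φ) : Continuous φ := by
  obtain ⟨⟨L, hL⟩, -⟩ := h
  exact hL.continuous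

theorem prob_of_opt (hρ : CD m ρ ρ') (ho : Opt δ (dm ρ) (dm σ) γ φ ψ) :
    IsProbabilityMeasure γ := by
  constructor
  have h1 : γ univ = (γ.map Prod.fst) univ := by
    rw [Measure.map_apply measurable_fst MeasurableSet.univ, preimage_univ]
  rw [h1, ho.fst]
  unfold dm
  rw [withDensity_apply _ MeasurableSet.univ, setLIntegral_univ,
    ← ofReal_integral_eq_lintegral_ofReal (int_of_mem hρ.m1) (nonneg_iff_ae.1 hρ.nonneg)]
  have h2 : ∫ x, ρ x ∂m = 1 := hρ.mass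
  rw [h2, ENNReal.ofReal_one]

theorem driftHyp (h : InS m n K θ δ) {C : ℝ}
    (hC : ∀ t : ℝ, 0 ≤ t → t ≤ 1 → ∀ y : M, ∀ᵐ x ∂m,
      Q m t (cl m (ww δ y)) x ≤ ww δ y x + t / 2 * (n - 2 * K / 3 * cc δ x y) + C * (t * √t))
    (hρ : CD m ρ ρ') (ho : Opt δ (dm ρ) (dm σ) γ φ ψ) {t : ℝ} (ht : 0 ≤ t) (ht1 : t ≤ 1) :
    DriftHyp m γ ρ (fun x y => cc δ x y) φ ψ δ δ n K t (C * (t * √t)) (Q m t) where
  hρ := ho.fst
  ρ0 := hρ.nonneg
  ρ1 := hρ.m1
  ρ2 := mem2_of hρ.m1 hρ.mt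
  c0 := fun x y => cc_nonneg h.ok.1.le x y
  cδ := fun x y => cc_le x y
  cc := continuous_cc δ
  φc := cont_of_blip ho.adm.bl1
  ψc := cont_of_blip ho.adm.bl2
  φb := ho.bdφ
  ψb := ho.bdψ
  le := ho.adm.le
  eq := ho.eq
  τ0 := ht
  pos := fun u hu0 hu1 hu2 => ⟨h.sg.nonneg t ht u hu2 hu0, h.sg.L1 t ht u hu2 hu1,
    h.sg.mass t ht u hu2 hu1⟩
  zero := by
    have h1 := h.sg.smul t ht 0 0 mem_zero
    rwa [zero_smul, zero_smul] at h1
  add := fun u v _ _ hu2 hv2 => h.sg.add t ht u v hu2 hv2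
  lc := fun y u hu0 hu1 hu2 => lc_dual h hC ht ht1 y hu0 hu1 hu2

theorem cont_KH (n : ℕ) (K θ τ : ℝ) (x' : M) : Continuous fun x => KH n K θ τ x' x := by
  unfold KH gg
  fun_prop

theorem cont_cc (δ : ℝ) (y : M) : Continuous fun x => cc δ x y := by
  unfold cc
  fun_prop

/-- passing from the lower integral to the Bochner integral with the factor `tht⁻¹` -/
theorem bochner_le (hθ : 0 ≤ θ) {η τ c0 X : ℝ} (hτ : 0 ≤ τ) (hc0 : 0 < c0) (hX : 0 ≤ X)
    {E : Set M} {B : Set (M × M)} (hB : MeasurableSet B) (hBE : B ⊆ E ×ˢ univ)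
    (hφ : Continuous φ) (hψ : Continuous ψ) (hle : ∀ x y, φ x + ψ y ≤ cc δ x y)
    (hE : ∀ x ∈ E, c0⁻¹ ≤ tht m n K θ η τ x)
    (hker : ∫⁻ z, ∫⁻ x, ENNReal.ofReal (kt n K θ η τ z.1 x * (cc δ x z.2 - φ x - ψ z.2)) ∂m ∂γ
      ≤ ENNReal.ofReal X) :
    ∫ z in B, ((tht m n K θ η τ z.1)⁻¹ * ∫ x in Metric.ball z.1 η, KH n K θ τ z.1 x
        * (cc δ x z.2 - φ x - ψ z.2) ∂m) ∂γ ≤ c0 * X := by
  have hf0 : ∀ (z : M × M) (x : M), 0 ≤ KH n K θ τ z.1 x * (cc δ x z.2 - φ x - ψ z.2) := by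
    intro z x
    have h1 := hle x z.2
    exact mul_nonneg (KH_nonneg hθ n K hτ _ _) (by linarith)
  have hfc : ∀ z : M × M, Continuous fun x => KH n K θ τ z.1 x * (cc δ x z.2 - φ x - ψ z.2) := by
    intro z
    exact (cont_KH n K θ τ z.1).mul (((cont_cc δ z.2).sub hφ).sub continuous_const)
  set H : M × M → ℝ := fun z => (tht m n K θ η τ z.1)⁻¹ * ∫ x in Metric.ball z.1 η,
    KH n K θ τ z.1 x * (cc δ x z.2 - φ x - ψ z.2) ∂m with hH
  set G : M × M → ℝ≥0∞ := fun z =>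
    ∫⁻ x, ENNReal.ofReal (kt n K θ η τ z.1 x * (cc δ x z.2 - φ x - ψ z.2)) ∂m with hG
  have hcX : 0 ≤ c0 * X := by positivity
  by_cases hi : Integrable H (γ.restrict B)
  swap
  · rw [integral_undef hi]; exact hcX
  have hG0 : ∀ z : M × M, 0 ≤ ∫ x in Metric.ball z.1 η,
      KH n K θ τ z.1 x * (cc δ x z.2 - φ x - ψ z.2) ∂m := fun z =>
    integral_nonneg (hf0 z)
  have hGz : ∀ z : M × M, ENNReal.ofReal (∫ x in Metric.ball z.1 η,
      KH n K θ τ z.1 x * (cc δ x z.2 - φ x - ψ z.2) ∂m) ≤ G z := by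
    intro z
    have e := integral_eq_lintegral_of_nonneg_ae (μ := m.restrict (Metric.ball z.1 η))
      (f := fun x => KH n K θ τ z.1 x * (cc δ x z.2 - φ x - ψ z.2))
      (Eventually.of_forall (hf0 z)) (hfc z).aestronglyMeasurable
    rw [e]
    refine ENNReal.ofReal_toReal_le.trans (le_of_eq ?_)
    rw [hG, ← lintegral_indicator measurableSet_ball]
    refine lintegral_congr fun x => ?_
    unfold kt
    by_cases hx : x ∈ Metric.ball z.1 η
    · rw [indicator_of_mem hx, indicator_of_mem hx]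
    · rw [indicator_of_notMem hx, indicator_of_notMem hx, zero_mul, ENNReal.ofReal_zero]
  have hHnn : ∀ᵐ z ∂(γ.restrict B), 0 ≤ H z := by
    filter_upwards [ae_restrict_mem hB] with z hz
    have h1 := hE z.1 (hBE hz).1
    have h2 : 0 < tht m n K θ η τ z.1 := lt_of_lt_of_le (inv_pos.2 hc0) h1
    exact mul_nonneg (inv_nonneg.2 h2.le) (hG0 z)
  rw [integral_eq_lintegral_of_nonneg_ae hHnn hi.aestronglyMeasurable]
  refine ENNReal.toReal_le_of_le_ofReal hcX ?_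
  calc ∫⁻ z in B, ENNReal.ofReal (H z) ∂γ ≤ ∫⁻ z in B, ENNReal.ofReal c0 * G z ∂γ := by
        refine lintegral_mono_ae ?_
        filter_upwards [ae_restrict_mem hB] with z hz
        have h1 := hE z.1 (hBE hz).1
        have h2 : 0 < tht m n K θ η τ z.1 := lt_of_lt_of_le (inv_pos.2 hc0) h1
        have h3 : (tht m n K θ η τ z.1)⁻¹ ≤ c0 := by
          rw [inv_le_comm₀ h2 hc0]; exact h1
        simp only [hH]
        rw [ENNReal.ofReal_mul (inv_nonneg.2 h2.le)]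
        exact mul_le_mul' (ENNReal.ofReal_le_ofReal h3) (hGz z)
    _ = ENNReal.ofReal c0 * ∫⁻ z in B, G z ∂γ := lintegral_const_mul' _ _ ENNReal.ofReal_ne_top
    _ ≤ ENNReal.ofReal c0 * ENNReal.ofReal X := by
        gcongr
        exact (setLIntegral_le_lintegral _ _).trans hker
    _ = ENNReal.ofReal (c0 * X) := (ENNReal.ofReal_mul hc0.le).symm

theorem tau_pos (j : ℕ) : 0 < tau j := by unfold tau; positivity

theorem tau_le_one (j : ℕ) : tau j ≤ 1 := by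
  unfold tau
  rw [div_le_one (by positivity)]
  have : (0 : ℝ) ≤ j := Nat.cast_nonneg j
  linarith

theorem tau_tendsto : Tendsto tau atTop (𝓝[>] 0) := by
  refine tendsto_nhdsWithin_iff.2 ⟨?_, Eventually.of_forall tau_pos⟩
  exact tendsto_one_div_add_atTop_nhds_zero_nat

theorem s4 (h : InS m n K θ δ) (hρ : CD m ρ ρ') (ho : Opt δ (dm ρ) (dm σ) γ φ ψ)
    {E : Set M} (hE : Good m n K θ E) {B : Set (M × M)} (hB : MeasurableSet B)
    (hBE : B ⊆ E ×ˢ univ) {η : ℝ} (hη : 0 < η) {ε : ℝ} (hε : 0 < ε) :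
    0 ≤ aS n K δ γ φ ρ' ∧ ∀ᶠ j in atTop,
    ∫ z in B, ((tht m n K θ η (tau j) z.1)⁻¹ * ∫ x in Metric.ball z.1 η, KH n K θ (tau j) z.1 x
        * (cc δ x z.2 - φ x - ψ z.2) ∂m) ∂γ
      ≤ tau j / 2 * aS n K δ γ φ ρ' + ε * tau j := by
  haveI : SigmaFinite m := sigmaFinite_of_ball h.hN.fin
  haveI := prob_of_opt hρ ho
  have hδ : 0 ≤ δ := h.ok.1.le
  obtain ⟨C, hC0, hC⟩ := h.drift
  have hφc := cont_of_blip ho.adm.bl1
  have hψc := cont_of_blip ho.adm.bl2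
  obtain ⟨⟨Lψ, hLψ⟩, -⟩ := ho.adm.bl2
  obtain ⟨⟨Lφ, hLφ⟩, -⟩ := ho.adm.bl1
  set L : ℝ := √(2 * δ) + Lψ with hL
  have hL0 : 0 ≤ L := by positivity
  have hcL : ∀ x y y' : M, |cc δ x y - cc δ x y'| ≤ L * dist y y' := fun x y y' =>
    (cc_lip hδ x y y').trans (mul_le_mul_of_nonneg_right (by rw [hL]; linarith [Lψ.2])
      dist_nonneg)
  have hψL : ∀ y y', |ψ y - ψ y'| ≤ L * dist y y' := fun y y' => by
    have h1 := hLψ.dist_le_mul y y'
    rw [Real.dist_eq] at h1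
    refine h1.trans (mul_le_mul_of_nonneg_right ?_ dist_nonneg)
    rw [hL]; linarith [Real.sqrt_nonneg (2 * δ)]
  set D := ∫ z, cc δ z.1 z.2 ∂γ with hD
  set X : ℝ → ℝ := fun τ => τ / 2 * (n - 2 * K / 3 * D) + C * (τ * √τ)
        - ((∫ x, Q m τ ρ x * φ x ∂m) - ∫ x, ρ x * φ x ∂m) with hX
  have hX0 : ∀ τ, 0 ≤ τ → τ ≤ 1 → 0 ≤ X τ := fun τ h0 h1 =>
    drift_nonneg (driftHyp h hC hρ ho h0 h1) hL0 hcL hψL
  have hker : ∀ τ, 0 < τ → τ ≤ 1 → ∫⁻ z, ∫⁻ x, ENNReal.ofReal (kt n K θ η τ z.1 x *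
      (cc δ x z.2 - φ x - ψ z.2)) ∂m ∂γ ≤ ENNReal.ofReal (X τ) := fun τ h0 h1 =>
    drift_ker (driftHyp h hC hρ ho h0.le h1) (kerHyp h h0 h1 η) hL0 hcL hψL
  -- the limit
  have hQ0 : Q m 0 ρ = ρ := h.sg.zero ρ (mem2_of hρ.m1 hρ.mt)
  have hQ0' : Q m 0 ρ' = ρ' := h.sg.zero ρ' (mem2_of hρ.m1' hρ.mt')
  have hder := h.deriv ρ ρ' hρ φ hφc.measurable ⟨δ, ho.bdφ⟩ 0 le_rfl
  rw [hQ0'] at hder
  have hlim1 : Tendsto (fun j => (tau j)⁻¹ * ((∫ x, Q m (tau j) ρ x * φ x ∂m)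
      - ∫ x, ρ x * φ x ∂m)) atTop (𝓝 (2⁻¹ * ∫ x, φ x * ρ' x ∂m)) := by
    have h1 := (hasDerivWithinAt_iff_tendsto_slope' (s := Ioi (0 : ℝ)) (by simp)).1
      (hder.mono Ioi_subset_Ici_self)
    have h2 := h1.comp tau_tendsto
    refine h2.congr fun j => ?_
    simp only [Function.comp_apply, slope_def_field, sub_zero]
    rw [hQ0, div_eq_inv_mul]
    congr 1
    congr 1 <;> exact integral_congr_ae (Eventually.of_forall fun x => mul_comm _ _)
  have hlim2 : Tendsto (fun j => (tau j)⁻¹ * X (tau j)) atTop (𝓝 (aS n K δ γ φ ρ' / 2)) := by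
    have h1 : Tendsto (fun j => C * √(tau j)) atTop (𝓝 (C * 0)) := by
      refine Tendsto.const_mul C ?_
      have h2 : Tendsto (fun τ : ℝ => √τ) (𝓝 0) (𝓝 0) := by
        have := Real.continuous_sqrt.tendsto 0
        rwa [Real.sqrt_zero] at this
      exact h2.comp (tau_tendsto.mono_right nhdsWithin_le_nhds)
    have h3 := ((tendsto_const_nhds (x := 2⁻¹ * (n - 2 * K / 3 * D))).add h1).sub hlim1
    have e : 2⁻¹ * ((n : ℝ) - 2 * K / 3 * D) + C * 0 - 2⁻¹ * ∫ x, φ x * ρ' x ∂m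
        = aS n K δ γ φ ρ' / 2 := by
      unfold aS; rw [← hD]; ring
    rw [e] at h3
    refine h3.congr fun j => ?_
    have hj := tau_pos j
    simp only [hX]
    field_simp
  have ha : 0 ≤ aS n K δ γ φ ρ' / 2 := by
    refine ge_of_tendsto' hlim2 fun j => ?_
    exact mul_nonneg (inv_nonneg.2 (tau_pos j).le) (hX0 _ (tau_pos j).le (tau_le_one j))
  set a := aS n K δ γ φ ρ' / 2 with haa
  refine ⟨by linarith, ?_⟩
  set c0 := (a + ε) / (a + ε / 2) with hc0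
  have hc00 : 0 < c0 := by positivity
  have hc0inv : c0⁻¹ = 1 - ε / 2 / (a + ε) := by
    rw [hc0, inv_div]; field_simp; ring
  have hε' : 0 < ε / 2 / (a + ε) := by positivity
  filter_upwards [hE.unif η hη _ hε', hlim2.eventually_le_const
    (show a < a + ε / 2 by linarith)] with j h1 h2
  have hj := tau_pos j
  have h3 := bochner_le (m := m) (K := K) (θ := θ) (η := η) (n := n) (γ := γ) h.hN.θ_pos.le hj.le
    hc00 (hX0 _ hj.le (tau_le_one j)) hB hBE hφc hψc ho.adm.le (fun x hx => by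
      have := (abs_le.1 (h1 x hx).1).1
      rw [hc0inv]; linarith) (hker _ hj (tau_le_one j))
  refine h3.trans ?_
  have h4 : X (tau j) ≤ tau j * (a + ε / 2) := by
    rwa [inv_mul_le_iff₀ hj] at h2
  calc c0 * X (tau j) ≤ c0 * (tau j * (a + ε / 2)) := by gcongr
    _ = tau j * (a + ε) := by rw [hc0]; field_simp
    _ = tau j / 2 * aS n K δ γ φ ρ' + ε * tau j := by rw [haa]; ring

end main

/-- **Block S4.** -/
theorem blk_S4 : RA.Blk_S4.{u} := by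
  intro M _ _ _ _ m n K θ δ h ρ ρ' σ σ' hρ hσ γ φ ψ ho E hE B hB hBE η hη ε hε
  exact (s4 h hρ ho hE hB hBE hη hε).2

end Vale.Agent.P233.H183
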