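import Vale.Agent.P233.H183.ZGrad
import Vale.Agent.P233.H183.LocL1
import Vale.Agent.P233.H561.E2

/-! P233, block C5, second half: from the integrated form of the second derivative along the flow
to the pointwise form. -/

set_option linter.all false

open MeasureTheory Filter Topology Set
open scoped ENNReal NNReal InnerProductSpace

universe u

namespace Vale.Agent.P233.H183

open Vale.Agent.P233.PC

theorem sigmaFinite_of_balls' {M : Type u} [MetricSpace M] [MeasurableSpace M] {m : Measure M}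
    (h : ∀ (x : M) (r : ℝ), m (Metric.ball x r) < ∞) (p : M) : SigmaFinite m :=
  ⟨⟨{ set := fun n : ℕ => Metric.ball p n
      set_mem := fun _ => trivial
      finite := fun n => h p n
      spanning := by
        rw [eq_univ_iff_forall]
        intro x
        obtain ⟨n, hn⟩ := exists_nat_gt (dist x p)
        exact mem_iUnion.mpr ⟨n, Metric.mem_ball.mpr hn⟩ }⟩⟩

section flow

variable {M : Type u} [MetricSpace M] [MeasurableSpace M] {m : Measure M} {K N : ℝ} {p : M}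
  {s₀ C₀ : ℝ} {Y : ℝ → M → M} {s t : ℝ}

theorem flow_meas_t (h : RFlow m K N p s₀ C₀ Y) (t : ℝ) : Measurable (Y t) :=
  h.meas.comp measurable_prodMk_left

theorem flow_qmp (h : RFlow m K N p s₀ C₀ Y) (ht : t ∈ Ioc (0 : ℝ) 1) :
    Measure.QuasiMeasurePreserving (Y t) m m := by
  refine ⟨flow_meas_t h t, Measure.AbsolutelyContinuous.mk fun A hA hA0 => ?_⟩
  rw [Measure.map_apply (flow_meas_t h t) hA]
  refine le_antisymm ((h.dens t ht A hA).trans ?_) bot_le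
  rw [hA0, mul_zero]

/-- a.e. statements can be pulled back by the flow at a fixed time -/
theorem flow_ae (h : RFlow m K N p s₀ C₀ Y) (ht : t ∈ Ioc (0 : ℝ) 1) {q : M → Prop}
    (hq : ∀ᵐ x ∂m, q x) : ∀ᵐ x ∂m, q (Y t x) := (flow_qmp h ht).ae hq

theorem flow_map_t (h : RFlow m K N p s₀ C₀ Y) (ht : t ∈ Ioc (0 : ℝ) 1) :
    m.map (Y t) ≤ ENNReal.ofReal (cK K C₀ * t ^ (-N)) • m := by
  refine Measure.le_iff.2 fun A hA => ?_
  rw [Measure.map_apply (flow_meas_t h t) hA, Measure.smul_apply, smul_eq_mul]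
  exact h.dens t ht A hA

theorem flow_int_t (h : RFlow m K N p s₀ C₀ Y) (ht : t ∈ Ioc (0 : ℝ) 1) {b : M → ℝ}
    (hb : Integrable b m) : Integrable (fun x => b (Y t x)) m := by
  have h1 : Integrable b (m.map (Y t)) :=
    hb.of_measure_le_smul ENNReal.ofReal_ne_top (flow_map_t h ht)
  exact h1.comp_measurable (flow_meas_t h t)

/-- compression of the flow in space-time -/
theorem flow_map [SFinite m] (h : RFlow m K N p s₀ C₀ Y) (hN : 0 < N) (hs : 0 < s) (ht : t ≤ 1) :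
    ∃ c : ℝ≥0∞, c ≠ ∞ ∧ ((volume.restrict (Ioc s t)).prod m).map (fun z : ℝ × M => Y z.1 z.2)
      ≤ c • m := by
  set c₀ : ℝ≥0∞ := ENNReal.ofReal (|cK K C₀| * s ^ (-N)) with hc₀
  refine ⟨c₀ * volume (Ioc s t), ENNReal.mul_ne_top ENNReal.ofReal_ne_top ?_, ?_⟩
  · rw [Real.volume_Ioc]; exact ENNReal.ofReal_ne_top
  refine Measure.le_iff.2 fun A hA => ?_
  rw [Measure.map_apply h.meas hA, Measure.smul_apply, smul_eq_mul,
    Measure.prod_apply (h.meas hA)]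
  have h1 : ∀ τ ∈ Ioc s t, m (Prod.mk τ ⁻¹' ((fun z : ℝ × M => Y z.1 z.2) ⁻¹' A)) ≤ c₀ * m A := by
    intro τ hτ
    have hτ' : τ ∈ Ioc (0 : ℝ) 1 := ⟨hs.trans hτ.1, hτ.2.trans ht⟩
    refine (h.dens τ hτ' A hA).trans ?_
    refine mul_le_mul_left (ENNReal.ofReal_le_ofReal ?_) (m A)
    have h2 : τ ^ (-N) ≤ s ^ (-N) :=
      Real.rpow_le_rpow_of_nonpos hs hτ.1.le (by linarith)
    have h3 : 0 ≤ τ ^ (-N) := Real.rpow_nonneg hτ'.1.le _
    calc cK K C₀ * τ ^ (-N) ≤ |cK K C₀| * τ ^ (-N) := by gcongr; exact le_abs_self _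
      _ ≤ |cK K C₀| * s ^ (-N) := by gcongr
  calc ∫⁻ τ in Ioc s t, m (Prod.mk τ ⁻¹' ((fun z : ℝ × M => Y z.1 z.2) ⁻¹' A))
      ≤ ∫⁻ τ in Ioc s t, c₀ * m A := setLIntegral_mono measurable_const h1
    _ = c₀ * volume (Ioc s t) * m A := by
        rw [setLIntegral_const]; ring

theorem flow_qmp_prod [SFinite m] (h : RFlow m K N p s₀ C₀ Y) (hN : 0 < N) (hs : 0 < s)
    (ht : t ≤ 1) : Measure.QuasiMeasurePreserving (fun z : ℝ × M => Y z.1 z.2)
      ((volume.restrict (Ioc s t)).prod m) m := by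
  obtain ⟨c, hc, hle⟩ := flow_map h hN hs ht
  exact ⟨h.meas, (Measure.absolutelyContinuous_of_le_smul hle)⟩

theorem flow_int [SFinite m] (h : RFlow m K N p s₀ C₀ Y) (hN : 0 < N) (hs : 0 < s) (ht : t ≤ 1)
    {b : M → ℝ} (hb : Integrable b m) :
    Integrable (fun z : ℝ × M => b (Y z.1 z.2)) ((volume.restrict (Ioc s t)).prod m) := by
  obtain ⟨c, hc, hle⟩ := flow_map h hN hs ht
  have h1 := hb.of_measure_le_smul hc hle
  exact h1.comp_measurable h.meas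

end flow

section second

variable {M : Type u} [MetricSpace M] [SecondCountableTopology M] [MeasurableSpace M]
  [BorelSpace M] {m : Measure M} {K N : ℝ} {P : ℝ → (M →ₘ[m] ℝ) → (M →ₘ[m] ℝ)} {p : M} {s₀ C₀ : ℝ}
  {Y : ℝ → M → M} {E : Type} [NormedAddCommGroup E] [InnerProductSpace ℝ E]
  {Gr : (M →ₘ[m] ℝ) → M → E} {HO : (M →ₘ[m] ℝ) → M → E →L[ℝ] E}

/-- the speed, `0` outside the moving ball -/
noncomputable def sp (p : M) (s₀ C₀ : ℝ) (x : M) : ℝ :=
  open Classical in if dist p x < r1 s₀ C₀ then spd1 p s₀ x else 0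

theorem sp_meas (p : M) (s₀ C₀ : ℝ) : Measurable (sp p s₀ C₀) := by
  have h1 : Measurable fun x : M => dist p x := (continuous_const.dist continuous_id).measurable
  unfold sp spd1
  exact Measurable.ite (measurableSet_lt h1 measurable_const) (h1.div_const _) measurable_const

theorem sp_bd (hs : 0 < s₀) (x : M) : |sp p s₀ C₀ x| ≤ r1 s₀ C₀ := by
  have hr := r1_nonneg (s₀ := s₀) (C₀ := C₀)
  unfold sp
  split_ifs with h
  · unfold spd1
    have h1 : 0 ≤ dist p x / (1 + s₀) := by positivity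
    rw [abs_of_nonneg h1]
    calc dist p x / (1 + s₀) ≤ dist p x / 1 := by gcongr; linarith
      _ = dist p x := div_one _
      _ ≤ r1 s₀ C₀ := h.le
  · rw [abs_zero]; exact hr

/-- `⟨Hess b(∇d_p), ∇d_p⟩` -/
noncomputable def qf (m : Measure M) (Gr : (M →ₘ[m] ℝ) → M → E)
    (HO : (M →ₘ[m] ℝ) → M → E →L[ℝ] E) (p : M) (s₀ C₀ : ℝ) (b : M →ₘ[m] ℝ) (y : M) : ℝ :=
  ⟪HO b y (Gr (dc m p s₀ C₀) y), Gr (dc m p s₀ C₀) y⟫_ℝ

theorem qf_meas (hG : IsGrad (sob m) Gr) (hGm : ∀ f ∈ (sob m).W, StronglyMeasurable (Gr f))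
    (hH : IsHess (sob m) Gr HO) (hfin : ∀ (x : M) (r : ℝ), m (Metric.ball x r) < ∞)
    {b : M →ₘ[m] ℝ} (hb : b ∈ (sob m).Test) : AEStronglyMeasurable (qf m Gr HO p s₀ C₀ b) m := by
  have hd := dc_mem_A hfin p s₀ C₀
  have h1 := H561.clm_apply_aemeas (A := fun y : M => HO b y) (fun w => hH.meas b hb w)
    (hGm _ hd.1)
  exact h1.inner (hGm _ hd.1).aestronglyMeasurable

theorem qf_int (hC : IsDir (sob m)) (hG : IsGrad (sob m) Gr)
    (hGm : ∀ f ∈ (sob m).W, StronglyMeasurable (Gr f))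
    (hH : IsHess (sob m) Gr HO) (hfin : ∀ (x : M) (r : ℝ), m (Metric.ball x r) < ∞)
    {b : M →ₘ[m] ℝ} (hb : b ∈ (sob m).Test) : Integrable (qf m Gr HO p s₀ C₀ b) m := by
  have hd := dc_mem_A hfin p s₀ C₀
  obtain ⟨c, hc⟩ := hH.norm
  obtain ⟨L, hL2, hLb, -⟩ := hc b hb
  have hball : MeasurableSet (Metric.ball p (r1 s₀ C₀)) := Metric.isOpen_ball.measurableSet
  have hind : MemLp ((Metric.ball p (r1 s₀ C₀)).indicator fun _ : M => (1 : ℝ)) 2 m :=
    memLp_indicator_const 2 hball (1 : ℝ) (Or.inr (hfin p _).ne)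
  refine Integrable.mono' (g := fun x => |L x| *
    |(Metric.ball p (r1 s₀ C₀)).indicator (fun _ : M => (1 : ℝ)) x|)
    (hL2.abs.integrable_mul hind.abs) (qf_meas hG hGm hH hfin hb) ?_
  filter_upwards [hLb, hG.inner _ hd.1 _ hd.1, Γ_cl_le hfin (dtr_lip p (r1 s₀ C₀))
    (fun _ h => dtr_zero h), Γ_dtr_zero hC hfin p (r1 s₀ C₀) hd.1] with x a1 a2 a3 a4
  have a3' : (sob m).Γ (dc m p s₀ C₀) (dc m p s₀ C₀) x ≤ 1 := by
    have : (sob m).Γ (dc m p s₀ C₀) (dc m p s₀ C₀) x ≤ ((1 : ℝ≥0) : ℝ) ^ 2 := a3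
    simpa using this
  rw [real_inner_self_eq_norm_sq] at a2
  have b1 : ‖qf m Gr HO p s₀ C₀ b x‖ ≤ L x * (sob m).Γ (dc m p s₀ C₀) (dc m p s₀ C₀) x := by
    unfold qf
    calc ‖⟪HO b x (Gr (dc m p s₀ C₀) x), Gr (dc m p s₀ C₀) x⟫_ℝ‖
        ≤ ‖HO b x (Gr (dc m p s₀ C₀) x)‖ * ‖Gr (dc m p s₀ C₀) x‖ := norm_inner_le_norm _ _
      _ ≤ (‖HO b x‖ * ‖Gr (dc m p s₀ C₀) x‖) * ‖Gr (dc m p s₀ C₀) x‖ := by
          gcongr; exact (HO b x).le_opNorm _
      _ = ‖HO b x‖ * ‖Gr (dc m p s₀ C₀) x‖ ^ 2 := by ring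
      _ ≤ L x * ‖Gr (dc m p s₀ C₀) x‖ ^ 2 := by gcongr
      _ = _ := by rw [a2]
  refine b1.trans ?_
  by_cases hx : dist p x < r1 s₀ C₀
  · rw [indicator_of_mem (by rwa [Metric.mem_ball, dist_comm]), abs_one, mul_one]
    have b2 : 0 ≤ (sob m).Γ (dc m p s₀ C₀) (dc m p s₀ C₀) x := by rw [← a2]; positivity
    calc L x * (sob m).Γ (dc m p s₀ C₀) (dc m p s₀ C₀) x
        ≤ |L x| * (sob m).Γ (dc m p s₀ C₀) (dc m p s₀ C₀) x := by gcongr; exact le_abs_self _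
      _ ≤ |L x| * 1 := by gcongr
      _ = |L x| := mul_one _
  · have h2 : (sob m).Γ (dc m p s₀ C₀) (dc m p s₀ C₀) x = 0 := a4 (not_lt.1 hx)
    rw [h2, mul_zero]; positivity

/-- **C5**: from the integrated form (all final densities) to the pointwise form. -/
theorem second_of_int (hyp : CHyp M m K N P p s₀ C₀) (hG : IsGrad (sob m) Gr)
    (hGm : ∀ f ∈ (sob m).W, StronglyMeasurable (Gr f)) (hH : IsHess (sob m) Gr HO)
    (hF : RFlow m K N p s₀ C₀ Y)
    (h5 : ∀ b ∈ (sob m).TestI, ∀ l ∈ (sob m).TestI, ∀ a ∈ Ioc (0 : ℝ) 1, ∀ c ∈ Icc a 1,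
      (∫ x, (Real.exp (l x) - 1) * (sob m).Γ b (zc m p s₀ C₀ c) (Y c x) ∂m)
        - (∫ x, (Real.exp (l x) - 1) * (sob m).Γ b (zc m p s₀ C₀ a) (Y a x) ∂m)
      = ∫ τ in a..c, ∫ x, (Real.exp (l x) - 1) * ⟪HO b (Y τ x) (Gr (zc m p s₀ C₀ τ) (Y τ x)),
          Gr (zc m p s₀ C₀ τ) (Y τ x)⟫_ℝ ∂m) : Second m Gr HO p s₀ C₀ Y := by
  have hCg := std_gamma hyp.std
  have hC := hCg.toIsDir
  have hB := std_bei hyp.std
  have hfin := hyp.std.hfin
  have hN := hyp.std.hN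
  have hs := hyp.hs
  have hC₀ := hyp.hC0
  haveI : SigmaFinite m := sigmaFinite_of_balls' hfin p
  intro b hb a ha c hc
  have hc' : c ∈ Ioc (0 : ℝ) 1 := ⟨ha.1.trans_le hc.1, hc.2⟩
  have hcI : c ∈ Icc (0 : ℝ) 1 := ⟨hc'.1.le, hc'.2⟩
  have haI : a ∈ Icc (0 : ℝ) 1 := ⟨ha.1.le, ha.2⟩
  have hbW : b ∈ (sob m).W := (hCg.test_A hb.1).1
  have hd := dc_mem_A hfin p s₀ C₀
  have hz3 := cz_flow hs hC₀ hF
  set q : M → ℝ := qf m Gr HO p s₀ C₀ b with hq
  set B : M → ℝ := fun y => (sob m).Γ b (dc m p s₀ C₀) y with hBdef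
  have hqi : Integrable q m := qf_int hC hG hGm hH hfin hb.1
  have hBi : Integrable B m := int_of_mem (hC.Γ_mem1 hbW hd.1)
  -- the integrability in space-time
  have hQ : Integrable (fun z : ℝ × M => q (Y z.1 z.2)) ((volume.restrict (Ioc a c)).prod m) :=
    flow_int hF hN ha.1 hc'.2 hqi
  have hspm := sp_meas p s₀ C₀
  -- integral over time
  set J : M → ℝ := fun x => ∫ τ in Ioc a c, q (Y τ x) with hJ
  have hJi : Integrable J m := hQ.integral_prod_right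
  set D : M → ℝ := fun x => sp p s₀ C₀ x * B (Y c x) - sp p s₀ C₀ x * B (Y a x)
    - sp p s₀ C₀ x ^ 2 * J x with hD
  have hi1 : ∀ {τ : ℝ}, τ ∈ Ioc (0 : ℝ) 1 → Integrable (fun x => sp p s₀ C₀ x * B (Y τ x)) m :=
    fun {τ} hτ => (flow_int_t hF hτ hBi).bdd_mul (c := r1 s₀ C₀) hspm.aestronglyMeasurable
      (Eventually.of_forall fun x => by rw [Real.norm_eq_abs]; exact sp_bd hs x)
  have hi2 : Integrable (fun x => sp p s₀ C₀ x ^ 2 * J x) m :=
    hJi.bdd_mul (c := r1 s₀ C₀ ^ 2) (hspm.pow_const 2).aestronglyMeasurable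
      (Eventually.of_forall fun x => by
        rw [Real.norm_eq_abs, abs_pow]
        have := sp_bd (p := p) (C₀ := C₀) hs x
        gcongr)
  have hDi : Integrable D m := ((hi1 hc').sub (hi1 ha)).sub hi2
  have hD0 : ∀ᵐ x ∂m, D x = 0 := by
    refine loc_L1 hCg hB hyp.heat hDi fun l hl => ?_
    obtain ⟨cl, hcl⟩ := mem_top_iff.1 (hCg.test_A hl.1).2
    have hel : ∀ᵐ x ∂m, ‖Real.exp (l x) - 1‖ ≤ Real.exp |cl| + 1 := by
      filter_upwards [hcl] with x hx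
      rw [Real.norm_eq_abs]
      refine (abs_sub _ _).trans ?_
      rw [abs_of_pos (Real.exp_pos _), abs_one]
      gcongr
      exact (le_abs_self _).trans (hx.trans (le_abs_self _))
    have hem : AEStronglyMeasurable (fun x => Real.exp (l x) - 1) m :=
      (Real.continuous_exp.comp_aestronglyMeasurable l.aestronglyMeasurable).sub
        aestronglyMeasurable_const
    have h6 := h5 b hb l hl a ha c hc
    -- rewrite the boundary terms
    have e1 : ∀ {τ : ℝ}, τ ∈ Ioc (0 : ℝ) 1 →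
        ∫ x, (Real.exp (l x) - 1) * (sob m).Γ b (zc m p s₀ C₀ τ) (Y τ x) ∂m
          = ∫ x, (Real.exp (l x) - 1) * (sp p s₀ C₀ x * B (Y τ x)) ∂m := by
      intro τ hτ
      have hτI : τ ∈ Icc (0 : ℝ) 1 := ⟨hτ.1.le, hτ.2⟩
      refine integral_congr_ae ?_
      filter_upwards [flow_ae hF hτ (Γ_zc (p := p) hC hfin hs hC₀ hτI hbW), hz3] with x a1 a2
      rw [a1]
      rcases lt_or_ge (dist p x) (r1 s₀ C₀) with h | h
      · rw [a2.1 h τ hτI]; unfold sp; rw [if_pos h]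
      · rw [a2.2 h τ hτI]; unfold sp; rw [if_neg (not_lt.2 h)]
    have e2 : ∀ τ ∈ Ioc a c, ∫ x, (Real.exp (l x) - 1) *
        ⟪HO b (Y τ x) (Gr (zc m p s₀ C₀ τ) (Y τ x)), Gr (zc m p s₀ C₀ τ) (Y τ x)⟫_ℝ ∂m
          = ∫ x, (Real.exp (l x) - 1) * (sp p s₀ C₀ x ^ 2 * q (Y τ x)) ∂m := by
      intro τ hτ
      have hτ' : τ ∈ Ioc (0 : ℝ) 1 := ⟨ha.1.trans hτ.1, hτ.2.trans hc'.2⟩
      have hτI : τ ∈ Icc (0 : ℝ) 1 := ⟨hτ'.1.le, hτ'.2⟩
      refine integral_congr_ae ?_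
      filter_upwards [flow_ae hF hτ' (Gr_zc (p := p) hG hC hfin hs hC₀ hτI), hz3] with x a1 a2
      rw [a1, map_smul, inner_smul_left, inner_smul_right]
      have a3 : cz p s₀ C₀ τ (Y τ x) = sp p s₀ C₀ x := by
        rcases lt_or_ge (dist p x) (r1 s₀ C₀) with h | h
        · rw [a2.1 h τ hτI]; unfold sp; rw [if_pos h]
        · rw [a2.2 h τ hτI]; unfold sp; rw [if_neg (not_lt.2 h)]
      rw [a3]
      have a4 : ⟪HO b (Y τ x) (Gr (dc m p s₀ C₀) (Y τ x)), Gr (dc m p s₀ C₀) (Y τ x)⟫_ℝ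
          = q (Y τ x) := rfl
      rw [a4]
      simp only [conj_trivial]
      ring
    rw [e1 hc', e1 ha, intervalIntegral.integral_of_le hc.1, setIntegral_congr_fun measurableSet_Ioc e2]
      at h6
    -- Fubini
    have e3 : ∫ τ in Ioc a c, ∫ x, (Real.exp (l x) - 1) * (sp p s₀ C₀ x ^ 2 * q (Y τ x)) ∂m
        = ∫ x, (Real.exp (l x) - 1) * (sp p s₀ C₀ x ^ 2 * J x) ∂m := by
      have hw : AEStronglyMeasurable (fun x => (Real.exp (l x) - 1) * sp p s₀ C₀ x ^ 2) m :=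
        hem.mul (hspm.pow_const 2).aestronglyMeasurable
      have hint : Integrable (fun z : ℝ × M => ((Real.exp (l z.2) - 1) * sp p s₀ C₀ z.2 ^ 2)
          * q (Y z.1 z.2)) ((volume.restrict (Ioc a c)).prod m) := by
        refine hQ.bdd_mul (c := (Real.exp |cl| + 1) * r1 s₀ C₀ ^ 2) hw.comp_snd ?_
        have h7 : ∀ᵐ x ∂m, ‖(Real.exp (l x) - 1) * sp p s₀ C₀ x ^ 2‖
            ≤ (Real.exp |cl| + 1) * r1 s₀ C₀ ^ 2 := by
          filter_upwards [hel] with x hx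
          rw [norm_mul, norm_pow, Real.norm_eq_abs (sp p s₀ C₀ x)]
          have := sp_bd (p := p) (C₀ := C₀) hs x
          gcongr
        exact Measure.quasiMeasurePreserving_snd.ae h7
      have h8 := integral_integral_swap (f := fun (τ : ℝ) (x : M) =>
        ((Real.exp (l x) - 1) * sp p s₀ C₀ x ^ 2) * q (Y τ x)) (μ := volume.restrict (Ioc a c))
        (ν := m) hint
      have h9 : ∀ τ : ℝ, ∫ x, (Real.exp (l x) - 1) * (sp p s₀ C₀ x ^ 2 * q (Y τ x)) ∂m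
          = ∫ x, ((Real.exp (l x) - 1) * sp p s₀ C₀ x ^ 2) * q (Y τ x) ∂m := by
        intro τ; congr 1; funext x; ring
      simp_rw [h9]
      rw [h8]
      refine integral_congr_ae (Eventually.of_forall fun x => ?_)
      simp only
      rw [integral_const_mul]
      ring
    rw [e3] at h6
    have i1 := fun {τ : ℝ} (hτ : τ ∈ Ioc (0 : ℝ) 1) => (hi1 hτ).bdd_mul (c := Real.exp |cl| + 1) hem hel
    have i2 := hi2.bdd_mul (c := Real.exp |cl| + 1) hem hel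
    have e4 : ∫ x, (Real.exp (l x) - 1) * D x ∂m
        = ∫ x, (Real.exp (l x) - 1) * (sp p s₀ C₀ x * B (Y c x)) ∂m
          - ∫ x, (Real.exp (l x) - 1) * (sp p s₀ C₀ x * B (Y a x)) ∂m
          - ∫ x, (Real.exp (l x) - 1) * (sp p s₀ C₀ x ^ 2 * J x) ∂m := by
      have i3 : Integrable (fun x => (Real.exp (l x) - 1) * (sp p s₀ C₀ x * B (Y c x))
          - (Real.exp (l x) - 1) * (sp p s₀ C₀ x * B (Y a x))) m := (i1 hc').sub (i1 ha)
      rw [← integral_sub (i1 hc') (i1 ha), ← integral_sub i3 i2]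
      refine integral_congr_ae (Eventually.of_forall fun x => ?_)
      simp only [hD]
      ring
    rw [e4]
    linarith
  have hp : ∀ᵐ x ∂m, x ≠ p := by
    have h7 : m {p} = 0 := hyp.atom
    rw [measure_eq_zero_iff_ae_notMem] at h7
    filter_upwards [h7] with x hx
    simpa using hx
  have hQx : ∀ᵐ x ∂m, Integrable (fun τ => q (Y τ x)) (volume.restrict (Ioc a c)) :=
    hQ.prod_left_ae
  filter_upwards [hD0, hp, hQx] with x a1 a2 a3 hx
  have hsp : sp p s₀ C₀ x = spd1 p s₀ x := by unfold sp; rw [if_pos hx]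
  have hpos : 0 < spd1 p s₀ x := by
    unfold spd1
    have : 0 < dist p x := dist_pos.2 (Ne.symm a2)
    positivity
  refine ⟨?_, ?_⟩
  · rw [intervalIntegrable_iff_integrableOn_Ioc_of_le hc.1]
    exact a3
  · rw [intervalIntegral.integral_of_le hc.1]
    have a4 : spd1 p s₀ x * (B (Y c x) - B (Y a x) - spd1 p s₀ x * J x) = 0 := by
      rw [← hsp]
      simp only [hD] at a1
      linear_combination a1
    have a5 := (mul_eq_zero.1 a4).resolve_left hpos.ne'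
    have a6 : B (Y c x) - B (Y a x) = spd1 p s₀ x * J x := by linarith
    exact a6

end second

end Vale.Agent.P233.H183
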