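import Vale.Agent.P233.Gig.IfC
import Vale.Agent.P233.H183.Unit

/-! P233: the gradients of the radial potentials `zc m p s₀ C₀ t` in terms of the fixed field
`∇d_p`, their continuity in time, and their values along the radial flow. -/

set_option linter.all false

open MeasureTheory Filter Topology Set
open scoped ENNReal NNReal InnerProductSpace

universe u

namespace Vale.Agent.P233.H183

open Vale.Agent.P233.PC (zc dc r1 spd1 RFlow)

variable {M : Type u} [MetricSpace M] [MeasurableSpace M] {m : Measure M}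

/-- `∇z_t = cz_t ∇d_p` -/
noncomputable def cz (p : M) (s₀ C₀ t : ℝ) (x : M) : ℝ :=
  open Classical in if dist p x ^ 2 < 2 * C₀ * (t + s₀) then dist p x / (t + s₀) else 0

variable {p : M} {s₀ C₀ : ℝ} {t : ℝ}

theorem cz_nonneg (hs : 0 < s₀) (ht : t ∈ Icc (0 : ℝ) 1) (x : M) : 0 ≤ cz p s₀ C₀ t x := by
  unfold cz
  have := ht.1
  split_ifs <;> positivity

theorem cz_of_lt {x : M} (h : dist p x ^ 2 < 2 * C₀ * (t + s₀)) :
    cz p s₀ C₀ t x = dist p x / (t + s₀) := by unfold cz; rw [if_pos h]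

theorem cz_of_ge {x : M} (h : 2 * C₀ * (t + s₀) ≤ dist p x ^ 2) :
    cz p s₀ C₀ t x = 0 := by unfold cz; rw [if_neg (not_lt.2 h)]

theorem r1_nonneg : 0 ≤ r1 s₀ C₀ := Real.sqrt_nonneg _

theorem r1_sq (hs : 0 < s₀) (hC : 0 < C₀) : r1 s₀ C₀ ^ 2 = 2 * C₀ * (1 + s₀) := by
  unfold r1
  exact Real.sq_sqrt (by positivity)

theorem cz_le (hs : 0 < s₀) (hC : 0 < C₀) (ht : t ∈ Icc (0 : ℝ) 1) (x : M) :
    cz p s₀ C₀ t x ≤ r1 s₀ C₀ / s₀ := by
  have h0 := ht.1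
  have h1 := ht.2
  have hr := r1_nonneg (s₀ := s₀) (C₀ := C₀)
  by_cases h : dist p x ^ 2 < 2 * C₀ * (t + s₀)
  · rw [cz_of_lt h]
    have h2 : dist p x ≤ r1 s₀ C₀ := by
      refine abs_le_of_sq_le_sq' ?_ hr |>.2
      rw [r1_sq hs hC]
      refine h.le.trans ?_
      gcongr
    gcongr
    linarith
  · rw [cz_of_ge (not_lt.1 h)]
    positivity

theorem cz_zero (hs : 0 < s₀) (hC : 0 < C₀) (ht : t ∈ Icc (0 : ℝ) 1) {x : M}
    (hx : r1 s₀ C₀ ≤ dist p x) : cz p s₀ C₀ t x = 0 := by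
  refine cz_of_ge ?_
  have hr := r1_nonneg (s₀ := s₀) (C₀ := C₀)
  calc 2 * C₀ * (t + s₀) ≤ 2 * C₀ * (1 + s₀) := by have := ht.2; gcongr
    _ = r1 s₀ C₀ ^ 2 := (r1_sq hs hC).symm
    _ ≤ dist p x ^ 2 := by gcongr

/-- continuity in time off the spheres -/
theorem cz_tendsto (hs : 0 < s₀) (hC : 0 < C₀) (ht : t ∈ Icc (0 : ℝ) 1) {x : M}
    (hx : dist p x ≠ √(2 * C₀ * (t + s₀))) :
    Tendsto (fun τ => cz p s₀ C₀ τ x) (𝓝[Icc 0 1] t) (𝓝 (cz p s₀ C₀ t x)) := by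
  have h0 := ht.1
  have hpos : 0 < t + s₀ := by linarith
  have hne : dist p x ^ 2 ≠ 2 * C₀ * (t + s₀) := by
    intro h
    apply hx
    rw [← h, Real.sqrt_sq dist_nonneg]
  have hcont : Tendsto (fun τ : ℝ => 2 * C₀ * (τ + s₀)) (𝓝[Icc 0 1] t) (𝓝 (2 * C₀ * (t + s₀))) := by
    have : Continuous fun τ : ℝ => 2 * C₀ * (τ + s₀) := by fun_prop
    exact (this.tendsto t).mono_left nhdsWithin_le_nhds
  rcases lt_or_gt_of_ne hne with h | h
  · rw [cz_of_lt h]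
    have h1 : ∀ᶠ τ in 𝓝[Icc 0 1] t, dist p x ^ 2 < 2 * C₀ * (τ + s₀) :=
      hcont.eventually (lt_mem_nhds h)
    have h2 : Tendsto (fun τ : ℝ => dist p x / (τ + s₀)) (𝓝[Icc 0 1] t) (𝓝 (dist p x / (t + s₀))) := by
      refine Tendsto.div tendsto_const_nhds ?_ hpos.ne'
      exact ((continuous_id.add continuous_const).tendsto t).mono_left nhdsWithin_le_nhds
    refine h2.congr' ?_
    filter_upwards [h1] with τ hτ
    rw [cz_of_lt hτ]
  · rw [cz_of_ge h.le]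
    have h1 : ∀ᶠ τ in 𝓝[Icc 0 1] t, 2 * C₀ * (τ + s₀) < dist p x ^ 2 :=
      hcont.eventually (gt_mem_nhds h)
    refine tendsto_const_nhds.congr' ?_
    filter_upwards [h1] with τ hτ
    rw [cz_of_ge hτ.le]

/-- the speed along the flow, Z3 -/
theorem cz_flow {K N : ℝ} {Y : ℝ → M → M} (hs : 0 < s₀) (hC : 0 < C₀)
    (hF : RFlow m K N p s₀ C₀ Y) :
    ∀ᵐ x ∂m, (dist p x < r1 s₀ C₀ → ∀ t ∈ Icc (0 : ℝ) 1, cz p s₀ C₀ t (Y t x) = spd1 p s₀ x) ∧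
      (r1 s₀ C₀ ≤ dist p x → ∀ t ∈ Icc (0 : ℝ) 1, cz p s₀ C₀ t (Y t x) = 0) := by
  filter_upwards [hF.rad] with x hx
  refine ⟨fun h t ht => ?_, fun h t ht => ?_⟩
  · have h0 := ht.1
    have hpos : 0 < t + s₀ := by linarith
    have h1 := hx h t ht
    have h2 : dist p (Y t x) ^ 2 < 2 * C₀ * (t + s₀) := by
      rw [h1]
      unfold spd1
      have h3 : dist p x ^ 2 < 2 * C₀ * (1 + s₀) := by
        rw [← r1_sq hs hC]
        have := dist_nonneg (x := p) (y := x)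
        gcongr
      have h4 : 0 < 1 + s₀ := by linarith
      have h5 : (t + s₀) * (dist p x / (1 + s₀)) ≤ (t + s₀) * (dist p x / (1 + s₀)) := le_rfl
      have h6 : ((t + s₀) * (dist p x / (1 + s₀))) ^ 2
          = (t + s₀) * ((t + s₀) / (1 + s₀)) * (dist p x ^ 2 / (1 + s₀)) := by field_simp
      rw [h6]
      have h7 : (t + s₀) / (1 + s₀) ≤ 1 := by
        rw [div_le_one h4]; linarith [ht.2]
      have h8 : dist p x ^ 2 / (1 + s₀) < 2 * C₀ := by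
        rw [div_lt_iff₀ h4]; exact h3
      have h9 : 0 ≤ dist p x ^ 2 / (1 + s₀) := by positivity
      have h10 : (t + s₀) * ((t + s₀) / (1 + s₀)) ≤ (t + s₀) * 1 := by gcongr
      calc (t + s₀) * ((t + s₀) / (1 + s₀)) * (dist p x ^ 2 / (1 + s₀))
          ≤ (t + s₀) * 1 * (dist p x ^ 2 / (1 + s₀)) := by gcongr
        _ < (t + s₀) * 1 * (2 * C₀) := by gcongr
        _ = 2 * C₀ * (t + s₀) := by ring
    rw [cz_of_lt h2, h1]
    field_simp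
  · rw [hF.off x h t]
    exact cz_zero hs hC ht h

variable [BorelSpace M]

theorem cz_measurable (p : M) (s₀ C₀ : ℝ) : Measurable fun z : ℝ × M => cz p s₀ C₀ z.1 z.2 := by
  have h1 : Measurable fun z : ℝ × M => dist p z.2 :=
    (continuous_const.dist continuous_id : Continuous fun x : M => dist p x).measurable.comp
      measurable_snd
  have h2 : Measurable fun z : ℝ × M => z.1 + s₀ := measurable_fst.add_const _
  unfold cz
  exact Measurable.ite (measurableSet_lt (h1.pow_const 2) (h2.const_mul _)) (h1.div h2)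
    measurable_const

theorem dc_mem_A (hfin : ∀ (x : M) (r : ℝ), m (Metric.ball x r) < ∞) (p : M) (s₀ C₀ : ℝ) :
    dc m p s₀ C₀ ∈ (sob m).A := dtr_mem_A hfin p _

theorem zc_mem_A (hC : IsDir (sob m)) (hfin : ∀ (x : M) (r : ℝ), m (Metric.ball x r) < ∞)
    (hs : 0 < s₀) (hC₀ : 0 < C₀) (ht : t ∈ Icc (0 : ℝ) 1) : zc m p s₀ C₀ t ∈ (sob m).A := by
  have h0 := ht.1
  refine zr_mem_A hC hfin (by linarith) (Real.sqrt_nonneg (2 * C₀ * (t + s₀))) (Real.sq_sqrt ?_)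
  positivity

/-- Z1 -/
theorem Γ_zc (hC : IsDir (sob m)) (hfin : ∀ (x : M) (r : ℝ), m (Metric.ball x r) < ∞)
    (hs : 0 < s₀) (hC₀ : 0 < C₀) (ht : t ∈ Icc (0 : ℝ) 1) {f : M →ₘ[m] ℝ} (hf : f ∈ (sob m).W) :
    ∀ᵐ x ∂m, (sob m).Γ f (zc m p s₀ C₀ t) x = cz p s₀ C₀ t x * (sob m).Γ f (dc m p s₀ C₀) x := by
  have h0 := ht.1
  have hpos : 0 < t + s₀ := by linarith
  have hnn : 0 ≤ 2 * C₀ * (t + s₀) := by positivity
  set ρ : ℝ := √(2 * C₀ * (t + s₀)) with hρdef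
  have hρ : 0 ≤ ρ := Real.sqrt_nonneg _
  have hρ2 : ρ ^ 2 = 2 * C₀ * (t + s₀) := Real.sq_sqrt hnn
  have hz := zc_mem_A (p := p) hC hfin hs hC₀ ht
  have hd := dc_mem_A hfin p s₀ C₀
  have e1 := Γ_zr (m := m) hC hfin (p := p) hpos hρ hρ2 hf
  have e2 : (sob m).Γ f (zc m p s₀ C₀ t) = (sob m).Γ (zc m p s₀ C₀ t) f := hC.symm _ hf _ hz.1
  have e3 : (sob m).Γ f (dc m p s₀ C₀) = (sob m).Γ (dc m p s₀ C₀) f := hC.symm _ hf _ hd.1
  have hρr : ρ ≤ r1 s₀ C₀ := by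
    unfold r1
    refine Real.sqrt_le_sqrt ?_
    have := ht.2
    gcongr
  rw [e2, e3]
  filter_upwards [e1, Γ_dtr_radius hC hfin p ρ (r1 s₀ C₀) hf, Γ_dtr_zero hC hfin p ρ hf]
    with x h1 h2 h3
  have h1' : (sob m).Γ (zc m p s₀ C₀ t) f x
      = min (dist p x) ρ / (t + s₀) * (sob m).Γ (cl m (dtr p ρ)) f x := h1
  rw [h1']
  rcases lt_or_ge (dist p x) ρ with h | h
  · have h5 : dist p x ^ 2 < 2 * C₀ * (t + s₀) := by
      rw [← hρ2]
      have := dist_nonneg (x := p) (y := x)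
      gcongr
    rw [cz_of_lt h5, min_eq_left h.le, h2 h (h.trans_le hρr)]
    rfl
  · have h5 : 2 * C₀ * (t + s₀) ≤ dist p x ^ 2 := by
      rw [← hρ2]; gcongr
    rw [cz_of_ge h5, h3 h, mul_zero, zero_mul]

/-- Z1 for the gradient fields -/
theorem Gr_zc {E : Type*} [NormedAddCommGroup E] [InnerProductSpace ℝ E]
    {Gr : (M →ₘ[m] ℝ) → M → E} (hG : IsGrad (sob m) Gr) (hC : IsDir (sob m))
    (hfin : ∀ (x : M) (r : ℝ), m (Metric.ball x r) < ∞)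
    (hs : 0 < s₀) (hC₀ : 0 < C₀) (ht : t ∈ Icc (0 : ℝ) 1) :
    ∀ᵐ x ∂m, Gr (zc m p s₀ C₀ t) x = cz p s₀ C₀ t x • Gr (dc m p s₀ C₀) x := by
  have hz := zc_mem_A (p := p) hC hfin hs hC₀ ht
  have hd := dc_mem_A hfin p s₀ C₀
  filter_upwards [hG.inner _ hz.1 _ hz.1, hG.inner _ hz.1 _ hd.1, hG.inner _ hd.1 _ hd.1,
    Γ_zc (p := p) hC hfin hs hC₀ ht hz.1, Γ_zc (p := p) hC hfin hs hC₀ ht hd.1] with x a1 a2 a3 a4 a5
  rw [hC.symm _ hd.1 _ hz.1] at a5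
  rw [real_inner_self_eq_norm_sq] at a1 a3
  rw [← sub_eq_zero, ← norm_eq_zero, ← sq_eq_zero_iff, norm_sub_sq_real, inner_smul_right, norm_smul,
    mul_pow, a1, a2, a3, a4, a5, Real.norm_eq_abs, sq_abs]
  ring

/-- the energy of the difference of two radial potentials -/
theorem Γ_zc_sub (hC : IsDir (sob m)) (hfin : ∀ (x : M) (r : ℝ), m (Metric.ball x r) < ∞)
    (hs : 0 < s₀) (hC₀ : 0 < C₀) (ht : t ∈ Icc (0 : ℝ) 1) {τ : ℝ} (hτ : τ ∈ Icc (0 : ℝ) 1) :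
    ∀ᵐ x ∂m, (sob m).Γ (zc m p s₀ C₀ τ - zc m p s₀ C₀ t) (zc m p s₀ C₀ τ - zc m p s₀ C₀ t) x
      = (cz p s₀ C₀ τ x - cz p s₀ C₀ t x) ^ 2 * (sob m).Γ (dc m p s₀ C₀) (dc m p s₀ C₀) x := by
  have hz := zc_mem_A (p := p) hC hfin hs hC₀ ht
  have hz' := zc_mem_A (p := p) hC hfin hs hC₀ hτ
  have hd := dc_mem_A hfin p s₀ C₀
  have hsub := hC.sub_mem hz'.1 hz.1
  have e1 : (sob m).Γ (zc m p s₀ C₀ τ - zc m p s₀ C₀ t) (zc m p s₀ C₀ τ - zc m p s₀ C₀ t)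
      = (sob m).Γ (zc m p s₀ C₀ τ - zc m p s₀ C₀ t) (zc m p s₀ C₀ τ)
        - (sob m).Γ (zc m p s₀ C₀ τ - zc m p s₀ C₀ t) (zc m p s₀ C₀ t) := by
    rw [hC.Γ_sub_right hsub hz'.1 hz.1]
  have e2 : (sob m).Γ (zc m p s₀ C₀ τ - zc m p s₀ C₀ t) (dc m p s₀ C₀)
      = (sob m).Γ (dc m p s₀ C₀) (zc m p s₀ C₀ τ) - (sob m).Γ (dc m p s₀ C₀) (zc m p s₀ C₀ t) := by
    rw [hC.symm _ hsub _ hd.1, hC.Γ_sub_right hd.1 hz'.1 hz.1]
  filter_upwards [sub_ae ((sob m).Γ (zc m p s₀ C₀ τ - zc m p s₀ C₀ t) (zc m p s₀ C₀ τ))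
      ((sob m).Γ (zc m p s₀ C₀ τ - zc m p s₀ C₀ t) (zc m p s₀ C₀ t)),
    sub_ae ((sob m).Γ (dc m p s₀ C₀) (zc m p s₀ C₀ τ)) ((sob m).Γ (dc m p s₀ C₀) (zc m p s₀ C₀ t)),
    Γ_zc (p := p) hC hfin hs hC₀ hτ hsub, Γ_zc (p := p) hC hfin hs hC₀ ht hsub,
    Γ_zc (p := p) hC hfin hs hC₀ hτ hd.1, Γ_zc (p := p) hC hfin hs hC₀ ht hd.1]
    with x a1 a2 a3 a4 a5 a6
  rw [e1, a1, a3, a4, e2, a2, a5, a6]
  ring

theorem zr_abs_le (hs : 0 < s₀) (hC₀ : 0 < C₀) (ht : t ∈ Icc (0 : ℝ) 1) (x : M) :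
    |zr p s₀ C₀ t x| ≤ C₀ := by
  have h0 := ht.1
  have hpos : 0 < t + s₀ := by linarith
  unfold zr
  have h1 : 0 ≤ dist p x ^ 2 / (2 * (t + s₀)) := by positivity
  rw [abs_le]
  constructor
  · exact le_min (by linarith) (by linarith)
  · exact (min_le_right _ _).trans hC₀.le

theorem zr_far (hs : 0 < s₀) (hC₀ : 0 < C₀) (ht : t ∈ Icc (0 : ℝ) 1) {x : M}
    (hx : r1 s₀ C₀ ≤ dist p x) : zr p s₀ C₀ t x = 0 := by
  have h0 := ht.1
  have hpos : 0 < t + s₀ := by linarith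
  unfold zr
  refine min_eq_right ?_
  rw [sub_nonneg, le_div_iff₀ (by positivity)]
  have hr := r1_nonneg (s₀ := s₀) (C₀ := C₀)
  calc C₀ * (2 * (t + s₀)) ≤ C₀ * (2 * (1 + s₀)) := by have := ht.2; gcongr
    _ = r1 s₀ C₀ ^ 2 := by rw [r1_sq hs hC₀]; ring
    _ ≤ dist p x ^ 2 := by gcongr

theorem zr_continuous (hs : 0 < s₀) (ht : t ∈ Icc (0 : ℝ) 1) : Continuous (zr p s₀ C₀ t) := by
  unfold zr
  fun_prop

theorem zc_ae (hs : 0 < s₀) (ht : t ∈ Icc (0 : ℝ) 1) : ⇑(zc m p s₀ C₀ t) =ᵐ[m] zr p s₀ C₀ t :=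
  cl_cont (zr_continuous hs ht)

theorem zr_tendsto (hs : 0 < s₀) (ht : t ∈ Icc (0 : ℝ) 1) (x : M) :
    Tendsto (fun τ => zr p s₀ C₀ τ x) (𝓝[Icc 0 1] t) (𝓝 (zr p s₀ C₀ t x)) := by
  have h0 := ht.1
  have hpos : 0 < t + s₀ := by linarith
  have h1 : ContinuousAt (fun τ : ℝ => zr p s₀ C₀ τ x) t := by
    unfold zr
    have h2 : ContinuousAt (fun τ : ℝ => dist p x ^ 2 / (2 * (τ + s₀)) - C₀) t :=
      (ContinuousAt.div continuousAt_const (by fun_prop) (by positivity)).sub continuousAt_const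
    exact Filter.Tendsto.min h2 continuousAt_const
  exact h1.tendsto.mono_left nhdsWithin_le_nhds

/-- Z2: the radial potentials are continuous in `W` -/
theorem zc_cont [SecondCountableTopology M] (hC : IsDir (sob m))
    (hfin : ∀ (x : M) (r : ℝ), m (Metric.ball x r) < ∞)
    (hs : 0 < s₀) (hC₀ : 0 < C₀) (ht : t ∈ Icc (0 : ℝ) 1) :
    Tendsto (fun τ => (sob m).nrm2 (zc m p s₀ C₀ τ - zc m p s₀ C₀ t)) (𝓝[Icc 0 1] t) (𝓝 0) := by
  have hd := dc_mem_A hfin p s₀ C₀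
  have hball : MeasurableSet (Metric.ball p (r1 s₀ C₀)) := Metric.isOpen_ball.measurableSet
  have hind : Integrable ((Metric.ball p (r1 s₀ C₀)).indicator fun _ : M => (1 : ℝ)) m :=
    (integrableOn_const (hfin p _).ne).integrable_indicator hball
  have hmem : ∀ᶠ τ in 𝓝[Icc 0 1] t, τ ∈ Icc (0 : ℝ) 1 := self_mem_nhdsWithin
  have hL : Tendsto (fun τ => I ((zc m p s₀ C₀ τ - zc m p s₀ C₀ t) ^ 2)) (𝓝[Icc 0 1] t) (𝓝 0) := by
    have h00 : ∫ x : M, (0 : ℝ) ∂m = 0 := by simp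
    have h1 : ∀ᶠ τ in 𝓝[Icc 0 1] t, ∫ x, (zr p s₀ C₀ τ x - zr p s₀ C₀ t x) ^ 2 ∂m
        = I ((zc m p s₀ C₀ τ - zc m p s₀ C₀ t) ^ 2) := by
      filter_upwards [hmem] with τ hτ
      refine integral_congr_ae ?_
      filter_upwards [sq_ae (zc m p s₀ C₀ τ - zc m p s₀ C₀ t),
        sub_ae (zc m p s₀ C₀ τ) (zc m p s₀ C₀ t), zc_ae (m := m) (p := p) (C₀ := C₀) hs hτ,
        zc_ae (m := m) (p := p) (C₀ := C₀) hs ht] with x a1 a2 a3 a4
      rw [a1, a2, a3, a4]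
    refine Tendsto.congr' h1 ?_
    suffices h : Tendsto (fun τ => ∫ x, (zr p s₀ C₀ τ x - zr p s₀ C₀ t x) ^ 2 ∂m) (𝓝[Icc 0 1] t)
      (𝓝 (∫ x : M, (0 : ℝ) ∂m)) by rwa [h00] at h
    refine tendsto_integral_filter_of_dominated_convergence
      (fun x => (2 * C₀) ^ 2 * (Metric.ball p (r1 s₀ C₀)).indicator (fun _ => (1 : ℝ)) x) ?_ ?_
      (hind.const_mul _) ?_
    · filter_upwards [hmem] with τ hτ
      exact (((zr_continuous hs hτ).sub (zr_continuous hs ht)).pow 2).aestronglyMeasurable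
    · filter_upwards [hmem] with τ hτ
      filter_upwards with x
      rw [Real.norm_eq_abs, abs_pow]
      by_cases hx : dist p x < r1 s₀ C₀
      · rw [indicator_of_mem (by rwa [Metric.mem_ball, dist_comm]), mul_one]
        have h2 := zr_abs_le (p := p) hs hC₀ hτ x
        have h3 := zr_abs_le (p := p) hs hC₀ ht x
        have h4 : |zr p s₀ C₀ τ x - zr p s₀ C₀ t x| ≤ 2 * C₀ := by
          have := abs_sub (zr p s₀ C₀ τ x) (zr p s₀ C₀ t x)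
          linarith
        gcongr
      · have hx' := not_lt.1 hx
        rw [zr_far hs hC₀ hτ hx', zr_far hs hC₀ ht hx',
          indicator_of_notMem (by rwa [Metric.mem_ball, dist_comm])]
        simp
    · filter_upwards with x
      have h2 := (zr_tendsto (p := p) (C₀ := C₀) hs ht x).sub_const (zr p s₀ C₀ t x)
      rw [sub_self] at h2
      simpa using h2.pow 2
  have hE : Tendsto (fun τ => I ((sob m).Γ (zc m p s₀ C₀ τ - zc m p s₀ C₀ t)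
      (zc m p s₀ C₀ τ - zc m p s₀ C₀ t))) (𝓝[Icc 0 1] t) (𝓝 0) := by
    have h00 : ∫ x : M, (0 : ℝ) ∂m = 0 := by simp
    have h1 : ∀ᶠ τ in 𝓝[Icc 0 1] t, ∫ x, (cz p s₀ C₀ τ x - cz p s₀ C₀ t x) ^ 2
          * (sob m).Γ (dc m p s₀ C₀) (dc m p s₀ C₀) x ∂m
        = I ((sob m).Γ (zc m p s₀ C₀ τ - zc m p s₀ C₀ t) (zc m p s₀ C₀ τ - zc m p s₀ C₀ t)) := by
      filter_upwards [hmem] with τ hτ
      refine integral_congr_ae ?_
      filter_upwards [Γ_zc_sub (p := p) hC hfin hs hC₀ ht hτ] with x a1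
      rw [a1]
    refine Tendsto.congr' h1 ?_
    suffices h : Tendsto (fun τ => ∫ x, (cz p s₀ C₀ τ x - cz p s₀ C₀ t x) ^ 2
          * (sob m).Γ (dc m p s₀ C₀) (dc m p s₀ C₀) x ∂m) (𝓝[Icc 0 1] t)
      (𝓝 (∫ x : M, (0 : ℝ) ∂m)) by rwa [h00] at h
    have hΓ0 : 0 ≤ (sob m).Γ (dc m p s₀ C₀) (dc m p s₀ C₀) := hC.nonneg _ hd.1
    have hΓi : Integrable (fun x => (sob m).Γ (dc m p s₀ C₀) (dc m p s₀ C₀) x) m :=
      int_of_mem (hC.mem1 _ hd.1)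
    refine tendsto_integral_filter_of_dominated_convergence
      (fun x => (r1 s₀ C₀ / s₀) ^ 2 * (sob m).Γ (dc m p s₀ C₀) (dc m p s₀ C₀) x) ?_ ?_
      (hΓi.const_mul _) ?_
    · filter_upwards [hmem] with τ hτ
      have h2 : ∀ s, Measurable (cz p s₀ C₀ s) := fun s =>
        (cz_measurable (M := M) p s₀ C₀).comp measurable_prodMk_left
      exact ((((h2 τ).sub (h2 t)).pow_const 2).mul
        ((sob m).Γ (dc m p s₀ C₀) (dc m p s₀ C₀)).measurable).aestronglyMeasurable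
    · filter_upwards [hmem] with τ hτ
      filter_upwards [nonneg_iff_ae.1 hΓ0] with x hx
      rw [Real.norm_eq_abs, abs_mul, abs_of_nonneg hx, abs_pow]
      have h2 := cz_le (p := p) hs hC₀ hτ x
      have h3 := cz_le (p := p) hs hC₀ ht x
      have h4 := cz_nonneg (p := p) (C₀ := C₀) hs hτ x
      have h5 := cz_nonneg (p := p) (C₀ := C₀) hs ht x
      have h6 : |cz p s₀ C₀ τ x - cz p s₀ C₀ t x| ≤ r1 s₀ C₀ / s₀ := by
        rw [abs_le]; constructor <;> linarith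
      gcongr
    · filter_upwards [Γ_loc0 hC hd.1 hd.1 (√(2 * C₀ * (t + s₀)) - r1 s₀ C₀),
        dtr_ae (m := m) p (r1 s₀ C₀), Γ_dtr_zero hC hfin p (r1 s₀ C₀) hd.1] with x a1 a2 a3
      by_cases hx : dist p x = √(2 * C₀ * (t + s₀))
      · have h2 : (sob m).Γ (dc m p s₀ C₀) (dc m p s₀ C₀) x = 0 := by
          rcases le_or_gt (r1 s₀ C₀) (dist p x) with h | h
          · exact a3 h
          · refine a1 ?_
            rw [← hx]
            exact a2.trans (dtr_eq h.le)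
        simp only [h2, mul_zero]
        exact tendsto_const_nhds
      · have h2 := (cz_tendsto (p := p) hs hC₀ ht hx).sub_const (cz p s₀ C₀ t x)
        rw [sub_self] at h2
        simpa using (h2.pow 2).mul_const ((sob m).Γ (dc m p s₀ C₀) (dc m p s₀ C₀) x)
  have := hL.add hE
  rw [add_zero] at this
  exact this

end Vale.Agent.P233.H183
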